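/-
S0534/S0535 library: basic definitions (see results.approach for row S0534 in the team db).
-/
import Mathlib
import Crest.Prelude.Def_AmpDamp

set_option autoImplicit false

namespace Crest.Agent.S0534Lib

open Matrix Crest.Quantum Crest.MathPhysics.AmpDamp
open scoped ComplexOrder

section defs

variable {n m : Type*} [Fintype n] [DecidableEq n] [Fintype m] [DecidableEq m]

/-- `tr f(M)` for a Hermitian matrix: the sum of `f` over the eigenvalues; junk `0` otherwise. -/
noncomputable def trFun (f : ℝ → ℝ) (M : Matrix n n ℂ) : ℝ :=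
  if h : M.IsHermitian then ∑ i, f (h.eigenvalues i) else 0

lemma trFun_of_isHermitian (f : ℝ → ℝ) {M : Matrix n n ℂ} (h : M.IsHermitian) :
    trFun f M = ∑ i, f (h.eigenvalues i) := by
  simp [trFun, h]

/-- The real part of the trace. -/
noncomputable def rtr (M : Matrix n n ℂ) : ℝ := (M.trace).re

/-- `Ent X = S̃(X) - η(tr X)`, i.e. `tr(X) · S(X / tr X)`: degree-one homogeneous. -/
noncomputable def Ent (M : Matrix n n ℂ) : ℝ := vnEntropy M - Real.negMulLog (rtr M)

lemma vnEntropy_eq_trFun (M : Matrix n n ℂ) : vnEntropy M = trFun Real.negMulLog M := by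
  unfold vnEntropy trFun
  split_ifs with h
  · rw [← Finset.sum_neg_distrib]
    refine Finset.sum_congr rfl fun i _ => ?_
    simp [Real.negMulLog]
  · rfl

/-- Number of eigenvalues strictly above `s`. -/
noncomputable def cnt (M : Matrix n n ℂ) (s : ℝ) : ℕ :=
  if h : M.IsHermitian then (Finset.univ.filter fun i => s < h.eigenvalues i).card else 0

end defs

section tree

variable {E K : Type*} [Fintype E] [DecidableEq E] [Fintype K] [DecidableEq K]

/-- The resolvent sandwich `A* (μ + Q)⁻¹ A` (on the column space `K`). -/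
noncomputable def sand (A : Matrix E K ℂ) (Q : Matrix E E ℂ) (μ : ℝ) : Matrix K K ℂ :=
  Aᴴ * ((μ : ℂ) • (1 : Matrix E E ℂ) + Q)⁻¹ * A

/-- The block matrix of the 4-path tree. -/
noncomputable def treeSigma (A C : Matrix E K ℂ) (Q W : Matrix E E ℂ) :
    Matrix (E ⊕ E) (E ⊕ E) ℂ :=
  Matrix.fromBlocks (A * Aᴴ + Q) (A * Cᴴ) (C * Aᴴ) (C * Cᴴ + W)

/-- The `2 × 2` scalar model `[[x+y, √(xz)], [√(xz), z+w]]` indexed by `Bool`
(`false` is the first row). -/
noncomputable def scalarM (x y z w : ℝ) : Matrix Bool Bool ℂ :=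
  Matrix.of fun s t =>
    match s, t with
    | false, false => ((x + y : ℝ) : ℂ)
    | false, true => ((Real.sqrt (x * z) : ℝ) : ℂ)
    | true, false => ((Real.sqrt (x * z) : ℝ) : ℂ)
    | true, true => ((z + w : ℝ) : ℂ)

end tree

/-- The "pure state" matrix with diagonal `x, y` and off-diagonal `√(xy)` (indexed by `Bool`, with
`false` carrying `x`). -/
noncomputable def pureM (x y : ℝ) : Matrix Bool Bool ℂ :=
  Matrix.of fun s t =>
    match s, t with
    | false, false => ((x : ℝ) : ℂ)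
    | false, true => ((Real.sqrt (x * y) : ℝ) : ℂ)
    | true, false => ((Real.sqrt (x * y) : ℝ) : ℂ)
    | true, true => ((y : ℝ) : ℂ)

/-- `gadMap ⊗ id` on matrices indexed by `Bool × E`. -/
noncomputable def gadId (γ ν : ℝ) {E : Type*} [Fintype E] [DecidableEq E]
    (Ω : Matrix (Bool × E) (Bool × E) ℂ) : Matrix (Bool × E) (Bool × E) ℂ :=
  qubitTensor (gadMap γ ν) (fun X : Matrix E E ℂ => X) Ω

/-- The minimum output entropy function `g(p) = binEntropy((1+√(1-4v))/2)` (the part of `gadRate`). -/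
noncomputable def gFun (γ ν p : ℝ) : ℝ :=
  Real.binEntropy ((1 + Real.sqrt (1 - 4 * (γ * ν * (1 - ν) + γ * (1 - γ) * (p - ν) ^ 2))) / 2)

lemma gadRate_eq (γ ν p : ℝ) :
    gadRate γ ν p = Real.binEntropy ((1 - γ) * p + γ * ν) - gFun γ ν p := rfl

/-- A function `f` which is the integral of a "layer density" `g`, `0 ≤ g ≤ 1`, supported on
`[0, X)` with `g s ≥ 1 - κ s`. -/
structure LayerFun (f g : ℝ → ℝ) (X κ : ℝ) : Prop where
  g_meas : Measurable g
  g_nonneg : ∀ s, 0 ≤ s → 0 ≤ g s
  g_le_one : ∀ s, 0 ≤ s → g s ≤ 1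
  g_zero : ∀ s, X ≤ s → g s = 0
  f_eq : ∀ l, 0 ≤ l → f l = ∫ s in (0 : ℝ)..l, g s
  g_lb : ∀ s, 0 ≤ s → s < X → 1 - κ * s ≤ g s

end Crest.Agent.S0534Lib
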