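/-
S0534 library: spectral basics for `trFun` (package P1).
-/
import Crest.Agent.S0534Lib.Basic

set_option autoImplicit false
set_option linter.unusedSectionVars false
set_option linter.unusedSimpArgs false

namespace Crest.Agent.S0534Lib

open Matrix Crest.Quantum
open scoped ComplexOrder Kronecker

variable {n m : Type*} [Fintype n] [DecidableEq n] [Fintype m] [DecidableEq m]

/-- If the eigenvalue multisets of a Hermitian matrix on `n` and of a family `w` on `m` have
the same (complex) multiset of values, then all eigenvalue sums agree. -/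
lemma sum_eq_of_coe_multiset_eq (f : ℝ → ℝ) (a : n → ℝ) (w : m → ℝ)
    (h : Multiset.map (fun i => (a i : ℂ)) Finset.univ.val
      = Multiset.map (fun j => (w j : ℂ)) Finset.univ.val) :
    ∑ i, f (a i) = ∑ j, f (w j) := by
  have h2 := congrArg (Multiset.map (fun z : ℂ => f z.re)) h
  simp only [Multiset.map_map, Function.comp_def, Complex.ofReal_re] at h2
  exact congrArg Multiset.sum h2

lemma sum_eigenvalues_eq_of_charpoly_eq (f : ℝ → ℝ) {M : Matrix n n ℂ} {N : Matrix m m ℂ}
    (hM : M.IsHermitian) (hN : N.IsHermitian) (h : M.charpoly.roots = N.charpoly.roots) :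
    ∑ i, f (hM.eigenvalues i) = ∑ j, f (hN.eigenvalues j) := by
  apply sum_eq_of_coe_multiset_eq
  have h1 := hM.roots_charpoly_eq_eigenvalues
  have h2 := hN.roots_charpoly_eq_eigenvalues
  rw [h, h2] at h1
  simpa [Function.comp_def] using h1.symm

theorem trFun_eq_of_charpoly_eq (f : ℝ → ℝ) {M N : Matrix n n ℂ} (hM : M.IsHermitian)
    (hN : N.IsHermitian) (h : M.charpoly = N.charpoly) : trFun f M = trFun f N := by
  rw [trFun_of_isHermitian f hM, trFun_of_isHermitian f hN]
  exact sum_eigenvalues_eq_of_charpoly_eq f hM hN (by rw [h])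

lemma isHermitian_unitary_conj {M U : Matrix n n ℂ} (hM : M.IsHermitian) :
    (U * M * Uᴴ).IsHermitian := by
  simpa using isHermitian_mul_mul_conjTranspose U hM

lemma charpoly_unitary_conj {M U : Matrix n n ℂ} (hU : U ∈ Matrix.unitaryGroup n ℂ) :
    (U * M * Uᴴ).charpoly = M.charpoly := by
  have h1 : Uᴴ * U = 1 := by
    have := (Matrix.mem_unitaryGroup_iff').1 hU
    simpa [Matrix.star_eq_conjTranspose] using this
  rw [Matrix.charpoly_mul_comm, ← Matrix.mul_assoc, h1, Matrix.one_mul]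

theorem trFun_unitary_conj (f : ℝ → ℝ) {M : Matrix n n ℂ} (hM : M.IsHermitian)
    {U : Matrix n n ℂ} (hU : U ∈ Matrix.unitaryGroup n ℂ) : trFun f (U * M * Uᴴ) = trFun f M :=
  trFun_eq_of_charpoly_eq f (isHermitian_unitary_conj hM) hM (charpoly_unitary_conj hU)

/-- If `M = U diag(w) U*` with `U` unitary, then `tr f(M) = ∑ f(w i)`. -/
theorem trFun_of_spectral (f : ℝ → ℝ) {M U : Matrix n n ℂ} (hU : U ∈ Matrix.unitaryGroup n ℂ)
    (w : n → ℝ) (h : M = U * Matrix.diagonal (fun i => (w i : ℂ)) * Uᴴ) :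
    trFun f M = ∑ i, f (w i) := by
  have hD : (Matrix.diagonal (fun i => (w i : ℂ))).IsHermitian := by
    apply Matrix.isHermitian_diagonal_of_self_adjoint
    ext i
    simp
  have hMH : M.IsHermitian := by rw [h]; exact isHermitian_unitary_conj hD
  rw [trFun_of_isHermitian f hMH]
  apply sum_eq_of_coe_multiset_eq
  have h1 := hMH.roots_charpoly_eq_eigenvalues
  have h2 : M.charpoly = ∏ i, (Polynomial.X - Polynomial.C (w i : ℂ)) := by
    rw [h, charpoly_unitary_conj hU, Matrix.charpoly_diagonal]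
  rw [h2, Polynomial.roots_prod _ _ (by simp [Finset.prod_ne_zero_iff, Polynomial.X_sub_C_ne_zero])] at h1
  simp only [Polynomial.roots_X_sub_C, Multiset.bind_singleton] at h1
  simpa [Function.comp_def] using h1.symm

/-- The unitary conjugation form of the spectral theorem. -/
lemma spectral_mul (M : Matrix n n ℂ) (hM : M.IsHermitian) :
    M = (hM.eigenvectorUnitary : Matrix n n ℂ) *
        Matrix.diagonal (fun i => (hM.eigenvalues i : ℂ)) * (hM.eigenvectorUnitary : Matrix n n ℂ)ᴴ := by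
  conv_lhs => rw [hM.spectral_theorem, Unitary.conjStarAlgAut_apply]
  rfl

theorem trFun_submatrix (f : ℝ → ℝ) (e : m ≃ n) {M : Matrix n n ℂ} (hM : M.IsHermitian) :
    trFun f (M.submatrix e e) = trFun f M := by
  have hS : (M.submatrix e e).IsHermitian := hM.submatrix e
  rw [trFun_of_isHermitian f hS, trFun_of_isHermitian f hM]
  apply sum_eigenvalues_eq_of_charpoly_eq
  have := Matrix.charpoly_reindex e.symm M
  rw [Matrix.reindex_apply, Equiv.symm_symm] at this
  rw [this]

theorem vnEntropy_submatrix (e : m ≃ n) {M : Matrix n n ℂ} (hM : M.IsHermitian) :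
    vnEntropy (M.submatrix e e) = vnEntropy M := by
  rw [vnEntropy_eq_trFun, vnEntropy_eq_trFun, trFun_submatrix _ e hM]

theorem trFun_smul (f : ℝ → ℝ) (c : ℝ) {M : Matrix n n ℂ} (hM : M.IsHermitian) :
    trFun f ((c : ℂ) • M) = ∑ i, f (c * hM.eigenvalues i) := by
  apply trFun_of_spectral f hM.eigenvectorUnitary.2 (fun i => c * hM.eigenvalues i)
  conv_lhs => rw [spectral_mul M hM]
  have : Matrix.diagonal (fun i => (((c * hM.eigenvalues i : ℝ)) : ℂ))
      = (c : ℂ) • Matrix.diagonal (fun i => (hM.eigenvalues i : ℂ)) := by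
    ext i j
    by_cases hij : i = j <;> simp [Matrix.diagonal_apply, hij]
  rw [this, Matrix.mul_smul, Matrix.smul_mul]

theorem trFun_kronecker (f : ℝ → ℝ) {X : Matrix n n ℂ} {Y : Matrix m m ℂ} (hX : X.IsHermitian)
    (hY : Y.IsHermitian) :
    trFun f (X ⊗ₖ Y) = ∑ i, ∑ j, f (hX.eigenvalues i * hY.eigenvalues j) := by
  rw [← Finset.sum_product' (f := fun i j => f (hX.eigenvalues i * hY.eigenvalues j))]
  have hU : ((hX.eigenvectorUnitary : Matrix n n ℂ) ⊗ₖ (hY.eigenvectorUnitary : Matrix m m ℂ))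
      ∈ Matrix.unitaryGroup (n × m) ℂ := by
    rw [Matrix.mem_unitaryGroup_iff, Matrix.star_eq_conjTranspose, Matrix.conjTranspose_kronecker,
      ← Matrix.mul_kronecker_mul]
    have h1 := (Matrix.mem_unitaryGroup_iff).1 hX.eigenvectorUnitary.2
    have h2 := (Matrix.mem_unitaryGroup_iff).1 hY.eigenvectorUnitary.2
    rw [Matrix.star_eq_conjTranspose] at h1 h2
    rw [h1, h2, Matrix.one_kronecker_one]
  have := trFun_of_spectral f hU (fun p : n × m => hX.eigenvalues p.1 * hY.eigenvalues p.2)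
    (M := X ⊗ₖ Y) ?_
  · simpa [Finset.univ_product_univ] using this
  · conv_lhs => rw [spectral_mul X hX, spectral_mul Y hY]
    rw [Matrix.mul_kronecker_mul, Matrix.mul_kronecker_mul, Matrix.conjTranspose_kronecker]
    congr 2
    ext ⟨i, j⟩ ⟨k, l⟩
    simp only [Matrix.kroneckerMap_apply, Matrix.diagonal_apply, Prod.mk.injEq]
    by_cases h1 : i = k <;> by_cases h2 : j = l <;> simp [h1, h2]

theorem det_shift_eq_prod {M : Matrix n n ℂ} (hM : M.IsHermitian) (μ : ℝ) :
    det ((μ : ℂ) • (1 : Matrix n n ℂ) + M) = ∏ i, ((μ + hM.eigenvalues i : ℝ) : ℂ) := by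
  set U : Matrix n n ℂ := hM.eigenvectorUnitary.1 with hUdef
  have hU1 : U * Uᴴ = 1 := by
    have h1 := (Matrix.mem_unitaryGroup_iff).1 hM.eigenvectorUnitary.2
    rwa [Matrix.star_eq_conjTranspose] at h1
  have hU2 : Uᴴ * U = 1 := by
    have h1 := (Matrix.mem_unitaryGroup_iff').1 hM.eigenvectorUnitary.2
    rwa [Matrix.star_eq_conjTranspose] at h1
  have key : (μ : ℂ) • (1 : Matrix n n ℂ) + M
      = U * Matrix.diagonal (fun i => ((μ + hM.eigenvalues i : ℝ) : ℂ)) * Uᴴ := by
    have hd : Matrix.diagonal (fun i => ((μ + hM.eigenvalues i : ℝ) : ℂ))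
        = (μ : ℂ) • (1 : Matrix n n ℂ) + Matrix.diagonal (fun i => (hM.eigenvalues i : ℂ)) := by
      ext i j
      by_cases hij : i = j <;> simp [Matrix.diagonal_apply, hij, Matrix.one_apply]
    rw [hd, Matrix.mul_add, Matrix.add_mul, Matrix.mul_smul, Matrix.smul_mul, Matrix.mul_one, hU1,
      ← spectral_mul M hM]
  rw [key, Matrix.det_mul, Matrix.det_mul, mul_right_comm, ← Matrix.det_mul, hU1, Matrix.det_one,
    one_mul, Matrix.det_diagonal]

theorem rtr_eq_sum_eigenvalues {M : Matrix n n ℂ} (hM : M.IsHermitian) :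
    rtr M = ∑ i, hM.eigenvalues i := by
  unfold rtr
  rw [hM.trace_eq_sum_eigenvalues]
  simp

theorem eigenvalue_le_rtr {M : Matrix n n ℂ} (hM : M.PosSemidef) (i : n) :
    hM.1.eigenvalues i ≤ rtr M := by
  rw [rtr_eq_sum_eigenvalues hM.1]
  exact Finset.single_le_sum (f := hM.1.eigenvalues) (fun j _ => hM.eigenvalues_nonneg j)
    (Finset.mem_univ i)

lemma dotProduct_conj (U : Matrix n n ℂ) (D : Matrix n n ℂ) (v : n → ℂ) :
    star v ⬝ᵥ ((U * D * Uᴴ) *ᵥ v) = star (Uᴴ *ᵥ v) ⬝ᵥ (D *ᵥ (Uᴴ *ᵥ v)) := by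
  rw [Matrix.star_mulVec, Matrix.conjTranspose_conjTranspose, ← Matrix.mulVec_mulVec,
    ← Matrix.mulVec_mulVec, Matrix.dotProduct_mulVec]

/-- `v* M v ≤ tr(M) v* v` for PSD `M`. -/
theorem quadForm_le_rtr {M : Matrix n n ℂ} (hM : M.PosSemidef) (v : n → ℂ) :
    (star v ⬝ᵥ (M *ᵥ v)).re ≤ rtr M * (star v ⬝ᵥ v).re := by
  set U : Matrix n n ℂ := hM.1.eigenvectorUnitary.1 with hUdef
  have hU1 : U * Uᴴ = 1 := by
    have h1 := (Matrix.mem_unitaryGroup_iff).1 hM.1.eigenvectorUnitary.2
    rwa [Matrix.star_eq_conjTranspose] at h1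
  set w : n → ℂ := Uᴴ *ᵥ v with hw
  have hv : star v ⬝ᵥ v = star w ⬝ᵥ w := by
    have := dotProduct_conj U 1 v
    rw [Matrix.mul_one, hU1, Matrix.one_mulVec, Matrix.one_mulVec] at this
    exact this
  have hq : star v ⬝ᵥ (M *ᵥ v) = star w ⬝ᵥ (Matrix.diagonal (fun i => (hM.1.eigenvalues i : ℂ)) *ᵥ w) := by
    conv_lhs => rw [spectral_mul M hM.1]
    exact dotProduct_conj U _ v
  have hnorm : (star w ⬝ᵥ w).re = ∑ i, ‖w i‖ ^ 2 := by
    simp only [dotProduct, Pi.star_apply, Complex.re_sum]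
    refine Finset.sum_congr rfl fun i _ => ?_
    rw [Complex.star_def, Complex.conj_mul']
    norm_cast
  have hq2 : (star w ⬝ᵥ (Matrix.diagonal (fun i => (hM.1.eigenvalues i : ℂ)) *ᵥ w)).re
      = ∑ i, hM.1.eigenvalues i * ‖w i‖ ^ 2 := by
    simp only [Matrix.mulVec_diagonal, dotProduct, Pi.star_apply, Complex.re_sum]
    refine Finset.sum_congr rfl fun i _ => ?_
    have hstar : star (w i) * w i = ((‖w i‖ ^ 2 : ℝ) : ℂ) := by
      rw [Complex.star_def, Complex.conj_mul']
      norm_cast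
    rw [mul_left_comm, hstar]
    simp only [Complex.mul_re, Complex.ofReal_re, Complex.ofReal_im, mul_zero, sub_zero]
  rw [hq, hv, hq2, hnorm, Finset.mul_sum]
  refine Finset.sum_le_sum fun i _ => ?_
  exact mul_le_mul_of_nonneg_right (eigenvalue_le_rtr hM i) (by positivity)

/-- Power sums of eigenvalues are traces of powers. -/
lemma sum_eigenvalues_pow {M : Matrix n n ℂ} (hM : M.IsHermitian) (k : ℕ) :
    ∑ i, hM.eigenvalues i ^ k = ((M ^ k).trace).re := by
  set U : Matrix n n ℂ := hM.eigenvectorUnitary.1 with hUdef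
  have hU2 : Uᴴ * U = 1 := by
    have h1 := (Matrix.mem_unitaryGroup_iff').1 hM.eigenvectorUnitary.2
    rwa [Matrix.star_eq_conjTranspose] at h1
  have h : M ^ k = U * Matrix.diagonal (fun i => ((hM.eigenvalues i : ℂ)) ^ k) * Uᴴ := by
    conv_lhs => rw [hM.spectral_theorem]
    rw [← map_pow, Unitary.conjStarAlgAut_apply, Matrix.diagonal_pow]
    rfl
  rw [h, Matrix.trace_mul_comm, ← Matrix.mul_assoc, hU2, Matrix.one_mul, Matrix.trace_diagonal]
  simp only [Complex.re_sum]
  refine Finset.sum_congr rfl fun i _ => ?_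
  rw [← Complex.ofReal_pow, Complex.ofReal_re]

/-- Polynomial sums of eigenvalues are a continuous function of the matrix. -/
noncomputable def polyTrace (p : Polynomial ℝ) (M : Matrix n n ℂ) : ℝ :=
  ∑ k ∈ p.support, p.coeff k * ((M ^ k).trace).re

lemma sum_eval_eigenvalues (p : Polynomial ℝ) {M : Matrix n n ℂ} (hM : M.IsHermitian) :
    ∑ i, p.eval (hM.eigenvalues i) = polyTrace p M := by
  unfold polyTrace
  simp_rw [Polynomial.eval_eq_sum, Polynomial.sum_def]
  rw [Finset.sum_comm]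
  refine Finset.sum_congr rfl fun k _ => ?_
  rw [← Finset.mul_sum, sum_eigenvalues_pow hM]

lemma continuous_polyTrace (p : Polynomial ℝ) : Continuous (polyTrace (n := n) p) := by
  unfold polyTrace
  refine continuous_finsetSum _ fun k _ => ?_
  refine continuous_const.mul ?_
  exact Complex.continuous_re.comp (Continuous.matrix_trace (continuous_id.pow k))

/-- Continuity of trace functions along sequences of Hermitian matrices
(polynomial approximation on a bounded interval: `∑ p(eig) = tr p(M)`). -/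
theorem tendsto_trFun {ι : Type*} {l : Filter ι} {f : ℝ → ℝ} (hf : Continuous f)
    {M : ι → Matrix n n ℂ} {M₀ : Matrix n n ℂ} (hM : ∀ i, (M i).IsHermitian)
    (hM₀ : M₀.IsHermitian) (hlim : Filter.Tendsto M l (nhds M₀)) :
    Filter.Tendsto (fun i => trFun f (M i)) l (nhds (trFun f M₀)) := by
  classical
  have hsq : ∀ {N : Matrix n n ℂ} (hN : N.IsHermitian) (i : n),
      hN.eigenvalues i ^ 2 ≤ ((N ^ 2).trace).re := by
    intro N hN i
    rw [← sum_eigenvalues_pow hN 2]
    exact Finset.single_le_sum (f := fun j => hN.eigenvalues j ^ 2) (fun j _ => by positivity)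
      (Finset.mem_univ i)
  set B : ℝ := ((M₀ ^ 2).trace).re + 1 with hB
  set R : ℝ := Real.sqrt B with hR
  have hmem : ∀ x : ℝ, x ^ 2 ≤ B → x ∈ Set.Icc (-R) R := by
    intro x hx
    exact abs_le.1 (Real.abs_le_sqrt hx)
  have hcontsq : Continuous (fun N : Matrix n n ℂ => ((N ^ 2).trace).re) :=
    Complex.continuous_re.comp (Continuous.matrix_trace (continuous_id.pow 2))
  have hBev : ∀ᶠ i in l, ((M i ^ 2).trace).re < B := by
    have h1 := (hcontsq.tendsto M₀).comp hlim
    exact h1.eventually (gt_mem_nhds (by rw [hB]; linarith))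
  rw [Metric.tendsto_nhds]
  intro ε hε
  set N : ℝ := (Fintype.card n : ℝ) + 1 with hN
  have hNpos : 0 < N := by rw [hN]; positivity
  obtain ⟨p, hp⟩ := exists_polynomial_near_of_continuousOn (-R) R f hf.continuousOn (ε / (3 * N))
    (by positivity)
  have hpoly : ∀ᶠ i in l, |polyTrace p (M i) - polyTrace p M₀| < ε / 3 := by
    have h1 := ((continuous_polyTrace p).tendsto M₀).comp hlim
    have h2 := Metric.tendsto_nhds.1 h1 (ε / 3) (by positivity)
    simpa [Real.dist_eq] using h2
  have happrox : ∀ {N' : Matrix n n ℂ} (hN' : N'.IsHermitian), ((N' ^ 2).trace).re ≤ B →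
      |trFun f N' - polyTrace p N'| ≤ ε / 3 := by
    intro N' hN' hb
    rw [trFun_of_isHermitian f hN', ← sum_eval_eigenvalues p hN', ← Finset.sum_sub_distrib]
    calc |∑ i, (f (hN'.eigenvalues i) - p.eval (hN'.eigenvalues i))|
        ≤ ∑ i, |f (hN'.eigenvalues i) - p.eval (hN'.eigenvalues i)| :=
          Finset.abs_sum_le_sum_abs _ _
      _ ≤ ∑ _i : n, ε / (3 * N) := by
          refine Finset.sum_le_sum fun i _ => ?_
          rw [abs_sub_comm]
          exact (hp _ (hmem _ ((hsq hN' i).trans hb))).le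
      _ = (Fintype.card n : ℝ) * (ε / (3 * N)) := by simp
      _ ≤ N * (ε / (3 * N)) := by
          apply mul_le_mul_of_nonneg_right _ (by positivity)
          rw [hN]; linarith
      _ = ε / 3 := by field_simp
  filter_upwards [hBev, hpoly] with i hi1 hi2
  have h1 := happrox (hM i) hi1.le
  have h2 := happrox hM₀ (by rw [hB]; linarith)
  rw [Real.dist_eq]
  have h3 := abs_lt.1 hi2
  have h4 := abs_le.1 h1
  have h5 := abs_le.1 h2
  rw [abs_lt]
  constructor <;> linarith [h3.1, h3.2, h4.1, h4.2, h5.1, h5.2]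

end Crest.Agent.S0534Lib
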