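/-
S0534 library: Peierls inequality, entropy of blocks, `Ent` (package P2).
-/
import Crest.Agent.S0534Lib.Spectral

set_option autoImplicit false

namespace Crest.Agent.S0534Lib

open Matrix Crest.Quantum
open scoped ComplexOrder Kronecker

variable {n m : Type*} [Fintype n] [DecidableEq n] [Fintype m] [DecidableEq m]

/-- Spectral decomposition in explicit matrix form. -/
lemma spectral_mat {M : Matrix n n ℂ} (hM : M.IsHermitian) :
    M = (hM.eigenvectorUnitary : Matrix n n ℂ) *
      Matrix.diagonal (fun i => ((hM.eigenvalues i : ℝ) : ℂ)) *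
      (hM.eigenvectorUnitary : Matrix n n ℂ)ᴴ := by
  have h := hM.spectral_theorem
  rw [Unitary.conjStarAlgAut_apply] at h
  conv_lhs => rw [h]
  rfl

lemma unitary_sum_col {W : Matrix n n ℂ} (hW : W ∈ Matrix.unitaryGroup n ℂ) (j : n) :
    ∑ i, ‖W i j‖ ^ 2 = 1 := by
  have h : Wᴴ * W = 1 := by
    have := (Matrix.mem_unitaryGroup_iff').1 hW
    simpa [Matrix.star_eq_conjTranspose] using this
  have h2 := congrFun (congrFun h j) j
  simp only [Matrix.mul_apply, Matrix.conjTranspose_apply, Matrix.one_apply_eq] at h2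
  have h3 : ∀ i, star (W i j) * W i j = ((‖W i j‖ ^ 2 : ℝ) : ℂ) := by
    intro i
    rw [Complex.star_def, ← Complex.normSq_eq_conj_mul_self, Complex.normSq_eq_norm_sq]
  simp_rw [h3] at h2
  exact_mod_cast h2

lemma unitary_sum_row {W : Matrix n n ℂ} (hW : W ∈ Matrix.unitaryGroup n ℂ) (i : n) :
    ∑ j, ‖W i j‖ ^ 2 = 1 := by
  have h : W * Wᴴ = 1 := by
    have := (Matrix.mem_unitaryGroup_iff).1 hW
    simpa [Matrix.star_eq_conjTranspose] using this
  have h2 := congrFun (congrFun h i) i
  simp only [Matrix.mul_apply, Matrix.conjTranspose_apply, Matrix.one_apply_eq] at h2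
  have h3 : ∀ j, W i j * star (W i j) = ((‖W i j‖ ^ 2 : ℝ) : ℂ) := by
    intro j
    rw [Complex.star_def, Complex.mul_conj, Complex.normSq_eq_norm_sq]
  simp_rw [h3] at h2
  exact_mod_cast h2

/-- Diagonal entries of the conjugate of a Hermitian matrix by a unitary: doubly stochastic
averages of the eigenvalues. -/
lemma conj_diag_eq {M : Matrix n n ℂ} (hM : M.IsHermitian) (U : Matrix n n ℂ) (j : n) :
    ((Uᴴ * M * U) j j).re =
      ∑ i, ‖((hM.eigenvectorUnitary : Matrix n n ℂ)ᴴ * U) i j‖ ^ 2 * hM.eigenvalues i := by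
  set V : Matrix n n ℂ := (hM.eigenvectorUnitary : Matrix n n ℂ) with hV
  set W : Matrix n n ℂ := Vᴴ * U with hWdef
  have hconj : Uᴴ * M * U = Wᴴ * Matrix.diagonal (fun i => ((hM.eigenvalues i : ℝ) : ℂ)) * W := by
    conv_lhs => rw [spectral_mat hM]
    simp only [hWdef, Matrix.conjTranspose_mul, Matrix.conjTranspose_conjTranspose, Matrix.mul_assoc]
    rfl
  rw [hconj]
  simp only [Matrix.mul_apply, Matrix.diagonal_apply, Matrix.conjTranspose_apply]
  rw [Complex.re_sum]
  refine Finset.sum_congr rfl fun i _ => ?_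
  rw [Finset.sum_eq_single i]
  · simp only [if_true]
    have : star (W i j) * ((hM.eigenvalues i : ℝ) : ℂ) * W i j =
        ((‖W i j‖ ^ 2 * hM.eigenvalues i : ℝ) : ℂ) := by
      have h3 : star (W i j) * W i j = ((‖W i j‖ ^ 2 : ℝ) : ℂ) := by
        rw [Complex.star_def, ← Complex.normSq_eq_conj_mul_self, Complex.normSq_eq_norm_sq]
      push_cast
      push_cast at h3
      rw [mul_right_comm, h3]
    rw [this, Complex.ofReal_re]
  · intro b _ hb
    simp [hb]
  · simp

/-- Peierls: for concave `f` and any orthonormal basis (columns of the unitary `U`),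
`tr f(M) ≤ ∑ f(⟨u_j, M u_j⟩)`. -/
theorem trFun_le_sum_diag {f : ℝ → ℝ} (hf : ConcaveOn ℝ (Set.Ici 0) f) {M : Matrix n n ℂ}
    (hM : M.PosSemidef) {U : Matrix n n ℂ} (hU : U ∈ Matrix.unitaryGroup n ℂ) :
    trFun f M ≤ ∑ j, f (((Uᴴ * M * U) j j).re) := by
  set V : Matrix n n ℂ := (hM.1.eigenvectorUnitary : Matrix n n ℂ) with hV
  set W : Matrix n n ℂ := Vᴴ * U with hWdef
  have hVu : V ∈ Matrix.unitaryGroup n ℂ := hM.1.eigenvectorUnitary.2
  have hVs : Vᴴ ∈ Matrix.unitaryGroup n ℂ := by
    have := Unitary.star_mem hVu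
    simpa [Matrix.star_eq_conjTranspose] using this
  have hW : W ∈ Matrix.unitaryGroup n ℂ := Submonoid.mul_mem _ hVs hU
  rw [trFun_of_isHermitian _ hM.1]
  calc ∑ i, f (hM.1.eigenvalues i)
      = ∑ i, ∑ j, ‖W i j‖ ^ 2 * f (hM.1.eigenvalues i) := by
        refine Finset.sum_congr rfl fun i _ => ?_
        rw [← Finset.sum_mul, unitary_sum_row hW, one_mul]
    _ = ∑ j, ∑ i, ‖W i j‖ ^ 2 * f (hM.1.eigenvalues i) := Finset.sum_comm
    _ ≤ ∑ j, f (∑ i, ‖W i j‖ ^ 2 * hM.1.eigenvalues i) := by
        refine Finset.sum_le_sum fun j _ => ?_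
        have := hf.le_map_sum (t := Finset.univ) (w := fun i => ‖W i j‖ ^ 2)
          (p := fun i => hM.1.eigenvalues i) (fun i _ => by positivity)
          (unitary_sum_col hW j) (fun i _ => hM.eigenvalues_nonneg i)
        simpa [smul_eq_mul] using this
    _ = ∑ j, f (((Uᴴ * M * U) j j).re) := by
        refine Finset.sum_congr rfl fun j _ => ?_
        rw [conj_diag_eq hM.1 U j]

/-- Classical subadditivity of the Shannon entropy. -/
lemma classical_subadd {A B : Type*} [Fintype A] [Fintype B] (t : A → B → ℝ)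
    (h0 : ∀ a b, 0 ≤ t a b) (h1 : ∑ a, ∑ b, t a b = 1) :
    ∑ a, ∑ b, Real.negMulLog (t a b) ≤
      ∑ a, Real.negMulLog (∑ b, t a b) + ∑ b, Real.negMulLog (∑ a, t a b) := by
  set α : A → ℝ := fun a => ∑ b, t a b with hα
  set β : B → ℝ := fun b => ∑ a, t a b with hβ
  have hαle : ∀ a b, t a b ≤ α a := fun a b =>
    Finset.single_le_sum (f := fun b => t a b) (fun b _ => h0 a b) (Finset.mem_univ b)
  have hβle : ∀ a b, t a b ≤ β b := fun a b =>
    Finset.single_le_sum (f := fun a => t a b) (fun a _ => h0 a b) (Finset.mem_univ a)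
  have hαnn : ∀ a, 0 ≤ α a := fun a => Finset.sum_nonneg fun b _ => h0 a b
  have hβnn : ∀ b, 0 ≤ β b := fun b => Finset.sum_nonneg fun a _ => h0 a b
  -- pointwise inequality
  have hp : ∀ a b, t a b * Real.log (α a) + t a b * Real.log (β b) ≤
      t a b * Real.log (t a b) + α a * β b - t a b := by
    intro a b
    rcases (h0 a b).eq_or_lt with h | h
    · rw [← h]
      simpa using mul_nonneg (hαnn a) (hβnn b)
    · have ha : 0 < α a := lt_of_lt_of_le h (hαle a b)
      have hb : 0 < β b := lt_of_lt_of_le h (hβle a b)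
      have hu := Real.log_le_sub_one_of_pos (div_pos (mul_pos ha hb) h)
      rw [Real.log_div (mul_pos ha hb).ne' h.ne', Real.log_mul ha.ne' hb.ne'] at hu
      have := mul_le_mul_of_nonneg_left hu h.le
      have h2 : t a b * (α a * β b / t a b - 1) = α a * β b - t a b := by
        field_simp
      rw [h2] at this
      nlinarith
  have hsum := Finset.sum_le_sum (s := Finset.univ) fun a _ =>
    Finset.sum_le_sum (s := Finset.univ) fun b _ => hp a b
  have e1 : ∑ a, ∑ b, (t a b * Real.log (α a) + t a b * Real.log (β b)) =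
      ∑ a, α a * Real.log (α a) + ∑ b, β b * Real.log (β b) := by
    simp_rw [Finset.sum_add_distrib]
    congr 1
    · refine Finset.sum_congr rfl fun a _ => ?_
      rw [← Finset.sum_mul]
    · rw [Finset.sum_comm]
      refine Finset.sum_congr rfl fun b _ => ?_
      rw [← Finset.sum_mul]
  have e2 : ∑ a, ∑ b, (t a b * Real.log (t a b) + α a * β b - t a b) =
      ∑ a, ∑ b, t a b * Real.log (t a b) := by
    have hαs : ∑ a, α a = 1 := h1
    have hβs : ∑ b, β b = 1 := by
      rw [← h1]
      exact Finset.sum_comm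
    simp_rw [Finset.sum_sub_distrib, Finset.sum_add_distrib]
    have : ∑ a, ∑ b, α a * β b = 1 := by
      simp_rw [← Finset.mul_sum, hβs, mul_one, hαs]
    rw [this, h1]
    ring
  rw [e1, e2] at hsum
  simp only [Real.negMulLog]
  have e3 : ∀ x : ℝ, -x * Real.log x = -(x * Real.log x) := fun x => by ring
  simp_rw [e3, Finset.sum_neg_distrib]
  linarith

section block

variable {e : Type*} [Fintype e] [DecidableEq e]

omit [Fintype e] [DecidableEq e] in
lemma block_eq_submatrix {k : Type*} (τ : Matrix (k × e) (k × e) ℂ) (b : k) :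
    block τ b b = τ.submatrix (fun i => (b, i)) (fun i => (b, i)) := by
  ext i j
  rfl

omit [Fintype e] [DecidableEq e] in
lemma block_posSemidef {k : Type*} {τ : Matrix (k × e) (k × e) ℂ} (hτ : τ.PosSemidef) (b : k) :
    (block τ b b).PosSemidef := by
  rw [block_eq_submatrix]
  exact hτ.submatrix _

/-- `S(τ) ≤ h(tr τ₁₁) + S(τ₀₀ + τ₁₁)`. -/
theorem entropy_block_le
    {τ : Matrix (Bool × e) (Bool × e) ℂ} (hτ : τ.PosSemidef) (htr : rtr τ = 1) :
    vnEntropy τ ≤ Real.binEntropy (rtr (block τ true true)) +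
      vnEntropy (block τ false false + block τ true true) := by
  set R : Matrix e e ℂ := block τ false false + block τ true true with hRdef
  have hR : R.PosSemidef := (block_posSemidef hτ false).add (block_posSemidef hτ true)
  set V : Matrix e e ℂ := (hR.1.eigenvectorUnitary : Matrix e e ℂ) with hV
  have hVu : V ∈ Matrix.unitaryGroup e ℂ := hR.1.eigenvectorUnitary.2
  have hVH : Vᴴ * V = 1 := by
    have := (Matrix.mem_unitaryGroup_iff').1 hVu
    simpa [Matrix.star_eq_conjTranspose] using this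
  have hVH' : V * Vᴴ = 1 := by
    have := (Matrix.mem_unitaryGroup_iff).1 hVu
    simpa [Matrix.star_eq_conjTranspose] using this
  -- the block diagonal unitary
  set U : Matrix (Bool × e) (Bool × e) ℂ := (1 : Matrix Bool Bool ℂ) ⊗ₖ V with hUdef
  have hU : U ∈ Matrix.unitaryGroup (Bool × e) ℂ := by
    rw [Matrix.mem_unitaryGroup_iff]
    change U * Uᴴ = 1
    rw [hUdef, Matrix.conjTranspose_kronecker, ← Matrix.mul_kronecker_mul]
    simp [hVH']
  set t : Bool → e → ℝ := fun b j => ((Vᴴ * block τ b b * V) j j).re with ht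
  have hentry : ∀ b j, ((Uᴴ * τ * U) (b, j) (b, j)).re = t b j := by
    intro b j
    have : (Uᴴ * τ * U) (b, j) (b, j) = (Vᴴ * block τ b b * V) j j := by
      simp only [Matrix.mul_apply, hUdef, Matrix.conjTranspose_apply, Matrix.kroneckerMap_apply,
        Matrix.one_apply, Fintype.sum_prod_type, Fintype.sum_bool]
      cases b <;> simp [block]
    rw [this]
  have ht0 : ∀ b j, 0 ≤ t b j := by
    intro b j
    have h := (block_posSemidef hτ b).conjTranspose_mul_mul_same V
    have := h.diag_nonneg (i := j)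
    exact (Complex.le_def.1 this).1
  have hstart := trFun_le_sum_diag Real.concaveOn_negMulLog hτ hU
  rw [← vnEntropy_eq_trFun, Fintype.sum_prod_type] at hstart
  simp_rw [hentry] at hstart
  have hrow : ∀ b, ∑ j, t b j = rtr (block τ b b) := by
    intro b
    simp only [ht, rtr]
    rw [← Complex.re_sum]
    congr 1
    change Matrix.trace (Vᴴ * block τ b b * V) = _
    rw [Matrix.trace_mul_cycle, hVH', Matrix.one_mul]
  have hcol : ∀ j, ∑ b, t b j = hR.1.eigenvalues j := by
    intro j
    have h1 : ∑ b, t b j = ((Vᴴ * R * V) j j).re := by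
      simp only [ht, Fintype.sum_bool, hRdef, Matrix.mul_add, Matrix.add_mul, Matrix.add_apply,
        Complex.add_re]
      ring
    rw [h1]
    -- `Vᴴ R V` is the diagonal matrix of eigenvalues
    have h2 := conj_diag_eq hR.1 V j
    have h3 : (hR.1.eigenvectorUnitary : Matrix e e ℂ)ᴴ * V = 1 := hVH
    rw [h3] at h2
    rw [h2, Finset.sum_eq_single j]
    · simp
    · intro b _ hb
      simp [Matrix.one_apply_ne hb]
    · simp
  have htotal : ∑ b, ∑ j, t b j = 1 := by
    simp_rw [hrow]
    have : rtr τ = ∑ b, rtr (block τ b b) := by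
      simp only [rtr, Matrix.trace, Fintype.sum_prod_type, Matrix.diag_apply, block,
        Matrix.of_apply, Complex.re_sum]
    rw [← this, htr]
  have hsub := classical_subadd t ht0 htotal
  have hent : vnEntropy R = ∑ j, Real.negMulLog (hR.1.eigenvalues j) := by
    rw [vnEntropy_eq_trFun, trFun_of_isHermitian _ hR.1]
  have hbin : Real.binEntropy (rtr (block τ true true)) =
      ∑ b, Real.negMulLog (∑ j, t b j) := by
    simp_rw [hrow]
    rw [Real.binEntropy_eq_negMulLog_add_negMulLog_one_sub, Fintype.sum_bool]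
    have : rtr (block τ false false) + rtr (block τ true true) = 1 := by
      have h1 := htotal
      simp_rw [hrow, Fintype.sum_bool] at h1
      linarith
    have h2 : 1 - rtr (block τ true true) = rtr (block τ false false) := by linarith
    rw [h2]
  rw [hbin, hent]
  simp_rw [hcol] at hsub
  exact hstart.trans hsub

end block

lemma rtr_smul_real (c : ℝ) (X : Matrix n n ℂ) : rtr ((c : ℂ) • X) = c * rtr X := by
  simp [rtr, Matrix.trace_smul]

theorem Ent_smul {c : ℝ} (hc : 0 ≤ c) {X : Matrix n n ℂ} (hX : X.PosSemidef) :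
    Ent ((c : ℂ) • X) = c * Ent X := by
  unfold Ent
  rw [vnEntropy_eq_trFun, vnEntropy_eq_trFun, trFun_smul _ c hX.1, trFun_of_isHermitian _ hX.1,
    rtr_smul_real, rtr_eq_sum_eigenvalues hX.1]
  simp_rw [Real.negMulLog_mul]
  rw [Finset.sum_add_distrib, ← Finset.mul_sum, ← Finset.sum_mul]
  ring

/-- Log-sum inequality. -/
lemma log_sum_le {ι : Type*} [Fintype ι] (a c : ι → ℝ) (ha : ∀ j, 0 ≤ a j) (hac : ∀ j, a j ≤ c j) :
    ∑ j, a j * (Real.log (c j) - Real.log (a j)) ≤
      (∑ j, a j) * (Real.log (∑ j, c j) - Real.log (∑ j, a j)) := by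
  set A := ∑ j, a j with hA
  set C := ∑ j, c j with hC
  have hA0 : 0 ≤ A := Finset.sum_nonneg fun j _ => ha j
  have hAC : A ≤ C := Finset.sum_le_sum fun j _ => hac j
  rcases hA0.eq_or_lt with h | hApos
  · have hz : ∀ j, a j = 0 := fun j =>
      (Finset.sum_eq_zero_iff_of_nonneg fun j _ => ha j).1 h.symm j (Finset.mem_univ j)
    simp [hz, ← h]
  have hCpos : 0 < C := hApos.trans_le hAC
  have key : ∀ j, a j * (Real.log (c j) - Real.log (a j)) + a j * (Real.log A - Real.log C) ≤
      c j * (A / C) - a j := by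
    intro j
    rcases (ha j).eq_or_lt with h | hj
    · rw [← h]
      have hcj : 0 ≤ c j := by simpa [← h] using hac j
      have : 0 ≤ c j * (A / C) := by positivity
      simpa using this
    · have hcj : 0 < c j := hj.trans_le (hac j)
      have ht : 0 < c j / a j * (A / C) := by positivity
      have hl := Real.log_le_sub_one_of_pos ht
      rw [Real.log_mul (by positivity) (by positivity), Real.log_div hcj.ne' hj.ne',
        Real.log_div hApos.ne' hCpos.ne'] at hl
      have := mul_le_mul_of_nonneg_left hl hj.le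
      have e : a j * (c j / a j * (A / C) - 1) = c j * (A / C) - a j := by
        field_simp
      rw [e] at this
      linarith
  have hs := Finset.sum_le_sum fun j (_ : j ∈ Finset.univ) => key j
  rw [Finset.sum_add_distrib, Finset.sum_sub_distrib, ← Finset.sum_mul, ← Finset.sum_mul, ← hA, ← hC,
    mul_div_cancel₀ _ hCpos.ne'] at hs
  nlinarith

/-- Classical form of the concavity of `Ent`. -/
lemma ent_classical {ι : Type*} [Fintype ι] (a b : ι → ℝ) (ha : ∀ j, 0 ≤ a j) (hb : ∀ j, 0 ≤ b j) :
    (∑ j, Real.negMulLog (a j) - Real.negMulLog (∑ j, a j)) +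
      (∑ j, Real.negMulLog (b j) - Real.negMulLog (∑ j, b j)) ≤
    ∑ j, Real.negMulLog (a j + b j) - Real.negMulLog (∑ j, (a j + b j)) := by
  have h1 := log_sum_le a (fun j => a j + b j) ha (fun j => by linarith [hb j])
  have h2 := log_sum_le b (fun j => a j + b j) hb (fun j => by linarith [ha j])
  have e : ∀ j, Real.negMulLog (a j) + Real.negMulLog (b j) - Real.negMulLog (a j + b j) =
      a j * (Real.log (a j + b j) - Real.log (a j)) + b j * (Real.log (a j + b j) - Real.log (b j)) := by
    intro j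
    simp only [Real.negMulLog]
    ring
  have e2 : (∑ j, Real.negMulLog (a j)) + (∑ j, Real.negMulLog (b j)) - ∑ j, Real.negMulLog (a j + b j)
      = ∑ j, a j * (Real.log (a j + b j) - Real.log (a j)) +
        ∑ j, b j * (Real.log (a j + b j) - Real.log (b j)) := by
    rw [← Finset.sum_add_distrib, ← Finset.sum_add_distrib, ← Finset.sum_sub_distrib]
    exact Finset.sum_congr rfl fun j _ => e j
  have hs : ∑ j, (a j + b j) = (∑ j, a j) + ∑ j, b j := Finset.sum_add_distrib
  rw [hs] at h1 h2 ⊢
  simp only [Real.negMulLog] at e2 ⊢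
  nlinarith [h1, h2, e2]

/-- Concavity of the entropy in `Ent` form (Peierls in the eigenbasis of `X + Y` plus log-sum). -/
theorem Ent_add_ge {X Y : Matrix n n ℂ} (hX : X.PosSemidef) (hY : Y.PosSemidef) :
    Ent X + Ent Y ≤ Ent (X + Y) := by
  have hZ : (X + Y).PosSemidef := hX.add hY
  set U : Matrix n n ℂ := (hZ.1.eigenvectorUnitary : Matrix n n ℂ) with hU
  have hUmem : U ∈ Matrix.unitaryGroup n ℂ := hZ.1.eigenvectorUnitary.2
  -- the diagonals
  set x : n → ℝ := fun j => ((Uᴴ * X * U) j j).re with hx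
  set y : n → ℝ := fun j => ((Uᴴ * Y * U) j j).re with hy
  have hx0 : ∀ j, 0 ≤ x j := by
    intro j
    have : (Uᴴ * X * U).PosSemidef := by
      simpa using hX.conjTranspose_mul_mul_same U
    exact (RCLike.nonneg_iff.1 (this.diag_nonneg (i := j))).1
  have hy0 : ∀ j, 0 ≤ y j := by
    intro j
    have : (Uᴴ * Y * U).PosSemidef := by
      simpa using hY.conjTranspose_mul_mul_same U
    exact (RCLike.nonneg_iff.1 (this.diag_nonneg (i := j))).1
  have hPX := trFun_le_sum_diag Real.concaveOn_negMulLog hX hUmem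
  have hPY := trFun_le_sum_diag Real.concaveOn_negMulLog hY hUmem
  -- eigenvalues of Z
  have hdiag : ∀ j, hZ.1.eigenvalues j = x j + y j := by
    intro j
    have h := congrArg (fun M => M j j) hZ.1.conjStarAlgAut_star_eigenvectorUnitary
    simp only [Unitary.conjStarAlgAut_star_apply, Matrix.diagonal_apply_eq, Function.comp] at h
    have e : (Uᴴ * (X + Y) * U) j j = (Uᴴ * X * U) j j + (Uᴴ * Y * U) j j := by
      rw [Matrix.mul_add, Matrix.add_mul, Matrix.add_apply]
    have h' : (Uᴴ * (X + Y) * U) j j = ((hZ.1.eigenvalues j : ℝ) : ℂ) := by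
      simpa [hU, Matrix.star_eq_conjTranspose] using h
    have := congrArg Complex.re (e.symm.trans h')
    simpa [hx, hy] using this.symm
  have hsx : ∑ j, x j = rtr X := by
    have : (∑ j, (Uᴴ * X * U) j j) = X.trace := by
      change (Uᴴ * X * U).trace = X.trace
      rw [Matrix.trace_mul_comm, ← Matrix.mul_assoc]
      have : U * Uᴴ = 1 := by
        simpa [Matrix.star_eq_conjTranspose] using Matrix.mem_unitaryGroup_iff.1 hUmem
      rw [this, Matrix.one_mul]
    simp only [rtr, hx, ← this, Complex.re_sum]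
  have hsy : ∑ j, y j = rtr Y := by
    have : (∑ j, (Uᴴ * Y * U) j j) = Y.trace := by
      change (Uᴴ * Y * U).trace = Y.trace
      rw [Matrix.trace_mul_comm, ← Matrix.mul_assoc]
      have : U * Uᴴ = 1 := by
        simpa [Matrix.star_eq_conjTranspose] using Matrix.mem_unitaryGroup_iff.1 hUmem
      rw [this, Matrix.one_mul]
    simp only [rtr, hy, ← this, Complex.re_sum]
  have hrtr : rtr (X + Y) = rtr X + rtr Y := by simp [rtr, Matrix.trace_add]
  have hcl := ent_classical x y hx0 hy0
  unfold Ent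
  rw [vnEntropy_eq_trFun, vnEntropy_eq_trFun, vnEntropy_eq_trFun, trFun_of_isHermitian _ hZ.1, hrtr]
  simp_rw [hdiag]
  rw [Finset.sum_add_distrib, hsx, hsy] at hcl
  linarith

/-- For trace `x > 0`: `Ent X = x * S(X / x)`. -/
theorem Ent_eq_mul_vnEntropy {X : Matrix n n ℂ} (hX : X.PosSemidef) (hx : 0 < rtr X) :
    Ent X = rtr X * vnEntropy (((rtr X)⁻¹ : ℂ) • X) := by
  have hc : (((rtr X)⁻¹ : ℂ)) = (((rtr X)⁻¹ : ℝ) : ℂ) := by push_cast; rfl
  rw [hc]
  have h1 := Ent_smul (c := (rtr X)⁻¹) (inv_nonneg.mpr hx.le) hX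
  have h2 : Ent (((((rtr X)⁻¹ : ℝ) : ℂ)) • X) = vnEntropy (((((rtr X)⁻¹ : ℝ) : ℂ)) • X) := by
    unfold Ent
    rw [rtr_smul_real, inv_mul_cancel₀ hx.ne']
    simp
  rw [← h2, h1]
  field_simp

theorem Ent_zero : Ent (0 : Matrix n n ℂ) = 0 := by
  have h0 : (0 : Matrix n n ℂ).PosSemidef := Matrix.PosSemidef.zero
  have := Ent_smul (c := 0) le_rfl h0
  simpa using this

end Crest.Agent.S0534Lib
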