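/-
S0534 library: the count lemma (package P4).
`dim V ≤ #{eig (A* (μ+Q)⁻¹ A) > s}` whenever `v* P v > s v* (μ+Q) v` on `V`.
-/
import Crest.Agent.S0534Lib.Spectral

set_option autoImplicit false

namespace Crest.Agent.S0534Lib

open Matrix Crest.Quantum
open scoped ComplexOrder

section aux

variable {n : Type*} [Fintype n] [DecidableEq n]

/-- Coordinates in the eigenbasis. -/
private noncomputable def eigCoord {M : Matrix n n ℂ} (hM : M.IsHermitian) (u : n → ℂ) : n → ℂ :=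
  (star (hM.eigenvectorUnitary : Matrix n n ℂ)) *ᵥ u

private lemma dot_star_self_re (z : n → ℂ) : (star z ⬝ᵥ z).re = ∑ j, Complex.normSq (z j) := by
  simp only [dotProduct, Pi.star_apply, Complex.re_sum]
  refine Finset.sum_congr rfl fun j _ => ?_
  rw [Complex.star_def, mul_comm, Complex.mul_conj]
  simp

private lemma quad_eq_diag {M : Matrix n n ℂ} (hM : M.IsHermitian) (u : n → ℂ) :
    (star u ⬝ᵥ (M *ᵥ u)).re = ∑ j, hM.eigenvalues j * Complex.normSq (eigCoord hM u j) := by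
  set U : Matrix n n ℂ := (hM.eigenvectorUnitary : Matrix n n ℂ) with hU
  have hspec : M = U * diagonal (RCLike.ofReal ∘ hM.eigenvalues) * star U := by
    conv_lhs => rw [hM.spectral_theorem]
    simp [Unitary.conjStarAlgAut_apply, hU]
  have h1 : star u ⬝ᵥ (M *ᵥ u) =
      star (eigCoord hM u) ⬝ᵥ (diagonal (RCLike.ofReal ∘ hM.eigenvalues) *ᵥ eigCoord hM u) := by
    conv_lhs => rw [hspec]
    simp only [eigCoord, ← hU]
    rw [← mulVec_mulVec, ← mulVec_mulVec, dotProduct_mulVec, star_mulVec]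
    simp [Matrix.star_eq_conjTranspose]
  rw [h1]
  simp only [dotProduct, mulVec_diagonal, Pi.star_apply, Function.comp_apply, Complex.re_sum]
  refine Finset.sum_congr rfl fun j _ => ?_
  have : star (eigCoord hM u j) * (((hM.eigenvalues j : ℝ) : ℂ) * eigCoord hM u j) =
      ((hM.eigenvalues j : ℝ) : ℂ) * (((Complex.normSq (eigCoord hM u j) : ℝ)) : ℂ) := by
    rw [← Complex.mul_conj, Complex.star_def]; ring
  simpa using congrArg Complex.re this

private lemma norm_eq_diag {M : Matrix n n ℂ} (hM : M.IsHermitian) (u : n → ℂ) :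
    (star u ⬝ᵥ u).re = ∑ j, Complex.normSq (eigCoord hM u j) := by
  rw [← dot_star_self_re]
  have : star (eigCoord hM u) ⬝ᵥ eigCoord hM u = star u ⬝ᵥ u := by
    simp only [eigCoord]
    rw [star_mulVec, ← dotProduct_mulVec, mulVec_mulVec]
    have h := (Matrix.mem_unitaryGroup_iff).1 (hM.eigenvectorUnitary).2
    simp only [Matrix.star_eq_conjTranspose, conjTranspose_conjTranspose] at h ⊢
    rw [h, one_mulVec]
  rw [this]

/-- Eigenvectors with eigenvalue above `t`. -/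
private noncomputable def highVec {M : Matrix n n ℂ} (hM : M.IsHermitian) (t : ℝ) :
    {j // t < hM.eigenvalues j} → n → ℂ :=
  fun i x => (hM.eigenvectorUnitary : Matrix n n ℂ) x i.1

private lemma eigCoord_highVec {M : Matrix n n ℂ} (hM : M.IsHermitian) (t : ℝ)
    (c : {j // t < hM.eigenvalues j} → ℂ) (j : n) :
    eigCoord hM (∑ i, c i • highVec hM t i) j =
      if h : t < hM.eigenvalues j then c ⟨j, h⟩ else 0 := by
  set U : Matrix n n ℂ := (hM.eigenvectorUnitary : Matrix n n ℂ) with hU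
  have hUU : star U * U = 1 := (Matrix.mem_unitaryGroup_iff').1 (hM.eigenvectorUnitary).2
  have hentry : ∀ i k, (star U *ᵥ fun x => U x i) k = if k = i then 1 else 0 := by
    intro i k
    have := congrFun (congrFun hUU k) i
    simpa [Matrix.mul_apply, mulVec, dotProduct, Matrix.one_apply] using this
  have hhigh : ∀ i, highVec hM t i = fun x => U x i.1 := fun i => rfl
  have hsum : eigCoord hM (∑ i, c i • highVec hM t i) =
      ∑ i, c i • (star U *ᵥ fun x => U x i.1) := by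
    simp only [eigCoord, ← hU, hhigh]
    rw [mulVec_sum]
    simp only [mulVec_smul]
  rw [hsum]
  simp only [Finset.sum_apply, Pi.smul_apply, smul_eq_mul, hentry]
  split_ifs with h
  · rw [Finset.sum_eq_single ⟨j, h⟩]
    · simp
    · intro b _ hb
      have : j ≠ b.1 := fun e => hb (Subtype.ext e.symm)
      simp [this]
    · simp
  · refine Finset.sum_eq_zero fun b _ => ?_
    have : j ≠ b.1 := fun e => h (e ▸ b.2)
    simp [this]

private lemma highVec_linearIndependent {M : Matrix n n ℂ} (hM : M.IsHermitian) (t : ℝ) :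
    LinearIndependent ℂ (highVec hM t) := by
  rw [Fintype.linearIndependent_iff]
  intro c hc i
  have := eigCoord_highVec hM t c i.1
  rw [hc] at this
  simpa [eigCoord, i.2] using this.symm

private lemma highVec_quad {M : Matrix n n ℂ} (hM : M.IsHermitian) (t : ℝ)
    (c : {j // t < hM.eigenvalues j} → ℂ) (hc : c ≠ 0) :
    t * (star (∑ i, c i • highVec hM t i) ⬝ᵥ (∑ i, c i • highVec hM t i)).re <
      (star (∑ i, c i • highVec hM t i) ⬝ᵥ (M *ᵥ (∑ i, c i • highVec hM t i))).re := by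
  rw [quad_eq_diag hM, norm_eq_diag hM, Finset.mul_sum]
  obtain ⟨i, hi⟩ : ∃ i, c i ≠ 0 := by
    by_contra hcon
    push Not at hcon
    exact hc (funext hcon)
  refine Finset.sum_lt_sum (fun j _ => ?_) ⟨i.1, Finset.mem_univ _, ?_⟩
  · by_cases h : t < hM.eigenvalues j
    · exact mul_le_mul_of_nonneg_right h.le (Complex.normSq_nonneg _)
    · rw [eigCoord_highVec hM t c j, dif_neg h]; simp
  · rw [eigCoord_highVec hM t c i.1, dif_pos i.2]
    exact mul_lt_mul_of_pos_right i.2 (Complex.normSq_pos.2 hi)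

end aux

variable {E K : Type*} [Fintype E] [DecidableEq E] [Fintype K] [DecidableEq K]

private lemma shift_posDef {Q : Matrix E E ℂ} (hQ : Q.PosSemidef) {μ : ℝ} (hμ : 0 < μ) :
    ((μ : ℂ) • (1 : Matrix E E ℂ) + Q).PosDef := by
  refine Matrix.PosDef.add_posSemidef ?_ hQ
  have : (μ : ℂ) • (1 : Matrix E E ℂ) = Matrix.diagonal (fun _ => (μ : ℂ)) := by
    ext i j; by_cases h : i = j <;> simp [h]
  rw [this, Matrix.posDef_diagonal_iff]
  intro _
  exact_mod_cast hμ

theorem sand_posSemidef (A : Matrix E K ℂ) {Q : Matrix E E ℂ} (hQ : Q.PosSemidef) {μ : ℝ}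
    (hμ : 0 < μ) : (sand A Q μ).PosSemidef := by
  unfold sand
  exact ((shift_posDef hQ hμ).inv.posSemidef).conjTranspose_mul_mul_same A

/-- The Cauchy–Schwarz step: `(w* P w)² ≤ (w* S w) ((Pw)* S⁻¹ (Pw))`. -/
private lemma cs_step {S P : Matrix E E ℂ} (hS : S.PosDef) (hP : P.IsHermitian) (w : E → ℂ) :
    (star w ⬝ᵥ (P *ᵥ w)).re ^ 2 ≤
      (star w ⬝ᵥ (S *ᵥ w)).re * (star (P *ᵥ w) ⬝ᵥ (S⁻¹ *ᵥ (P *ᵥ w))).re := by
  classical
  set y : E → ℂ := S⁻¹ *ᵥ (P *ᵥ w) with hy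
  have hdet : IsUnit S.det := (Matrix.isUnit_iff_isUnit_det S).1 hS.isUnit
  have hSy : S *ᵥ y = P *ᵥ w := by
    rw [hy, mulVec_mulVec, Matrix.mul_nonsing_inv S hdet, one_mulVec]
  set p := (star w ⬝ᵥ (P *ᵥ w)).re with hp
  set σ := (star w ⬝ᵥ (S *ᵥ w)).re with hσ
  set T := (star (P *ᵥ w) ⬝ᵥ y).re with hT
  have h1 : (star y ⬝ᵥ (S *ᵥ y)).re = T := by
    rw [hSy]
    have : star y ⬝ᵥ (P *ᵥ w) = star (star (P *ᵥ w) ⬝ᵥ y) := by
      rw [star_dotProduct]
    rw [this]; simp [hT]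
  have h2 : (star w ⬝ᵥ (S *ᵥ y)).re = p := by rw [hSy]
  have h3 : (star y ⬝ᵥ (S *ᵥ w)).re = p := by
    have hS' : star y ⬝ᵥ (S *ᵥ w) = star (star w ⬝ᵥ (S *ᵥ y)) := by
      rw [star_dotProduct, star_mulVec, ← dotProduct_mulVec, hS.1.eq]
    rw [hS']; simp [h2]
  have key : ∀ c : ℝ, 0 ≤ T - 2 * c * p + c ^ 2 * σ := by
    intro c
    have h := hS.posSemidef.re_dotProduct_nonneg (y - (c : ℂ) • w)
    have hexp : star (y - (c : ℂ) • w) ⬝ᵥ (S *ᵥ (y - (c : ℂ) • w)) =
        star y ⬝ᵥ (S *ᵥ y) - (c : ℂ) * (star y ⬝ᵥ (S *ᵥ w))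
          - (c : ℂ) * (star w ⬝ᵥ (S *ᵥ y)) + (c : ℂ) ^ 2 * (star w ⬝ᵥ (S *ᵥ w)) := by
      simp only [star_sub, star_smul, mulVec_sub, mulVec_smul, sub_dotProduct, dotProduct_sub,
        smul_dotProduct, dotProduct_smul, smul_eq_mul, Complex.star_def, Complex.conj_ofReal]
      ring
    have hre : (star (y - (c : ℂ) • w) ⬝ᵥ (S *ᵥ (y - (c : ℂ) • w))).re =
        T - 2 * c * p + c ^ 2 * σ := by
      rw [hexp]
      have e1 : ((c : ℂ) * (star y ⬝ᵥ (S *ᵥ w))).re = c * p := by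
        rw [Complex.re_ofReal_mul, h3]
      have e2 : ((c : ℂ) * (star w ⬝ᵥ (S *ᵥ y))).re = c * p := by
        rw [Complex.re_ofReal_mul, h2]
      have e3 : ((c : ℂ) ^ 2 * (star w ⬝ᵥ (S *ᵥ w))).re = c ^ 2 * σ := by
        rw [← Complex.ofReal_pow, Complex.re_ofReal_mul]
      simp only [Complex.add_re, Complex.sub_re, e1, e2, e3, h1]
      ring
    have h' : 0 ≤ (star (y - (c : ℂ) • w) ⬝ᵥ (S *ᵥ (y - (c : ℂ) • w))).re := h
    rwa [hre] at h'
  by_cases hσ0 : σ = 0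
  · -- then `p = 0`, since the quadratic in `c` must stay nonnegative
    have hp0 : p = 0 := by
      by_contra hne
      have := key ((T + 1) / (2 * p))
      rw [hσ0] at this
      have e : T - 2 * ((T + 1) / (2 * p)) * p = -1 := by
        field_simp
        ring
      rw [mul_zero, add_zero, e] at this
      linarith
    simp [hp0, hσ0]
  · have hσpos : 0 < σ := lt_of_le_of_ne (hS.posSemidef.re_dotProduct_nonneg w) (Ne.symm hσ0)
    have := key (p / σ)
    have e : T - 2 * (p / σ) * p + (p / σ) ^ 2 * σ = T - p ^ 2 / σ := by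
      field_simp
      ring
    rw [e] at this
    have h4 : p ^ 2 / σ ≤ T := by linarith
    rw [div_le_iff₀ hσpos] at h4
    linarith

/-- The count lemma, for a linearly independent family spanning a subspace on which
`s (μ + Q) < A A*` as quadratic forms. -/
theorem card_le_cnt (A : Matrix E K ℂ) {Q : Matrix E E ℂ} (hQ : Q.PosSemidef) {μ s : ℝ}
    (hμ : 0 < μ) (hs : 0 < s) {ι : Type*} [Fintype ι] (v : ι → E → ℂ)
    (hv : LinearIndependent ℂ v)
    (h : ∀ c : ι → ℂ, c ≠ 0 →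
      s * (star (∑ i, c i • v i) ⬝ᵥ (((μ : ℂ) • (1 : Matrix E E ℂ) + Q) *ᵥ (∑ i, c i • v i))).re <
        (star (∑ i, c i • v i) ⬝ᵥ ((A * Aᴴ) *ᵥ (∑ i, c i • v i))).re) :
    Fintype.card ι ≤ cnt (sand A Q μ) s := by
  classical
  have hSand := sand_posSemidef A hQ hμ
  have hH := hSand.1
  set S : Matrix E E ℂ := (μ : ℂ) • (1 : Matrix E E ℂ) + Q with hSdef
  have hS : S.PosDef := shift_posDef hQ hμ
  have hP : (A * Aᴴ).IsHermitian := Matrix.isHermitian_mul_conjTranspose_self A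
  unfold cnt
  rw [dif_pos hH, ← Fintype.card_subtype]
  -- the linear map to the high coordinates
  let T : (ι → ℂ) →ₗ[ℂ] ({j // s < hH.eigenvalues j} → ℂ) :=
    { toFun := fun c j => eigCoord hH (Aᴴ *ᵥ ∑ i, c i • v i) j.1
      map_add' := by
        intro a b
        funext j
        simp [eigCoord, add_smul, Finset.sum_add_distrib, mulVec_add]
      map_smul' := by
        intro r a
        funext j
        simp [eigCoord, mul_smul, ← Finset.smul_sum, mulVec_smul] }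
  have hinj : Function.Injective T := by
    rw [← LinearMap.ker_eq_bot, LinearMap.ker_eq_bot']
    intro c hc
    by_contra hc0
    set w := ∑ i, c i • v i with hw
    have hw0 : w ≠ 0 := by
      intro h0
      exact hc0 (funext ((Fintype.linearIndependent_iff.1 hv) c h0))
    have hineq : s * (star w ⬝ᵥ (S *ᵥ w)).re < (star w ⬝ᵥ ((A * Aᴴ) *ᵥ w)).re := h c hc0
    set u := Aᴴ *ᵥ w with hu
    have hAu : A *ᵥ u = (A * Aᴴ) *ᵥ w := by rw [hu, mulVec_mulVec]
    -- `u` has no high coordinates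
    have hz : ∀ j, s < hH.eigenvalues j → eigCoord hH u j = 0 := by
      intro j hj
      exact congrFun hc ⟨j, hj⟩
    have hupper : (star u ⬝ᵥ (sand A Q μ *ᵥ u)).re ≤ s * (star u ⬝ᵥ u).re := by
      rw [quad_eq_diag hH, norm_eq_diag hH, Finset.mul_sum]
      refine Finset.sum_le_sum fun j _ => ?_
      by_cases hj : s < hH.eigenvalues j
      · simp [hz j hj]
      · exact mul_le_mul_of_nonneg_right (not_lt.1 hj) (Complex.normSq_nonneg _)
    have hnorm : (star u ⬝ᵥ u).re = (star w ⬝ᵥ ((A * Aᴴ) *ᵥ w)).re := by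
      rw [hu, star_mulVec, ← dotProduct_mulVec, conjTranspose_conjTranspose, mulVec_mulVec]
    have hform : star u ⬝ᵥ (sand A Q μ *ᵥ u) =
        star ((A * Aᴴ) *ᵥ w) ⬝ᵥ (S⁻¹ *ᵥ ((A * Aᴴ) *ᵥ w)) := by
      rw [← hAu]
      have hexp : ∀ x : K → ℂ, sand A Q μ *ᵥ x = Aᴴ *ᵥ (S⁻¹ *ᵥ (A *ᵥ x)) := by
        intro x
        unfold sand
        rw [← hSdef, mulVec_mulVec, mulVec_mulVec]
      have hstar : star (A *ᵥ u) = star u ᵥ* Aᴴ := star_mulVec A u
      rw [hexp, dotProduct_mulVec, hstar]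
    have hcs := cs_step hS hP w
    rw [← hform] at hcs
    set p := (star w ⬝ᵥ ((A * Aᴴ) *ᵥ w)).re with hp
    set σ := (star w ⬝ᵥ (S *ᵥ w)).re with hσ
    set Tq := (star u ⬝ᵥ (sand A Q μ *ᵥ u)).re with hTq
    have hσpos : 0 < σ := by
      have := hS.re_dotProduct_pos hw0
      simpa using this
    have hppos : 0 < p := lt_trans (mul_pos hs hσpos) hineq
    rw [hnorm] at hupper
    -- `p² ≤ σ T ≤ σ s p` and `s σ < p`
    nlinarith
  have := LinearMap.finrank_le_finrank_of_injective hinj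
  simpa using this

/-- (T1): with `H = P/s - Q`, `#{eig H > μ} ≤ #{eig 𝔸_μ > s}`. -/
theorem cnt_ge_of_H (A : Matrix E K ℂ) {Q : Matrix E E ℂ} (hQ : Q.PosSemidef) {μ s : ℝ}
    (hμ : 0 < μ) (hs : 0 < s) {H : Matrix E E ℂ} (hH : H.IsHermitian)
    (hHdef : H = ((s⁻¹ : ℝ) : ℂ) • (A * Aᴴ) - Q) :
    (Finset.univ.filter fun j => μ < hH.eigenvalues j).card ≤ cnt (sand A Q μ) s := by
  classical
  rw [← Fintype.card_subtype]
  refine card_le_cnt A hQ hμ hs (highVec hH μ) (highVec_linearIndependent hH μ) ?_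
  intro c hc
  have h := highVec_quad hH μ c hc
  set w := ∑ i, c i • highVec hH μ i with hw
  have e1 : (star w ⬝ᵥ (H *ᵥ w)).re =
      s⁻¹ * (star w ⬝ᵥ ((A * Aᴴ) *ᵥ w)).re - (star w ⬝ᵥ (Q *ᵥ w)).re := by
    rw [hHdef, sub_mulVec, smul_mulVec, dotProduct_sub, dotProduct_smul, Complex.sub_re,
      smul_eq_mul, Complex.re_ofReal_mul]
  have e2 : (star w ⬝ᵥ (((μ : ℂ) • (1 : Matrix E E ℂ) + Q) *ᵥ w)).re =
      μ * (star w ⬝ᵥ w).re + (star w ⬝ᵥ (Q *ᵥ w)).re := by
    rw [add_mulVec, smul_mulVec, one_mulVec, dotProduct_add, dotProduct_smul, Complex.add_re,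
      smul_eq_mul, Complex.re_ofReal_mul]
  rw [e2]
  rw [e1] at h
  have hs' : s * s⁻¹ = 1 := mul_inv_cancel₀ hs.ne'
  have h3 := mul_lt_mul_of_pos_left h hs
  set a := (star w ⬝ᵥ w).re
  set b := (star w ⬝ᵥ (Q *ᵥ w)).re
  set c' := (star w ⬝ᵥ ((A * Aᴴ) *ᵥ w)).re
  have e3 : s * (s⁻¹ * c' - b) = c' - s * b := by
    rw [mul_sub, ← mul_assoc, hs', one_mul]
  rw [e3] at h3
  have e4 : s * (μ * a + b) = s * (μ * a) + s * b := by ring
  rw [e4]
  linarith

/-- (T2): `#{eig P > s (μ + tr Q)} ≤ #{eig 𝔸_μ > s}`. -/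
theorem cnt_ge_of_P (A : Matrix E K ℂ) {Q : Matrix E E ℂ} (hQ : Q.PosSemidef) {μ s : ℝ}
    (hμ : 0 < μ) (hs : 0 < s) (hP : (A * Aᴴ).IsHermitian) :
    (Finset.univ.filter fun j => s * (μ + rtr Q) < hP.eigenvalues j).card ≤
      cnt (sand A Q μ) s := by
  classical
  rw [← Fintype.card_subtype]
  refine card_le_cnt A hQ hμ hs (highVec hP _) (highVec_linearIndependent hP _) ?_
  intro c hc
  have h := highVec_quad hP (s * (μ + rtr Q)) c hc
  set w := ∑ i, c i • highVec hP (s * (μ + rtr Q)) i with hw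
  have e2 : (star w ⬝ᵥ (((μ : ℂ) • (1 : Matrix E E ℂ) + Q) *ᵥ w)).re =
      μ * (star w ⬝ᵥ w).re + (star w ⬝ᵥ (Q *ᵥ w)).re := by
    rw [add_mulVec, smul_mulVec, one_mulVec, dotProduct_add, dotProduct_smul, Complex.add_re,
      smul_eq_mul, Complex.re_ofReal_mul]
  rw [e2]
  have h2 := quadForm_le_rtr hQ w
  refine lt_of_le_of_lt ?_ h
  have h3 := mul_le_mul_of_nonneg_left h2 hs.le
  set a := (star w ⬝ᵥ w).re
  set b := (star w ⬝ᵥ (Q *ᵥ w)).re
  have e4 : s * (μ * a + b) = s * (μ * a) + s * b := by ring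
  have e5 : s * (μ + rtr Q) * a = s * (μ * a) + s * (rtr Q * a) := by ring
  rw [e4, e5]
  linarith

end Crest.Agent.S0534Lib
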