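/-
S0534 library: the row lemma (package P5).
-/
import Crest.Agent.S0534Lib.Count

set_option autoImplicit false

namespace Crest.Agent.S0534Lib

open Matrix Crest.Quantum MeasureTheory
open scoped ComplexOrder

variable {E K : Type*} [Fintype E] [DecidableEq E] [Fintype K] [DecidableEq K]

/-- grid function `τ(h) = δ * #{1 ≤ k ≤ K₀ : k δ < h}` -/
noncomputable def gridTau (δ : ℝ) (K₀ : ℕ) (h : ℝ) : ℝ :=
  δ * ((Finset.Icc 1 K₀).filter fun k : ℕ => (k : ℝ) * δ < h).card

lemma gridTau_nonneg {δ : ℝ} (hδ : 0 < δ) (K₀ : ℕ) (h : ℝ) : 0 ≤ gridTau δ K₀ h := by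
  unfold gridTau; positivity

lemma gridTau_le_M {δ : ℝ} (hδ : 0 < δ) (K₀ : ℕ) (h : ℝ) : gridTau δ K₀ h ≤ K₀ * δ := by
  unfold gridTau
  have : (((Finset.Icc 1 K₀).filter fun k : ℕ => (k : ℝ) * δ < h).card : ℝ) ≤ K₀ := by
    have h1 := Finset.card_filter_le (Finset.Icc 1 K₀) (fun k : ℕ => (k : ℝ) * δ < h)
    simp only [Nat.card_Icc, Nat.add_sub_cancel] at h1
    exact_mod_cast h1
  nlinarith

lemma gridTau_le_pos {δ : ℝ} (hδ : 0 < δ) (K₀ : ℕ) (h : ℝ) : gridTau δ K₀ h ≤ max h 0 := by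
  unfold gridTau
  set S := (Finset.Icc 1 K₀).filter fun k : ℕ => (k : ℝ) * δ < h with hS
  rcases S.eq_empty_or_nonempty with he | hne
  · simp [he]
  · set k := S.max' hne with hk
    have hkm : k ∈ S := S.max'_mem hne
    have hkh : (k : ℝ) * δ < h := (Finset.mem_filter.mp hkm).2
    have hc : S.card ≤ k := by
      have hsub : S ⊆ Finset.Icc 1 k := by
        intro j hj
        have h1 := (Finset.mem_Icc.mp (Finset.mem_filter.mp hj).1).1
        exact Finset.mem_Icc.mpr ⟨h1, S.le_max' j hj⟩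
      have := Finset.card_le_card hsub
      simpa using this
    have hc' : (S.card : ℝ) ≤ k := by exact_mod_cast hc
    have : δ * (S.card : ℝ) ≤ h := by nlinarith
    exact le_max_of_le_left this

lemma gridTau_ge {δ : ℝ} (hδ : 0 < δ) (K₀ : ℕ) (h : ℝ) :
    min ((K₀ : ℝ) * δ) (h - δ) ≤ gridTau δ K₀ h := by
  by_cases hh : h - δ ≤ 0
  · exact le_trans (min_le_of_right_le hh) (gridTau_nonneg hδ K₀ h)
  push Not at hh
  set c := min K₀ (⌈h / δ⌉₊ - 1) with hc
  have hu : 0 < h / δ := by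
    apply div_pos _ hδ; linarith
  have hceil1 : 1 ≤ ⌈h / δ⌉₊ := Nat.one_le_iff_ne_zero.mpr (by
    have := Nat.ceil_pos.mpr hu; omega)
  have hsub : Finset.Icc 1 c ⊆ (Finset.Icc 1 K₀).filter fun k : ℕ => (k : ℝ) * δ < h := by
    intro k hk
    obtain ⟨hk1, hk2⟩ := Finset.mem_Icc.mp hk
    have hkK : k ≤ K₀ := le_trans hk2 (min_le_left _ _)
    have hkC : k ≤ ⌈h / δ⌉₊ - 1 := le_trans hk2 (min_le_right _ _)
    refine Finset.mem_filter.mpr ⟨Finset.mem_Icc.mpr ⟨hk1, hkK⟩, ?_⟩
    have h2 : ((k + 1 : ℕ) : ℝ) ≤ ⌈h / δ⌉₊ := by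
      have : k + 1 ≤ ⌈h / δ⌉₊ := by omega
      exact_mod_cast this
    have h3 : ((⌈h / δ⌉₊ : ℕ) : ℝ) < h / δ + 1 := Nat.ceil_lt_add_one hu.le
    have h4 : (k : ℝ) < h / δ := by
      push_cast at h2; linarith
    calc (k : ℝ) * δ < h / δ * δ := by exact mul_lt_mul_of_pos_right h4 hδ
      _ = h := by field_simp
  have hcard : (c : ℝ) ≤ (((Finset.Icc 1 K₀).filter fun k : ℕ => (k : ℝ) * δ < h).card : ℝ) := by
    have := Finset.card_le_card hsub
    simp only [Nat.card_Icc, Nat.add_sub_cancel] at this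
    exact_mod_cast this
  have hτ : (c : ℝ) * δ ≤ gridTau δ K₀ h := by
    unfold gridTau; nlinarith
  rcases min_choice K₀ (⌈h / δ⌉₊ - 1) with hmin | hmin
  · have hcK : (c : ℝ) = K₀ := by rw [hc, hmin]
    rw [hcK] at hτ
    exact le_trans (min_le_left _ _) hτ
  · have hcK : (c : ℝ) = ((⌈h / δ⌉₊ - 1 : ℕ) : ℝ) := by rw [hc, hmin]
    have h5 : (c : ℝ) = (⌈h / δ⌉₊ : ℝ) - 1 := by
      rw [hcK]; push_cast [Nat.cast_sub hceil1]; ring
    have h6 : h / δ ≤ (⌈h / δ⌉₊ : ℝ) := Nat.le_ceil _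
    have h7 : h - δ ≤ (c : ℝ) * δ := by
      rw [h5]
      have : h = h / δ * δ := by field_simp
      nlinarith
    exact le_trans (min_le_right _ _) (le_trans h7 hτ)

/-- indicator of `s < l`. -/
noncomputable def ind (l s : ℝ) : ℝ := if s < l then 1 else 0

lemma ind_measurable (l : ℝ) : Measurable (ind l) := by
  unfold ind
  exact Measurable.ite measurableSet_Iio measurable_const measurable_const

lemma ind_nonneg (l s : ℝ) : 0 ≤ ind l s := by unfold ind; split_ifs <;> norm_num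
lemma ind_le_one (l s : ℝ) : ind l s ≤ 1 := by unfold ind; split_ifs <;> norm_num

section layer

variable {f g : ℝ → ℝ} {X κ : ℝ}

/-- bounded measurable times layer density is integrable. -/
lemma layer_integrable (hfg : LayerFun f g X κ) {φ : ℝ → ℝ} (hφ : Measurable φ) {C : ℝ}
    (hC : ∀ s, 0 < s → |φ s| ≤ C) :
    IntegrableOn (fun s => g s * φ s) (Set.Ioo 0 X) := by
  have hfin : volume (Set.Ioo (0 : ℝ) X) ≠ ⊤ := by
    simp [Real.volume_Ioo]
  refine Measure.integrableOn_of_bounded (M := C) hfin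
    ((hfg.g_meas.mul hφ).aestronglyMeasurable) ?_
  refine (ae_restrict_iff' measurableSet_Ioo).mpr (Filter.Eventually.of_forall ?_)
  intro s hs
  have hs0 : 0 < s := hs.1
  have h1 := hfg.g_nonneg s hs0.le
  have h2 := hfg.g_le_one s hs0.le
  rw [Real.norm_eq_abs, abs_mul, abs_of_nonneg h1]
  have h3 := hC s hs0
  have h4 : 0 ≤ |φ s| := abs_nonneg _
  nlinarith

lemma f_eq_integral_ind (hfg : LayerFun f g X κ) {l : ℝ} (hl : 0 ≤ l) :
    f l = ∫ s in Set.Ioo 0 X, g s * ind l s := by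
  have h1 : (fun s => g s * ind l s) = (Set.Iio l).indicator g := by
    funext s
    simp only [ind, Set.indicator, Set.mem_Iio]
    split_ifs <;> simp
  have h2 : g = (Set.Iio X).indicator g := by
    funext s
    simp only [Set.indicator, Set.mem_Iio]
    split_ifs with h
    · rfl
    · exact hfg.g_zero s (not_lt.mp h)
  have h3 : ∫ s in Set.Ioo 0 l, g s = ∫ s in Set.Ioo 0 l, (Set.Iio X).indicator g s := by
    rw [← h2]
  rw [hfg.f_eq l hl, intervalIntegral.integral_of_le hl, integral_Ioc_eq_integral_Ioo, h3, h1,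
    setIntegral_indicator measurableSet_Iio, setIntegral_indicator measurableSet_Iio]
  congr 2
  ext s
  simp only [Set.mem_inter_iff, Set.mem_Ioo, Set.mem_Iio]
  tauto

lemma trFun_eq_integral (hfg : LayerFun f g X κ) {T : Matrix K K ℂ} (hT : T.PosSemidef) :
    trFun f T = ∫ s in Set.Ioo 0 X, g s * (cnt T s : ℝ) := by
  rw [trFun_of_isHermitian f hT.1]
  have h1 : ∀ s, g s * (cnt T s : ℝ) = ∑ i, g s * ind (hT.1.eigenvalues i) s := by
    intro s
    rw [← Finset.mul_sum]
    congr 1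
    simp only [cnt, hT.1, dif_pos, ind, Finset.card_filter]
    push_cast
    rfl
  simp_rw [h1]
  rw [integral_finsetSum]
  · refine Finset.sum_congr rfl fun i _ => ?_
    exact f_eq_integral_ind hfg (hT.eigenvalues_nonneg i)
  · intro i _
    exact layer_integrable hfg (ind_measurable _) (C := 1) (fun s _ => by
      rw [abs_of_nonneg (ind_nonneg _ _)]; exact ind_le_one _ _)

lemma cnt_integrable (hfg : LayerFun f g X κ) {T : Matrix K K ℂ} (hT : T.PosSemidef) :
    IntegrableOn (fun s => g s * (cnt T s : ℝ)) (Set.Ioo 0 X) := by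
  have h1 : (fun s => g s * (cnt T s : ℝ)) = fun s => ∑ i, g s * ind (hT.1.eigenvalues i) s := by
    funext s
    rw [← Finset.mul_sum]
    congr 1
    simp only [cnt, hT.1, dif_pos, ind, Finset.card_filter]
    push_cast
    rfl
  rw [h1]
  refine integrable_finsetSum _ fun i _ => ?_
  exact layer_integrable hfg (ind_measurable _) (C := 1) (fun s _ => by
    rw [abs_of_nonneg (ind_nonneg _ _)]; exact ind_le_one _ _)

end layer

/-- swapping the grid sum and the eigenvalue count -/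
lemma sum_card_swap {ι : Type*} [Fintype ι] (δ : ℝ) (K₀ : ℕ) (h : ι → ℝ) :
    ∑ k ∈ Finset.Icc 1 K₀, δ * (((Finset.univ.filter fun j => (k : ℝ) * δ < h j).card : ℕ) : ℝ) =
      ∑ j, gridTau δ K₀ (h j) := by
  unfold gridTau
  simp only [Finset.card_filter, Nat.cast_sum, ← Finset.mul_sum]
  rw [Finset.sum_comm]

/-- the scalar grid sum -/
lemma sum_ind_eq_gridTau {δ x y s : ℝ} (hδ : 0 < δ) (hy : 0 ≤ y) (hs : 0 < s) (K₀ : ℕ) :
    ∑ k ∈ Finset.Icc 1 K₀, δ * ind (x / ((k : ℝ) * δ + y)) s = gridTau δ K₀ (x / s - y) := by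
  unfold gridTau
  rw [Finset.card_filter, ← Finset.mul_sum]
  push_cast
  congr 1
  refine Finset.sum_congr rfl fun k hk => ?_
  have hk1 : 1 ≤ k := (Finset.mem_Icc.mp hk).1
  have hk1' : (1 : ℝ) ≤ k := by exact_mod_cast hk1
  have hpos : 0 < (k : ℝ) * δ + y := by positivity
  unfold ind
  have : s < x / ((k : ℝ) * δ + y) ↔ (k : ℝ) * δ < x / s - y := by
    rw [lt_div_iff₀ hpos, lt_sub_iff_add_lt, lt_div_iff₀ hs]
    constructor <;> intro h <;> nlinarith
  simp only [this]

lemma eigvec_dot_self {n : Type*} [Fintype n] [DecidableEq n] {H : Matrix n n ℂ}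
    (hH : H.IsHermitian) (j : n) :
    star (⇑(hH.eigenvectorBasis j) : n → ℂ) ⬝ᵥ (⇑(hH.eigenvectorBasis j) : n → ℂ) = 1 := by
  have h := hH.eigenvectorBasis.orthonormal
  have h1 := (orthonormal_iff_ite.mp h) j j
  simp only [if_true] at h1
  rw [EuclideanSpace.inner_eq_star_dotProduct] at h1
  rw [dotProduct_comm]
  exact h1

lemma rtr_add {n : Type*} [Fintype n] (X Y : Matrix n n ℂ) : rtr (X + Y) = rtr X + rtr Y := by
  simp [rtr, Matrix.trace_add]

lemma rtr_sub {n : Type*} [Fintype n] (X Y : Matrix n n ℂ) : rtr (X - Y) = rtr X - rtr Y := by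
  simp [rtr, Matrix.trace_sub]

lemma rtr_real_smul {n : Type*} [Fintype n] (c : ℝ) (X : Matrix n n ℂ) :
    rtr ((c : ℂ) • X) = c * rtr X := by
  simp [rtr, Matrix.trace_smul]

lemma rtr_nonneg {n : Type*} [Fintype n] [DecidableEq n] {X : Matrix n n ℂ} (hX : X.PosSemidef) :
    0 ≤ rtr X := by
  rw [rtr_eq_sum_eigenvalues hX.1]
  exact Finset.sum_nonneg fun i _ => hX.eigenvalues_nonneg i

/-- pointwise bound (i) -/
lemma G_ge_large (A : Matrix E K ℂ) {Q : Matrix E E ℂ} (hQ : Q.PosSemidef)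
    (hx : 0 < rtr (A * Aᴴ)) {δ : ℝ} (hδ : 0 < δ) {K₀ : ℕ} (hK₀ : 0 < K₀) {s : ℝ} (hs : 0 < s)
    (hsM : rtr (A * Aᴴ) / (K₀ * δ) ≤ s) :
    -((Fintype.card E : ℝ) * δ) ≤
      ∑ k ∈ Finset.Icc 1 K₀, δ * ((cnt (sand A Q ((k : ℝ) * δ)) s : ℝ) -
        ind (rtr (A * Aᴴ) / ((k : ℝ) * δ + rtr Q)) s) := by
  classical
  set x := rtr (A * Aᴴ) with hxdef
  set y := rtr Q with hydef
  have hy : 0 ≤ y := rtr_nonneg hQ
  have hP : (A * Aᴴ).PosSemidef := posSemidef_self_mul_conjTranspose A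
  have hMpos : (0 : ℝ) < (K₀ : ℝ) * δ := by positivity
  set H : Matrix E E ℂ := ((s⁻¹ : ℝ) : ℂ) • (A * Aᴴ) - Q with hHdef
  have hH : H.IsHermitian := by
    have h1 : (((s⁻¹ : ℝ) : ℂ) • (A * Aᴴ)).IsHermitian := by
      simp only [IsHermitian, conjTranspose_smul, hP.1.eq]
      simp
    exact h1.sub hQ.1
  have hsum : ∑ j, hH.eigenvalues j = x / s - y := by
    rw [← rtr_eq_sum_eigenvalues hH, hHdef, rtr_sub, rtr_real_smul]
    field_simp
    simp only [hxdef, hydef]
  have hle : ∀ j, hH.eigenvalues j ≤ x / s := by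
    intro j
    set v : E → ℂ := ⇑(hH.eigenvectorBasis j) with hv
    have h1 : hH.eigenvalues j = (star v ⬝ᵥ (H *ᵥ v)).re := by
      have := hH.eigenvalues_eq j
      simpa using this
    have h2 : (star v ⬝ᵥ (H *ᵥ v)).re =
        s⁻¹ * (star v ⬝ᵥ ((A * Aᴴ) *ᵥ v)).re - (star v ⬝ᵥ (Q *ᵥ v)).re := by
      rw [hHdef, sub_mulVec, smul_mulVec, dotProduct_sub, dotProduct_smul]
      simp
    have h3 := quadForm_le_rtr hP v
    have h4 : (star v ⬝ᵥ v).re = 1 := by rw [eigvec_dot_self hH j]; simp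
    rw [h4, mul_one] at h3
    have h5 : 0 ≤ (star v ⬝ᵥ (Q *ᵥ v)).re := hQ.re_dotProduct_nonneg v
    rw [h1, h2]
    have h6 : 0 < s⁻¹ := inv_pos.mpr hs
    have h7 : s⁻¹ * (star v ⬝ᵥ ((A * Aᴴ) *ᵥ v)).re ≤ s⁻¹ * x := by
      exact mul_le_mul_of_nonneg_left h3 h6.le
    rw [div_eq_inv_mul]
    linarith
  have hxs : x / s ≤ (K₀ : ℝ) * δ := by
    rw [div_le_iff₀ hs]
    rw [div_le_iff₀ hMpos] at hsM
    linarith
  -- lower bound on the count sum
  have hcnt : ∑ j, gridTau δ K₀ (hH.eigenvalues j) ≤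
      ∑ k ∈ Finset.Icc 1 K₀, δ * (cnt (sand A Q ((k : ℝ) * δ)) s : ℝ) := by
    rw [← sum_card_swap]
    refine Finset.sum_le_sum fun k hk => ?_
    have hk1 : 1 ≤ k := (Finset.mem_Icc.mp hk).1
    have hk1' : (1 : ℝ) ≤ k := by exact_mod_cast hk1
    have hμ : 0 < (k : ℝ) * δ := by positivity
    have := cnt_ge_of_H A hQ hμ hs hH hHdef
    exact mul_le_mul_of_nonneg_left (by exact_mod_cast this) hδ.le
  have hτ1 : ∑ j, hH.eigenvalues j - (Fintype.card E : ℝ) * δ ≤
      ∑ j, gridTau δ K₀ (hH.eigenvalues j) := by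
    have : ∑ j, hH.eigenvalues j - (Fintype.card E : ℝ) * δ = ∑ j, (hH.eigenvalues j - δ) := by
      rw [Finset.sum_sub_distrib]; simp
    rw [this]
    refine Finset.sum_le_sum fun j _ => ?_
    have h1 := gridTau_ge hδ K₀ (hH.eigenvalues j)
    have h2 : hH.eigenvalues j - δ ≤ (K₀ : ℝ) * δ := by
      have := hle j; linarith
    rwa [min_eq_right h2] at h1
  have hτ0 : 0 ≤ ∑ j, gridTau δ K₀ (hH.eigenvalues j) :=
    Finset.sum_nonneg fun j _ => gridTau_nonneg hδ K₀ _
  have hsc := sum_ind_eq_gridTau (x := x) hδ hy hs K₀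
  have hsc2 := gridTau_le_pos hδ K₀ (x / s - y)
  have hsplit : ∑ k ∈ Finset.Icc 1 K₀, δ * ((cnt (sand A Q ((k : ℝ) * δ)) s : ℝ) -
        ind (x / ((k : ℝ) * δ + y)) s) =
      ∑ k ∈ Finset.Icc 1 K₀, δ * (cnt (sand A Q ((k : ℝ) * δ)) s : ℝ) -
        ∑ k ∈ Finset.Icc 1 K₀, δ * ind (x / ((k : ℝ) * δ + y)) s := by
    rw [← Finset.sum_sub_distrib]
    refine Finset.sum_congr rfl fun k _ => by ring
  rw [hsplit, hsc]
  have hnδ : 0 ≤ (Fintype.card E : ℝ) * δ := by positivity
  rw [hsum] at hτ1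
  rcases le_total (x / s - y) 0 with h0 | h0
  · rw [max_eq_right h0] at hsc2
    linarith
  · rw [max_eq_left h0] at hsc2
    linarith

/-- The profile `L(s) = ∑ min(M, π_j/s) - M`. -/
noncomputable def profL {ι : Type*} [Fintype ι] (M : ℝ) (π : ι → ℝ) (s : ℝ) : ℝ :=
  ∑ j, min M (π j / s) - M

lemma profL_nonneg {ι : Type*} [Fintype ι] {M : ℝ} (hM : 0 < M) {π : ι → ℝ} (hπ : ∀ j, 0 ≤ π j)
    {s : ℝ} (hs : 0 < s) (hsM : s < (∑ j, π j) / M) : 0 ≤ profL M π s := by
  classical
  unfold profL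
  have hmin : ∀ j, 0 ≤ min M (π j / s) := fun j => le_min hM.le (div_nonneg (hπ j) hs.le)
  by_cases h : ∃ j, M ≤ π j / s
  · obtain ⟨j, hj⟩ := h
    have := Finset.single_le_sum (f := fun j => min M (π j / s)) (fun i _ => hmin i)
      (Finset.mem_univ j)
    rw [min_eq_left hj] at this
    linarith
  · push Not at h
    have h1 : ∑ j, min M (π j / s) = (∑ j, π j) / s := by
      rw [Finset.sum_div]
      refine Finset.sum_congr rfl fun j _ => min_eq_right (h j).le
    rw [h1]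
    rw [lt_div_iff₀ hM] at hsM
    have : M ≤ (∑ j, π j) / s := by
      rw [le_div_iff₀ hs]; linarith
    linarith

/-- pointwise bound (ii) -/
lemma G_ge_small (A : Matrix E K ℂ) {Q : Matrix E E ℂ} (hQ : Q.PosSemidef)
    {δ : ℝ} (hδ : 0 < δ) {K₀ : ℕ} (hK₀ : 0 < K₀) {s : ℝ} (hs : 0 < s)
    (hP : (A * Aᴴ).IsHermitian) :
    profL ((K₀ : ℝ) * δ) hP.eigenvalues s - (Fintype.card E : ℝ) * (rtr Q + δ) ≤
      ∑ k ∈ Finset.Icc 1 K₀, δ * ((cnt (sand A Q ((k : ℝ) * δ)) s : ℝ) -
        ind (rtr (A * Aᴴ) / ((k : ℝ) * δ + rtr Q)) s) := by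
  classical
  set x := rtr (A * Aᴴ) with hxdef
  set y := rtr Q with hydef
  have hy : 0 ≤ y := rtr_nonneg hQ
  have hcnt : ∑ j, gridTau δ K₀ (hP.eigenvalues j / s - y) ≤
      ∑ k ∈ Finset.Icc 1 K₀, δ * (cnt (sand A Q ((k : ℝ) * δ)) s : ℝ) := by
    rw [← sum_card_swap]
    refine Finset.sum_le_sum fun k hk => ?_
    have hk1 : 1 ≤ k := (Finset.mem_Icc.mp hk).1
    have hk1' : (1 : ℝ) ≤ k := by exact_mod_cast hk1
    have hμ : 0 < (k : ℝ) * δ := by positivity
    have := cnt_ge_of_P A hQ hμ hs hP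
    refine mul_le_mul_of_nonneg_left ?_ hδ.le
    have h2 : (Finset.univ.filter fun j => (k : ℝ) * δ < hP.eigenvalues j / s - y) =
        (Finset.univ.filter fun j => s * ((k : ℝ) * δ + y) < hP.eigenvalues j) := by
      ext j
      simp only [Finset.mem_filter, Finset.mem_univ, true_and]
      rw [lt_sub_iff_add_lt, lt_div_iff₀ hs]
      constructor <;> intro h <;> nlinarith
    rw [h2]
    exact_mod_cast this
  have hτ : ∑ j, min ((K₀ : ℝ) * δ) (hP.eigenvalues j / s) - (Fintype.card E : ℝ) * (y + δ) ≤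
      ∑ j, gridTau δ K₀ (hP.eigenvalues j / s - y) := by
    have : ∑ j, min ((K₀ : ℝ) * δ) (hP.eigenvalues j / s) - (Fintype.card E : ℝ) * (y + δ) =
        ∑ j, (min ((K₀ : ℝ) * δ) (hP.eigenvalues j / s) - (y + δ)) := by
      rw [Finset.sum_sub_distrib]; simp
      ring
    rw [this]
    refine Finset.sum_le_sum fun j _ => ?_
    refine le_trans ?_ (gridTau_ge hδ K₀ _)
    refine le_min ?_ ?_
    · have := min_le_left ((K₀ : ℝ) * δ) (hP.eigenvalues j / s); linarith
    · have := min_le_right ((K₀ : ℝ) * δ) (hP.eigenvalues j / s); linarith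
  have hsc := sum_ind_eq_gridTau (x := x) hδ hy hs K₀
  have hsc2 := gridTau_le_M hδ K₀ (x / s - y)
  have hsplit : ∑ k ∈ Finset.Icc 1 K₀, δ * ((cnt (sand A Q ((k : ℝ) * δ)) s : ℝ) -
        ind (x / ((k : ℝ) * δ + y)) s) =
      ∑ k ∈ Finset.Icc 1 K₀, δ * (cnt (sand A Q ((k : ℝ) * δ)) s : ℝ) -
        ∑ k ∈ Finset.Icc 1 K₀, δ * ind (x / ((k : ℝ) * δ + y)) s := by
    rw [← Finset.sum_sub_distrib]
    refine Finset.sum_congr rfl fun k _ => by ring
  rw [hsplit, hsc]
  unfold profL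
  linarith

lemma integral_min_div {π M x : ℝ} (hM : 0 < M) (hπ : 0 ≤ π) (hπx : π ≤ x) :
    ∫ s in Set.Ioo 0 (x / M), min M (π / s) = π + π * Real.log (x / π) := by
  rcases hπ.eq_or_lt with rfl | hπ
  · simp [hM.le]
  · have hx : 0 < x := lt_of_lt_of_le hπ hπx
    set s₁ := π / M with hs₁
    set b := x / M with hb
    have hs₁pos : 0 < s₁ := div_pos hπ hM
    have hs₁b : s₁ ≤ b := div_le_div_of_nonneg_right hπx hM.le
    rw [← integral_Ioc_eq_integral_Ioo, ← Set.Ioc_union_Ioc_eq_Ioc hs₁pos.le hs₁b]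
    have h1 : Set.EqOn (fun s => min M (π / s)) (fun _ => M) (Set.Ioc 0 s₁) := by
      intro s hs
      apply min_eq_left
      rw [le_div_iff₀ hs.1]
      have := hs.2
      rw [hs₁, le_div_iff₀ hM] at this
      nlinarith
    have h2 : Set.EqOn (fun s => min M (π / s)) (fun s => π * s⁻¹) (Set.Ioc s₁ b) := by
      intro s hs
      have hs0 : 0 < s := lt_trans hs₁pos hs.1
      have : π / s ≤ M := by
        rw [div_le_iff₀ hs0]
        have := hs.1
        rw [hs₁, div_lt_iff₀ hM] at this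
        nlinarith
      simp only
      rw [min_eq_right this, div_eq_mul_inv]
    have hI1 : IntegrableOn (fun s => min M (π / s)) (Set.Ioc 0 s₁) := by
      refine (integrableOn_const (by simp)).congr_fun h1.symm measurableSet_Ioc
    have hcont : ContinuousOn (fun s : ℝ => π * s⁻¹) (Set.Icc s₁ b) := by
      refine continuousOn_const.mul (continuousOn_inv₀.mono ?_)
      intro s hs
      exact (lt_of_lt_of_le hs₁pos hs.1).ne'
    have hI2' : IntegrableOn (fun s : ℝ => π * s⁻¹) (Set.Ioc s₁ b) :=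
      (hcont.integrableOn_Icc).mono_set Set.Ioc_subset_Icc_self
    have hI2 : IntegrableOn (fun s => min M (π / s)) (Set.Ioc s₁ b) :=
      hI2'.congr_fun h2.symm measurableSet_Ioc
    rw [setIntegral_union (Set.Ioc_disjoint_Ioc_of_le le_rfl) measurableSet_Ioc hI1 hI2,
      setIntegral_congr_fun measurableSet_Ioc h1, setIntegral_congr_fun measurableSet_Ioc h2]
    have hb' : 0 < b := lt_of_lt_of_le hs₁pos hs₁b
    have h3 : ∫ s in Set.Ioc s₁ b, π * s⁻¹ = π * Real.log (x / π) := by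
      rw [integral_const_mul, ← intervalIntegral.integral_of_le hs₁b,
        integral_inv_of_pos hs₁pos hb']
      congr 2
      rw [hb, hs₁]
      field_simp
    rw [h3]
    simp only [integral_const, measureReal_restrict_apply_univ, smul_eq_mul]
    congr 1
    rw [Real.volume_real_Ioc_of_le hs₁pos.le]
    rw [hs₁]
    field_simp
    simp

lemma integral_ind_mul {X sM : ℝ} (hsM : sM ≤ X) (φ : ℝ → ℝ) :
    ∫ s in Set.Ioo 0 X, ind sM s * φ s = ∫ s in Set.Ioo 0 sM, φ s := by
  have h1 : (fun s => ind sM s * φ s) = (Set.Iio sM).indicator φ := by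
    funext s
    simp only [ind, Set.indicator, Set.mem_Iio]
    split_ifs <;> simp
  rw [h1, setIntegral_indicator measurableSet_Iio]
  congr 2
  ext s
  simp only [Set.mem_inter_iff, Set.mem_Ioo, Set.mem_Iio]
  constructor
  · rintro ⟨⟨h1, _⟩, h3⟩; exact ⟨h1, h3⟩
  · rintro ⟨h1, h3⟩; exact ⟨⟨h1, lt_of_lt_of_le h3 hsM⟩, h3⟩

lemma Ent_eq_sum {P : Matrix E E ℂ} (hP : P.PosSemidef) (hx : 0 < rtr P) :
    ∑ j, (hP.1.eigenvalues j + hP.1.eigenvalues j * Real.log (rtr P / hP.1.eigenvalues j)) - rtr P =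
      Ent P := by
  have hsum := rtr_eq_sum_eigenvalues hP.1
  unfold Ent
  rw [vnEntropy_eq_trFun, trFun_of_isHermitian _ hP.1, Finset.sum_add_distrib, ← hsum]
  have h1 : ∀ j, hP.1.eigenvalues j * Real.log (rtr P / hP.1.eigenvalues j) =
      Real.negMulLog (hP.1.eigenvalues j) + hP.1.eigenvalues j * Real.log (rtr P) := by
    intro j
    rcases (hP.eigenvalues_nonneg j).eq_or_lt with h0 | h0
    · rw [← h0]; simp
    · rw [Real.log_div hx.ne' h0.ne', Real.negMulLog]
      ring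
  simp_rw [h1]
  rw [Finset.sum_add_distrib, ← Finset.sum_mul, ← hsum, Real.negMulLog]
  ring

/-- The row lemma.  `x = tr(AA*) > 0`, `y = tr Q`, grid `μ_k = k δ`, `k = 1..K₀`, `M = K₀ δ`. -/
theorem row_lemma (A : Matrix E K ℂ) {Q : Matrix E E ℂ} (hQ : Q.PosSemidef)
    (hx : 0 < rtr (A * Aᴴ)) {f g : ℝ → ℝ} {X κ : ℝ} (hfg : LayerFun f g X κ) (hκ : 0 ≤ κ)
    {δ : ℝ} (hδ : 0 < δ) {K₀ : ℕ} (hK₀ : 0 < K₀) (hX : rtr (A * Aᴴ) / (K₀ * δ) < X) :
    (1 - κ * (rtr (A * Aᴴ) / (K₀ * δ))) * Ent (A * Aᴴ)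
        - (Fintype.card E : ℝ) * (rtr Q + δ) * (rtr (A * Aᴴ) / (K₀ * δ))
        - (Fintype.card E : ℝ) * δ * f X ≤
      ∑ k ∈ Finset.Icc 1 K₀, δ *
        (trFun f (sand A Q ((k : ℝ) * δ)) - f (rtr (A * Aᴴ) / ((k : ℝ) * δ + rtr Q))) := by
  classical
  have hP : (A * Aᴴ).PosSemidef := posSemidef_self_mul_conjTranspose A
  set x := rtr (A * Aᴴ) with hxdef
  set y := rtr Q with hydef
  have hy : 0 ≤ y := rtr_nonneg hQ
  set n : ℝ := (Fintype.card E : ℝ) with hn
  have hn0 : 0 ≤ n := by positivity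
  have hK₀' : (0 : ℝ) < K₀ := by exact_mod_cast hK₀
  set M : ℝ := (K₀ : ℝ) * δ with hM
  have hMpos : 0 < M := by positivity
  set sM : ℝ := x / M with hsMdef
  have hsMpos : 0 < sM := div_pos hx hMpos
  have hX0 : 0 < X := lt_trans hsMpos hX
  set π := hP.1.eigenvalues with hπ
  have hπ0 : ∀ j, 0 ≤ π j := fun j => hP.eigenvalues_nonneg j
  have hπsum : ∑ j, π j = x := (rtr_eq_sum_eigenvalues hP.1).symm
  have hπx : ∀ j, π j ≤ x := fun j => eigenvalue_le_rtr hP j
  set D : Set ℝ := Set.Ioo 0 X with hD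
  -- (1) integral form
  set G : ℝ → ℝ := fun s => ∑ k ∈ Finset.Icc 1 K₀, δ * ((cnt (sand A Q ((k : ℝ) * δ)) s : ℝ) -
        ind (x / ((k : ℝ) * δ + y)) s) with hG
  have hμpos : ∀ k ∈ Finset.Icc 1 K₀, 0 < (k : ℝ) * δ := by
    intro k hk
    have hk1 : 1 ≤ k := (Finset.mem_Icc.mp hk).1
    have hk1' : (1 : ℝ) ≤ k := by exact_mod_cast hk1
    positivity
  have hindI : ∀ l : ℝ, IntegrableOn (fun s => g s * ind l s) D := fun l =>
    layer_integrable hfg (ind_measurable _) (C := 1) (fun s _ => by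
      rw [abs_of_nonneg (ind_nonneg _ _)]; exact ind_le_one _ _)
  have hterm : ∀ k ∈ Finset.Icc 1 K₀,
      IntegrableOn (fun s => δ * (g s * (cnt (sand A Q ((k : ℝ) * δ)) s : ℝ) -
        g s * ind (x / ((k : ℝ) * δ + y)) s)) D := by
    intro k hk
    exact ((cnt_integrable hfg (sand_posSemidef A hQ (hμpos k hk))).sub (hindI _)).const_mul δ
  have h1 : ∑ k ∈ Finset.Icc 1 K₀, δ *
        (trFun f (sand A Q ((k : ℝ) * δ)) - f (x / ((k : ℝ) * δ + y))) =
      ∫ s in D, g s * G s := by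
    have hGs : ∀ s, g s * G s = ∑ k ∈ Finset.Icc 1 K₀,
        δ * (g s * (cnt (sand A Q ((k : ℝ) * δ)) s : ℝ) -
          g s * ind (x / ((k : ℝ) * δ + y)) s) := by
      intro s
      simp only [hG]
      rw [Finset.mul_sum]
      refine Finset.sum_congr rfl fun k _ => by ring
    simp_rw [hGs]
    rw [integral_finsetSum _ hterm]
    refine Finset.sum_congr rfl fun k hk => ?_
    rw [integral_const_mul, integral_sub (cnt_integrable hfg (sand_posSemidef A hQ (hμpos k hk)))
      (hindI _), ← trFun_eq_integral hfg (sand_posSemidef A hQ (hμpos k hk)),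
      ← f_eq_integral_ind hfg (by
        have := hμpos k hk
        positivity)]
  -- (2) pointwise bound
  set L : ℝ → ℝ := profL M π with hL
  have hLmeas : Measurable L := by
    simp only [hL]
    unfold profL
    refine Measurable.sub_const ?_ _
    refine Finset.measurable_sum _ fun j _ => ?_
    exact measurable_const.min (measurable_const.div measurable_id)
  have hmin0 : ∀ j s, 0 < s → 0 ≤ min M (π j / s) := fun j s hs =>
    le_min hMpos.le (div_nonneg (hπ0 j) hs.le)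
  have hLbd : ∀ s, 0 < s → |L s| ≤ n * M + M := by
    intro s hs
    simp only [hL]
    unfold profL
    have h2 : ∑ j, min M (π j / s) ≤ n * M := by
      calc ∑ j, min M (π j / s) ≤ ∑ _j : E, M := Finset.sum_le_sum fun j _ => min_le_left _ _
        _ = n * M := by simp [hn]
    have h3 : 0 ≤ ∑ j, min M (π j / s) := Finset.sum_nonneg fun j _ => hmin0 j s hs
    rw [abs_le]
    constructor <;> nlinarith
  have hpt : ∀ s ∈ D, (1 - κ * sM) * (ind sM s * L s) - n * (y + δ) * ind sM s - n * δ * g s ≤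
      g s * G s := by
    intro s hs
    have hs0 : 0 < s := hs.1
    have hg0 := hfg.g_nonneg s hs0.le
    have hg1 := hfg.g_le_one s hs0.le
    by_cases hsm : s < sM
    · have hi : ind sM s = 1 := by simp [ind, hsm]
      rw [hi]
      have hL0 : 0 ≤ L s := by
        simp only [hL]
        exact profL_nonneg hMpos hπ0 hs0 (by rw [hπsum]; exact hsm)
      have hGs : L s - n * (y + δ) ≤ G s := G_ge_small A hQ hδ hK₀ hs0 hP.1
      have hlb := hfg.g_lb s hs0.le hs.2
      have hlb2 : 1 - κ * sM ≤ g s := by nlinarith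
      have hny : 0 ≤ n * (y + δ) := by positivity
      have hnd : 0 ≤ n * δ * g s := by positivity
      have a1 : g s * (L s - n * (y + δ)) ≤ g s * G s := mul_le_mul_of_nonneg_left hGs hg0
      have a2 : (1 - κ * sM) * L s ≤ g s * L s := mul_le_mul_of_nonneg_right hlb2 hL0
      have a3 : g s * (n * (y + δ)) ≤ n * (y + δ) := by nlinarith
      nlinarith
    · have hi : ind sM s = 0 := by simp [ind, hsm]
      rw [hi]
      have hGs : -(n * δ) ≤ G s := G_ge_large A hQ hx hδ hK₀ hs0 (not_lt.mp hsm)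
      have a1 : g s * (-(n * δ)) ≤ g s * G s := mul_le_mul_of_nonneg_left hGs hg0
      nlinarith
  -- (3) integrate
  have hfinD : volume D ≠ ⊤ := by simp [hD, Real.volume_Ioo]
  have hIL : IntegrableOn (fun s => ind sM s * L s) D := by
    refine Measure.integrableOn_of_bounded (M := n * M + M) hfinD
      (((ind_measurable sM).mul hLmeas).aestronglyMeasurable) ?_
    refine (ae_restrict_iff' measurableSet_Ioo).mpr (Filter.Eventually.of_forall ?_)
    intro s hs
    rw [Real.norm_eq_abs, abs_mul, abs_of_nonneg (ind_nonneg _ _)]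
    have h1 := hLbd s hs.1
    have h2 := ind_le_one sM s
    have h3 := ind_nonneg sM s
    have h4 := abs_nonneg (L s)
    nlinarith
  have hII : IntegrableOn (fun s => ind sM s) D := by
    refine Measure.integrableOn_of_bounded (M := 1) hfinD
      ((ind_measurable sM).aestronglyMeasurable) ?_
    refine Filter.Eventually.of_forall fun s => ?_
    rw [Real.norm_eq_abs, abs_of_nonneg (ind_nonneg _ _)]
    exact ind_le_one _ _
  have hIg : IntegrableOn g D := by
    have := layer_integrable hfg (φ := fun _ => (1 : ℝ)) measurable_const (C := 1)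
      (fun s _ => by simp)
    simpa using this
  have hIG : IntegrableOn (fun s => g s * G s) D := by
    have hGs : (fun s => g s * G s) = fun s => ∑ k ∈ Finset.Icc 1 K₀,
        δ * (g s * (cnt (sand A Q ((k : ℝ) * δ)) s : ℝ) -
          g s * ind (x / ((k : ℝ) * δ + y)) s) := by
      funext s
      simp only [hG]
      rw [Finset.mul_sum]
      refine Finset.sum_congr rfl fun k _ => by ring
    rw [hGs]
    exact integrable_finsetSum _ hterm
  have hmono : ∫ s in D, ((1 - κ * sM) * (ind sM s * L s) - n * (y + δ) * ind sM s - n * δ * g s) ≤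
      ∫ s in D, g s * G s := setIntegral_mono_on
    (((hIL.const_mul (1 - κ * sM)).sub (hII.const_mul (n * (y + δ)))).sub (hIg.const_mul (n * δ)))
    hIG measurableSet_Ioo hpt
  have hA1 : IntegrableOn (fun s => (1 - κ * sM) * (ind sM s * L s)) D := hIL.const_mul _
  have hA2 : IntegrableOn (fun s => n * (y + δ) * ind sM s) D := hII.const_mul _
  have hA3 : IntegrableOn (fun s => n * δ * g s) D := hIg.const_mul _
  have hA12 : IntegrableOn (fun s => (1 - κ * sM) * (ind sM s * L s) - n * (y + δ) * ind sM s) D :=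
    hA1.sub hA2
  rw [integral_sub hA12 hA3, integral_sub hA1 hA2,
    integral_const_mul, integral_const_mul, integral_const_mul] at hmono
  -- values of the integrals
  have hvI : ∫ s in D, ind sM s = sM := by
    have := integral_ind_mul hX.le (fun _ => (1 : ℝ))
    simp only [mul_one] at this
    rw [hD, this]
    simp [Real.volume_real_Ioo_of_le hsMpos.le]
  have hvg : ∫ s in D, g s = f X := by
    have h2 := f_eq_integral_ind hfg hX0.le
    rw [h2]
    have h3 : ∀ s ∈ D, g s * ind X s = g s := by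
      intro s hs
      have : s < X := hs.2
      simp [ind, this]
    exact (setIntegral_congr_fun measurableSet_Ioo h3).symm
  have hvL : ∫ s in D, ind sM s * L s = Ent (A * Aᴴ) := by
    rw [hD, integral_ind_mul hX.le]
    simp only [hL]
    unfold profL
    have hIj : ∀ j, IntegrableOn (fun s => min M (π j / s)) (Set.Ioo 0 sM) := by
      intro j
      refine Measure.integrableOn_of_bounded (M := M) (by simp [Real.volume_Ioo])
        ((measurable_const.min (measurable_const.div measurable_id)).aestronglyMeasurable) ?_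
      refine (ae_restrict_iff' measurableSet_Ioo).mpr (Filter.Eventually.of_forall ?_)
      intro s hs
      rw [Real.norm_eq_abs, abs_of_nonneg (hmin0 j s hs.1)]
      exact min_le_left _ _
    rw [integral_sub (integrable_finsetSum _ fun j _ => hIj j) (by simp),
      integral_finsetSum _ fun j _ => hIj j]
    have h2 : ∀ j, ∫ s in Set.Ioo 0 sM, min M (π j / s) =
        π j + π j * Real.log (x / π j) := fun j =>
      integral_min_div hMpos (hπ0 j) (hπx j)
    simp_rw [h2]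
    have h3 : ∫ _s in Set.Ioo 0 sM, M = x := by
      simp only [integral_const, measureReal_restrict_apply_univ, smul_eq_mul]
      rw [Real.volume_real_Ioo_of_le hsMpos.le, hsMdef]
      field_simp
      simp
    rw [h3]
    exact Ent_eq_sum hP hx
  rw [hvL, hvI, hvg, ← h1] at hmono
  have hfinal : (1 - κ * sM) * Ent (A * Aᴴ) - n * (y + δ) * sM - n * δ * f X ≤ _ := hmono
  exact hfinal

end Crest.Agent.S0534Lib
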