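/-
S0534 library: the explicit conjugate splitting `log(1+x+y) ≥ α(x) + β(y)` (package P3).
All of this is real analysis in the four positive parameters `A B C D`.
-/
import Crest.Agent.S0534Lib.Basic

set_option autoImplicit false

namespace Crest.Agent.S0534Lib

noncomputable section

/-- eigenvalues `ρ₁ < ρ₂` of `[[A+B, √(AC)], [√(AC), C+D]]`. -/
def rhoDisc (A B C D : ℝ) : ℝ := Real.sqrt ((A + B - C - D) ^ 2 + 4 * A * C)
def rho1 (A B C D : ℝ) : ℝ := (A + B + C + D - rhoDisc A B C D) / 2
def rho2 (A B C D : ℝ) : ℝ := (A + B + C + D + rhoDisc A B C D) / 2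
/-- the spectral weight of `ρ₂` at the first row. -/
def wt2 (A B C D : ℝ) : ℝ := (A + B - rho1 A B C D) / (rho2 A B C D - rho1 A B C D)

/-- `α₀(l) = (1-w) log(1 + (ρ₁-B) l / A) + w log(1 + (ρ₂-B) l / A)`. -/
def alpha0 (A B C D l : ℝ) : ℝ :=
  (1 - wt2 A B C D) * Real.log (1 + (rho1 A B C D - B) * l / A) +
    wt2 A B C D * Real.log (1 + (rho2 A B C D - B) * l / A)

/-- `α = α₀` up to `A/B`, then flat. -/
def alpha (A B C D l : ℝ) : ℝ := alpha0 A B C D (min l (A / B))

/-- the derivative of `α` (zero from `A/B` on): `1/(1 + s + C s/(A + (D-B) s))` on `[0, A/B)`. -/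
def gfun (A B C D s : ℝ) : ℝ :=
  if s < A / B then
    (1 - wt2 A B C D) * ((rho1 A B C D - B) / A) / (1 + (rho1 A B C D - B) * s / A) +
      wt2 A B C D * ((rho2 A B C D - B) / A) / (1 + (rho2 A B C D - B) * s / A)
  else 0

variable {A B C D : ℝ}

/-! ### Algebra of the eigenvalues -/

private lemma rhoDisc_sq (hA : 0 < A) (hC : 0 < C) :
    rhoDisc A B C D ^ 2 = (A + B - C - D) ^ 2 + 4 * A * C :=
  Real.sq_sqrt (by positivity)

private lemma rhoDisc_pos (hA : 0 < A) (hC : 0 < C) : 0 < rhoDisc A B C D :=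
  Real.sqrt_pos.2 (by positivity)

private lemma rhoDisc_swap : rhoDisc C D A B = rhoDisc A B C D := by
  unfold rhoDisc; congr 1; ring

private lemma rho1_swap : rho1 C D A B = rho1 A B C D := by
  unfold rho1; rw [rhoDisc_swap]; ring

private lemma rho2_swap : rho2 C D A B = rho2 A B C D := by
  unfold rho2; rw [rhoDisc_swap]; ring

private lemma rho_sum : rho1 A B C D + rho2 A B C D = A + B + C + D := by
  unfold rho1 rho2; ring

private lemma rho_prod (hA : 0 < A) (hC : 0 < C) :
    rho1 A B C D * rho2 A B C D = A * D + B * C + B * D := by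
  have h := rhoDisc_sq (B := B) (D := D) hA hC
  unfold rho1 rho2
  nlinarith [h]

private lemma rho_diff : rho2 A B C D - rho1 A B C D = rhoDisc A B C D := by
  unfold rho1 rho2; ring

/-- The packaged facts on `r₁, r₂, w`. -/
private structure Dat (A B C D r1 r2 w : ℝ) : Prop where
  hA : 0 < A
  hB : 0 < B
  hC : 0 < C
  hD : 0 < D
  sum : r1 + r2 = A + B + C + D
  prod : r1 * r2 = A * D + B * C + B * D
  r1pos : 0 < r1
  r12 : r1 < r2
  w0 : 0 < w
  w1 : w < 1
  hw : w * (r2 - r1) = A + B - r1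

private lemma dat_main (hA : 0 < A) (hB : 0 < B) (hC : 0 < C) (hD : 0 < D) :
    Dat A B C D (rho1 A B C D) (rho2 A B C D) (wt2 A B C D) := by
  have hR := rhoDisc_pos (B := B) (D := D) hA hC
  have hsq := rhoDisc_sq (B := B) (D := D) hA hC
  have hdiff := rho_diff (A := A) (B := B) (C := C) (D := D)
  have hsum := rho_sum (A := A) (B := B) (C := C) (D := D)
  have hprod := rho_prod (B := B) (D := D) hA hC
  have h12 : rho1 A B C D < rho2 A B C D := by linarith
  -- the key bounds
  have h1 : |A + B - C - D| < rhoDisc A B C D := by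
    apply abs_lt_of_sq_lt_sq _ hR.le
    rw [hsq]; nlinarith [mul_pos hA hC]
  have hlt := abs_lt.1 h1
  have hr1 : rho1 A B C D < A + B := by
    unfold rho1; linarith [hlt.1]
  have hr2 : A + B < rho2 A B C D := by
    unfold rho2; linarith [hlt.2]
  have hr1pos : 0 < rho1 A B C D := by
    by_contra hle
    rw [not_lt] at hle
    have h2pos : 0 < rho2 A B C D := by linarith
    have : rho1 A B C D * rho2 A B C D ≤ 0 := mul_nonpos_of_nonpos_of_nonneg hle h2pos.le
    rw [hprod] at this
    nlinarith [mul_pos hA hD, mul_pos hB hC, mul_pos hB hD]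
  have hd : 0 < rho2 A B C D - rho1 A B C D := by linarith
  refine ⟨hA, hB, hC, hD, hsum, hprod, hr1pos, h12, ?_, ?_, ?_⟩
  · unfold wt2; exact div_pos (by linarith) hd
  · unfold wt2; rw [div_lt_one hd]; linarith
  · unfold wt2; field_simp

private lemma Dat.swap {r1 r2 w : ℝ} (h : Dat A B C D r1 r2 w) : Dat C D A B r1 r2 (1 - w) := by
  refine ⟨h.hC, h.hD, h.hA, h.hB, by linarith [h.sum], by linarith [h.prod], h.r1pos, h.r12,
    by linarith [h.w1], by linarith [h.w0], ?_⟩
  have h1 := h.hw; have h2 := h.sum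
  linear_combination (-1 : ℝ) * h1 + h2

/-- symmetric: the second row function has the complementary weights. -/
lemma wt2_swap (hA : 0 < A) (hB : 0 < B) (hC : 0 < C) (hD : 0 < D) :
    wt2 C D A B = 1 - wt2 A B C D := by
  have h := dat_main hA hB hC hD
  have hd : 0 < rho2 A B C D - rho1 A B C D := by linarith [h.r12]
  have hd' : rho2 A B C D - rho1 A B C D ≠ 0 := hd.ne'
  unfold wt2
  rw [rho1_swap, rho2_swap]
  have hs := rho_sum (A := A) (B := B) (C := C) (D := D)
  field_simp
  linarith

/-! ### The generic one-variable function -/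

/-- generic `α₀`. -/
private def a0 (A B r1 r2 w l : ℝ) : ℝ :=
  (1 - w) * Real.log (1 + (r1 - B) * l / A) + w * Real.log (1 + (r2 - B) * l / A)

/-- generic `α₀'`. -/
private def g0 (A B r1 r2 w l : ℝ) : ℝ :=
  (1 - w) * ((r1 - B) / A) / (1 + (r1 - B) * l / A) +
    w * ((r2 - B) / A) / (1 + (r2 - B) * l / A)

/-- the values of the arguments of the logs along the curve `X(ν)`. -/
private lemma arg_eq {r ν : ℝ} (hA : 0 < A) (hνB : 0 < ν + B) :
    1 + (r - B) * (A / (ν + B)) / A = (ν + r) / (ν + B) := by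
  have := hA.ne'; have := hνB.ne'
  field_simp
  ring

private lemma aux_closed {p q w l : ℝ} (hm : (1 - w) * p + w * q = 1) (h1 : 1 + p * l ≠ 0)
    (h2 : 1 + q * l ≠ 0) :
    (1 - w) * p / (1 + p * l) + w * q / (1 + q * l) =
      (1 + p * q * l) / ((1 + p * l) * (1 + q * l)) := by
  rw [div_add_div _ _ h1 h2]
  congr 1
  linear_combination hm

section generic

variable {r1 r2 w : ℝ} (h : Dat A B C D r1 r2 w)
include h

private lemma Dat.r2gt : A + B < r2 := by
  have h1 := h.hw; have h2 := h.w1; have h3 := h.r12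
  nlinarith

private lemma Dat.r1lt : r1 < A + B := by
  have h1 := h.hw; have h2 := h.w0; have h3 := h.r12
  nlinarith [mul_pos h2 (sub_pos.2 h3)]

private lemma Dat.mean : (1 - w) * ((r1 - B) / A) + w * ((r2 - B) / A) = 1 := by
  have hA := h.hA.ne'
  have h1 := h.hw
  field_simp
  linear_combination h1

private lemma Dat.pos1 {l : ℝ} (hl0 : 0 ≤ l) (hl : l ≤ A / B) : 0 < 1 + (r1 - B) * l / A := by
  have hA := h.hA
  have hB := h.hB
  have hr := h.r1pos
  have hl' : l * B ≤ A := by rwa [le_div_iff₀ hB] at hl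
  have key : 0 < A + (r1 - B) * l := by
    rcases eq_or_lt_of_le hl0 with h0 | h0
    · rw [← h0]; simpa using hA
    · nlinarith [mul_pos hr h0]
  have : 1 + (r1 - B) * l / A = (A + (r1 - B) * l) / A := by field_simp
  rw [this]; exact div_pos key hA

private lemma Dat.pos2 {l : ℝ} (hl0 : 0 ≤ l) : 0 < 1 + (r2 - B) * l / A := by
  have hA := h.hA
  have hr := h.r2gt
  have hB := h.hB
  have : 0 ≤ (r2 - B) * l / A := by
    apply div_nonneg _ hA.le
    apply mul_nonneg _ hl0
    linarith
  linarith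

private lemma Dat.identity (ν : ℝ) :
    (1 - w) * (r1 - B) * (ν + r2) + w * (r2 - B) * (ν + r1) = A * (ν + D) := by
  have h1 := h.hw; have h2 := h.prod; have h3 := h.sum
  linear_combination (ν + B) * h1 + h2 - B * h3

private lemma Dat.g0_curve {ν : ℝ} (hν : 0 ≤ ν) :
    g0 A B r1 r2 w (A / (ν + B)) = (ν + B) * (ν + D) / ((ν + r1) * (ν + r2)) := by
  have hA := h.hA
  have hB := h.hB
  have hD := h.hD
  have hνB : 0 < ν + B := by linarith
  have hν1 : 0 < ν + r1 := by linarith [h.r1pos]
  have hν2 : 0 < ν + r2 := by linarith [h.r1pos, h.r12]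
  unfold g0
  rw [arg_eq (r := r1) hA hνB, arg_eq (r := r2) hA hνB]
  have hid := h.identity ν
  have h1 := hA.ne'; have h2 := hνB.ne'; have h3 := hν1.ne'; have h4 := hν2.ne'
  field_simp
  linear_combination hid

private lemma Dat.tangent {ν l : ℝ} (hν : 0 ≤ ν) (hl0 : 0 ≤ l) (hl : l ≤ A / B) :
    a0 A B r1 r2 w l ≤ a0 A B r1 r2 w (A / (ν + B)) +
      (l - A / (ν + B)) * ((ν + B) * (ν + D) / ((ν + r1) * (ν + r2))) := by
  have hA := h.hA
  have hB := h.hB
  have hνB : 0 < ν + B := by linarith
  have hX0 : 0 ≤ A / (ν + B) := by positivity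
  have hXle : A / (ν + B) ≤ A / B := div_le_div_of_nonneg_left hA.le hB (by linarith)
  have hu1 := h.pos1 hl0 hl
  have hu2 := h.pos2 (l := l) hl0
  have hv1 := h.pos1 hX0 hXle
  have hv2 := h.pos2 (l := A / (ν + B)) hX0
  -- tangent line for log
  have tan : ∀ {u v : ℝ}, 0 < u → 0 < v → Real.log u ≤ Real.log v + (u - v) / v := by
    intro u v hu hv
    have := Real.log_le_sub_one_of_pos (div_pos hu hv)
    rw [Real.log_div hu.ne' hv.ne'] at this
    have e : (u - v) / v = u / v - 1 := by field_simp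
    rw [e]; linarith
  have t1 := tan hu1 hv1
  have t2 := tan hu2 hv2
  have hw0 := h.w0
  have hw1 : 0 < 1 - w := by linarith [h.w1]
  have e := h.g0_curve hν
  rw [← e]
  unfold a0 g0
  have e1 : ((1 + (r1 - B) * l / A) - (1 + (r1 - B) * (A / (ν + B)) / A)) /
      (1 + (r1 - B) * (A / (ν + B)) / A) =
      (l - A / (ν + B)) * (((r1 - B) / A) / (1 + (r1 - B) * (A / (ν + B)) / A)) := by
    have := hv1.ne'
    field_simp
    ring
  have e2 : ((1 + (r2 - B) * l / A) - (1 + (r2 - B) * (A / (ν + B)) / A)) /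
      (1 + (r2 - B) * (A / (ν + B)) / A) =
      (l - A / (ν + B)) * (((r2 - B) / A) / (1 + (r2 - B) * (A / (ν + B)) / A)) := by
    have := hv2.ne'
    field_simp
    ring
  rw [e1] at t1
  rw [e2] at t2
  have := mul_le_mul_of_nonneg_left t1 hw1.le
  have := mul_le_mul_of_nonneg_left t2 hw0.le
  calc _ ≤ (1 - w) * (Real.log (1 + (r1 - B) * (A / (ν + B)) / A) +
        (l - A / (ν + B)) * (((r1 - B) / A) / (1 + (r1 - B) * (A / (ν + B)) / A))) +
      w * (Real.log (1 + (r2 - B) * (A / (ν + B)) / A) +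
        (l - A / (ν + B)) * (((r2 - B) / A) / (1 + (r2 - B) * (A / (ν + B)) / A))) := by
        linarith
    _ = _ := by
        rw [mul_div_assoc, mul_div_assoc]
        ring

/-- The sum along the curve. -/
private lemma Dat.tight {ν : ℝ} (hν : 0 ≤ ν) :
    a0 A B r1 r2 w (A / (ν + B)) + a0 C D r1 r2 (1 - w) (C / (ν + D)) =
      Real.log (1 + A / (ν + B) + C / (ν + D)) := by
  have hA := h.hA
  have hB := h.hB
  have hC := h.hC
  have hD := h.hD
  have hνB : 0 < ν + B := by linarith
  have hνD : 0 < ν + D := by linarith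
  have hν1 : 0 < ν + r1 := by linarith [h.r1pos]
  have hν2 : 0 < ν + r2 := by linarith [h.r1pos, h.r12]
  unfold a0
  rw [arg_eq (r := r1) hA hνB, arg_eq (r := r2) hA hνB, arg_eq (r := r1) hC hνD,
    arg_eq (r := r2) hC hνD]
  have e : 1 + A / (ν + B) + C / (ν + D) = (ν + r1) * (ν + r2) / ((ν + B) * (ν + D)) := by
    have := hνB.ne'; have := hνD.ne'
    field_simp
    have h2 := h.prod; have h3 := h.sum
    linear_combination (-1 : ℝ) * h2 - ν * h3
  rw [e, Real.log_div (mul_pos hν1 hν2).ne' (mul_pos hνB hνD).ne',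
    Real.log_mul hν1.ne' hν2.ne', Real.log_mul hνB.ne' hνD.ne',
    Real.log_div hν1.ne' hνB.ne', Real.log_div hν2.ne' hνB.ne',
    Real.log_div hν1.ne' hνD.ne', Real.log_div hν2.ne' hνD.ne']
  ring

/-- Fenchel on the box. -/
private lemma Dat.fenchel_box {x y : ℝ} (hx0 : 0 ≤ x) (hx : x ≤ A / B) (hy0 : 0 ≤ y)
    (hy : y ≤ C / D) :
    a0 A B r1 r2 w x + a0 C D r1 r2 (1 - w) y ≤ Real.log (1 + x + y) := by
  have hA := h.hA
  have hB := h.hB
  have hC := h.hC
  have hD := h.hD
  rcases eq_or_lt_of_le (add_nonneg hx0 hy0) with hT | hT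
  · have hx' : x = 0 := by linarith
    have hy' : y = 0 := by linarith
    subst hx' hy'
    simp [a0]
  · -- intermediate value
    set F : ℝ → ℝ := fun ν => A / (ν + B) + C / (ν + D) with hF
    have hcont : ContinuousOn F (Set.Icc 0 ((A + C) / (x + y))) := by
      apply ContinuousOn.add
      · apply ContinuousOn.div continuousOn_const (by fun_prop)
        intro ν hν
        have := hν.1
        linarith
      · apply ContinuousOn.div continuousOn_const (by fun_prop)
        intro ν hν
        have := hν.1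
        linarith
    have hN : 0 ≤ (A + C) / (x + y) := by positivity
    have hF0 : x + y ≤ F 0 := by
      simp only [hF, zero_add]
      linarith
    have hFN : F ((A + C) / (x + y)) ≤ x + y := by
      simp only [hF]
      set N := (A + C) / (x + y) with hNdef
      have hNpos : 0 < N := by positivity
      have e1 : A / (N + B) ≤ A / N := div_le_div_of_nonneg_left hA.le hNpos (by linarith)
      have e2 : C / (N + D) ≤ C / N := div_le_div_of_nonneg_left hC.le hNpos (by linarith)
      have e3 : A / N + C / N = x + y := by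
        rw [hNdef]
        have : A + C ≠ 0 := by positivity
        field_simp
      linarith
    have hmem : x + y ∈ F '' Set.Icc 0 ((A + C) / (x + y)) := by
      apply intermediate_value_Icc' hN hcont
      exact ⟨hFN, hF0⟩
    obtain ⟨ν, hν, hνeq⟩ := hmem
    have hν0 : 0 ≤ ν := hν.1
    have hνeq' : A / (ν + B) + C / (ν + D) = x + y := hνeq
    have t1 := h.tangent hν0 hx0 hx
    have t2 := h.swap.tangent hν0 hy0 hy
    have tt := h.tight hν0
    have hslope : (ν + D) * (ν + B) / ((ν + r1) * (ν + r2)) =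
        (ν + B) * (ν + D) / ((ν + r1) * (ν + r2)) := by ring
    rw [hslope] at t2
    have e : 1 + x + y = 1 + A / (ν + B) + C / (ν + D) := by linarith
    rw [e, ← tt]
    have : (x - A / (ν + B)) * ((ν + B) * (ν + D) / ((ν + r1) * (ν + r2))) +
        (y - C / (ν + D)) * ((ν + B) * (ν + D) / ((ν + r1) * (ν + r2))) = 0 := by
      rw [← add_mul]
      have : x - A / (ν + B) + (y - C / (ν + D)) = 0 := by linarith
      rw [this, zero_mul]
    linarith

private lemma Dat.rr : (r1 - B) / A * ((r2 - B) / A) = (D - B) / A := by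
  have hA := h.hA.ne'
  have h2 := h.prod; have h3 := h.sum
  field_simp
  linear_combination h2 - B * h3

private lemma Dat.g0_closed {l : ℝ} (hl0 : 0 ≤ l) (hl : l ≤ A / B) :
    g0 A B r1 r2 w l = (1 + (D - B) * l / A) /
      ((1 + (r1 - B) * l / A) * (1 + (r2 - B) * l / A)) := by
  have hu1 := h.pos1 hl0 hl
  have hu2 := h.pos2 (l := l) hl0
  unfold g0
  have e1 : 1 + (r1 - B) * l / A = 1 + ((r1 - B) / A) * l := by ring
  have e2 : 1 + (r2 - B) * l / A = 1 + ((r2 - B) / A) * l := by ring
  have e3 : (D - B) * l / A = ((r1 - B) / A) * ((r2 - B) / A) * l := by rw [h.rr]; ring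
  rw [e1, e2, e3]
  exact aux_closed h.mean (by rw [← e1]; exact hu1.ne') (by rw [← e2]; exact hu2.ne')

private lemma Dat.g0_pos {l : ℝ} (hl0 : 0 ≤ l) (hl : l ≤ A / B) : 0 < g0 A B r1 r2 w l := by
  rw [h.g0_closed hl0 hl]
  have hu1 := h.pos1 hl0 hl
  have hu2 := h.pos2 (l := l) hl0
  have hA := h.hA
  have hB := h.hB
  have hD := h.hD
  have hl' : l * B ≤ A := by rwa [le_div_iff₀ hB] at hl
  have key : 0 < A + (D - B) * l := by
    rcases eq_or_lt_of_le hl0 with h0 | h0
    · rw [← h0]; simpa using hA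
    · nlinarith [mul_pos hD h0]
  have e : 1 + (D - B) * l / A = (A + (D - B) * l) / A := by field_simp
  rw [e]
  exact div_pos (div_pos key hA) (mul_pos hu1 hu2)

private lemma Dat.hasDerivAt_a0 {l : ℝ} (hl0 : 0 ≤ l) (hl : l ≤ A / B) :
    HasDerivAt (a0 A B r1 r2 w) (g0 A B r1 r2 w l) l := by
  have hu1 := h.pos1 hl0 hl
  have hu2 := h.pos2 (l := l) hl0
  have aux : ∀ r : ℝ, HasDerivAt (fun y : ℝ => 1 + (r - B) * y / A) ((r - B) / A) l := by
    intro r
    have := ((hasDerivAt_id l).const_mul (r - B)).div_const A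
    have h2 := this.const_add 1
    simpa using h2
  have d1 := ((aux r1).log hu1.ne').const_mul (1 - w)
  have d2 := ((aux r2).log hu2.ne').const_mul w
  have h3 : HasDerivAt (fun y : ℝ => (1 - w) * Real.log (1 + (r1 - B) * y / A) +
      w * Real.log (1 + (r2 - B) * y / A))
      ((1 - w) * ((r1 - B) / A / (1 + (r1 - B) * l / A)) +
        w * ((r2 - B) / A / (1 + (r2 - B) * l / A))) l := d1.add d2
  have e : g0 A B r1 r2 w l = (1 - w) * ((r1 - B) / A / (1 + (r1 - B) * l / A)) +
        w * ((r2 - B) / A / (1 + (r2 - B) * l / A)) := by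
    unfold g0
    ring
  rw [e]
  exact h3

private lemma Dat.a0_zero : a0 A B r1 r2 w 0 = 0 := by
  simp [a0]

private lemma Dat.a0_continuousOn : ContinuousOn (a0 A B r1 r2 w) (Set.Icc 0 (A / B)) :=
  fun x hx => (h.hasDerivAt_a0 hx.1 hx.2).continuousAt.continuousWithinAt

private lemma Dat.a0_concave : ConcaveOn ℝ (Set.Icc 0 (A / B)) (a0 A B r1 r2 w) := by
  refine ⟨convex_Icc _ _, fun x hx y hy a b ha hb hab => ?_⟩
  have hw0 := h.w0
  have hw1 : 0 < 1 - w := by linarith [h.w1]
  have hlog := strictConcaveOn_log_Ioi.concaveOn.2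
  have key : ∀ r : ℝ, 0 < 1 + (r - B) * x / A → 0 < 1 + (r - B) * y / A →
      a * Real.log (1 + (r - B) * x / A) + b * Real.log (1 + (r - B) * y / A) ≤
        Real.log (1 + (r - B) * (a * x + b * y) / A) := by
    intro r h1 h2
    have := hlog (x := 1 + (r - B) * x / A) (y := 1 + (r - B) * y / A) h1 h2 ha hb hab
    simp only [smul_eq_mul] at this
    have e : a * (1 + (r - B) * x / A) + b * (1 + (r - B) * y / A) =
        1 + (r - B) * (a * x + b * y) / A := by
      have : a = 1 - b := by linarith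
      subst this
      ring
    rw [e] at this
    exact this
  have k1 := key r1 (h.pos1 hx.1 hx.2) (h.pos1 hy.1 hy.2)
  have k2 := key r2 (h.pos2 hx.1) (h.pos2 hy.1)
  simp only [smul_eq_mul]
  unfold a0
  have := mul_le_mul_of_nonneg_left k1 hw1.le
  have := mul_le_mul_of_nonneg_left k2 hw0.le
  nlinarith

private lemma Dat.a0_mono : MonotoneOn (a0 A B r1 r2 w) (Set.Icc 0 (A / B)) := by
  apply monotoneOn_of_deriv_nonneg (convex_Icc _ _) h.a0_continuousOn
  · intro x hx
    rw [interior_Icc] at hx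
    exact (h.hasDerivAt_a0 hx.1.le hx.2.le).differentiableAt.differentiableWithinAt
  · intro x hx
    rw [interior_Icc] at hx
    rw [(h.hasDerivAt_a0 hx.1.le hx.2.le).deriv]
    exact (h.g0_pos hx.1.le hx.2.le).le

end generic

private lemma alpha_eq (A B C D l : ℝ) :
    alpha A B C D l =
      a0 A B (rho1 A B C D) (rho2 A B C D) (wt2 A B C D) (min l (A / B)) := rfl

private lemma alpha_swap_eq (hA : 0 < A) (hB : 0 < B) (hC : 0 < C) (hD : 0 < D) (l : ℝ) :
    alpha C D A B l =
      a0 C D (rho1 A B C D) (rho2 A B C D) (1 - wt2 A B C D) (min l (C / D)) := by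
  rw [alpha_eq, rho1_swap, rho2_swap, wt2_swap hA hB hC hD]

private lemma min_mem_Icc {M x : ℝ} (hM : 0 ≤ M) (hx : 0 ≤ x) : min x M ∈ Set.Icc 0 M :=
  ⟨le_min hx hM, min_le_right _ _⟩

/-- concavity of `α` on `[0,∞)`. -/
theorem alpha_concave (hA : 0 < A) (hB : 0 < B) (hC : 0 < C) (hD : 0 < D) :
    ConcaveOn ℝ (Set.Ici 0) (alpha A B C D) := by
  have h := dat_main hA hB hC hD
  have hM : 0 ≤ A / B := by positivity
  refine ⟨convex_Ici 0, fun x hx y hy a b ha hb hab => ?_⟩
  simp only [Set.mem_Ici] at hx hy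
  rw [alpha_eq, alpha_eq, alpha_eq]
  have hmx := min_mem_Icc hM hx
  have hmy := min_mem_Icc hM hy
  have hc := h.a0_concave.2 hmx hmy ha hb hab
  refine hc.trans ?_
  have hsum : a • x + b • y = a * x + b * y := rfl
  have hmem1 := (convex_Icc (0 : ℝ) (A / B)) hmx hmy ha hb hab
  have hmem2 : min (a • x + b • y) (A / B) ∈ Set.Icc 0 (A / B) :=
    min_mem_Icc hM (by simp only [smul_eq_mul]; positivity)
  apply h.a0_mono hmem1 hmem2
  apply le_min
  · simp only [smul_eq_mul]
    have h1 := min_le_left x (A / B)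
    have h2 := min_le_left y (A / B)
    nlinarith
  · simp only [smul_eq_mul]
    have h1 := min_le_right x (A / B)
    have h2 := min_le_right y (A / B)
    have : a * min x (A / B) + b * min y (A / B) ≤ a * (A / B) + b * (A / B) := by
      apply add_le_add (mul_le_mul_of_nonneg_left h1 ha) (mul_le_mul_of_nonneg_left h2 hb)
    have e : a * (A / B) + b * (A / B) = A / B := by
      rw [← add_mul, hab, one_mul]
    linarith

/-- Fenchel: `α(x) + β(y) ≤ log (1 + x + y)`. -/
theorem alpha_fenchel (hA : 0 < A) (hB : 0 < B) (hC : 0 < C) (hD : 0 < D) {x y : ℝ}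
    (hx : 0 ≤ x) (hy : 0 ≤ y) :
    alpha A B C D x + alpha C D A B y ≤ Real.log (1 + x + y) := by
  have h := dat_main hA hB hC hD
  have hM : 0 ≤ A / B := by positivity
  have hM' : 0 ≤ C / D := by positivity
  rw [alpha_eq, alpha_swap_eq hA hB hC hD]
  have hmx := min_mem_Icc hM hx
  have hmy := min_mem_Icc hM' hy
  have := h.fenchel_box hmx.1 hmx.2 hmy.1 hmy.2
  refine this.trans ?_
  apply Real.log_le_log
  · have := hmx.1; have := hmy.1; linarith
  · have h1 := min_le_left x (A / B)
    have h2 := min_le_left y (C / D)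
    linarith

/-- Tightness on the aligned curve. -/
theorem alpha_tight (hA : 0 < A) (hB : 0 < B) (hC : 0 < C) (hD : 0 < D) {ν : ℝ} (hν : 0 < ν) :
    alpha A B C D (A / (ν + B)) + alpha C D A B (C / (ν + D)) =
      Real.log (1 + A / (ν + B) + C / (ν + D)) := by
  have h := dat_main hA hB hC hD
  rw [alpha_eq, alpha_swap_eq hA hB hC hD]
  have e1 : min (A / (ν + B)) (A / B) = A / (ν + B) :=
    min_eq_left (div_le_div_of_nonneg_left hA.le hB (by linarith))
  have e2 : min (C / (ν + D)) (C / D) = C / (ν + D) :=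
    min_eq_left (div_le_div_of_nonneg_left hC.le hD (by linarith))
  rw [e1, e2]
  exact h.tight hν.le

private lemma gfun_of_lt {s : ℝ} (hs : s < A / B) :
    gfun A B C D s = g0 A B (rho1 A B C D) (rho2 A B C D) (wt2 A B C D) s := by
  unfold gfun g0
  rw [if_pos hs]

private lemma gfun_of_le {s : ℝ} (hs : A / B ≤ s) : gfun A B C D s = 0 := by
  unfold gfun
  rw [if_neg (not_lt.2 hs)]

/-- The layer representation of `α`, for a suitable `κ`. -/
theorem alpha_layer (hA : 0 < A) (hB : 0 < B) (hC : 0 < C) (hD : 0 < D) :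
    ∃ κ : ℝ, 0 ≤ κ ∧ LayerFun (alpha A B C D) (gfun A B C D) (A / B) κ := by
  have h := dat_main hA hB hC hD
  set r1 := rho1 A B C D with hr1
  set r2 := rho2 A B C D with hr2
  set w := wt2 A B C D with hw
  obtain ⟨p, hp⟩ : ∃ p, p = (r1 - B) / A := ⟨_, rfl⟩
  obtain ⟨q, hq⟩ : ∃ q, q = (r2 - B) / A := ⟨_, rfl⟩
  have hw0 := h.w0
  have hw1 : 0 < 1 - w := by linarith [h.w1]
  have hr1pos := h.r1pos
  have hMpos : 0 < A / B := by positivity
  obtain ⟨m0, hm0⟩ : ∃ m0, m0 = min 1 (r1 / B) := ⟨_, rfl⟩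
  have hm0pos : 0 < m0 := by
    rw [hm0]; exact lt_min one_pos (by positivity)
  have hmean : (1 - w) * p + w * q = 1 := by
    rw [hp, hq]; exact h.mean
  have hqnn : 0 ≤ q := by
    rw [hq]
    apply div_nonneg _ hA.le
    linarith [h.r2gt]
  -- arguments and the elementary expansion
  have hu : ∀ s, 0 ≤ s → s < A / B → m0 ≤ 1 + p * s := by
    intro s hs0 hs
    have hs' : s * B ≤ A := by
      have := hs.le
      rwa [le_div_iff₀ hB] at this
    by_cases hcase : B ≤ r1
    · have : 0 ≤ p := by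
        rw [hp]; exact div_nonneg (by linarith) hA.le
      have : 0 ≤ p * s := mul_nonneg this hs0
      have := min_le_left 1 (r1 / B)
      rw [← hm0] at this
      linarith
    · have hlt : r1 < B := not_le.1 hcase
      have h2 : r1 / B ≤ 1 + p * s := by
        rw [hp, div_le_iff₀ hB]
        have e : (1 + (r1 - B) / A * s) * B = B + (r1 - B) * (s * B) / A := by ring
        rw [e]
        have : (r1 - B) * A / A ≤ (r1 - B) * (s * B) / A := by
          apply div_le_div_of_nonneg_right _ hA.le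
          nlinarith
        rw [mul_div_assoc, div_self hA.ne', mul_one] at this
        linarith
      rw [hm0]
      exact (min_le_right _ _).trans h2
  have expand : ∀ (c s : ℝ), 0 < 1 + c * s → c / (1 + c * s) = c - c ^ 2 * s / (1 + c * s) := by
    intro c s hc
    have := hc.ne'
    field_simp
    ring
  have hgform : ∀ s, 0 ≤ s → s < A / B →
      gfun A B C D s = 1 - (1 - w) * (p ^ 2 * s / (1 + p * s)) - w * (q ^ 2 * s / (1 + q * s)) := by
    intro s hs0 hs
    rw [gfun_of_lt hs]
    unfold g0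
    have hup := lt_of_lt_of_le hm0pos (hu s hs0 hs)
    have huq : 0 < 1 + q * s := by
      have : 0 ≤ q * s := mul_nonneg hqnn hs0
      linarith
    have e1 : 1 + (r1 - B) * s / A = 1 + p * s := by rw [hp]; ring
    have e2 : 1 + (r2 - B) * s / A = 1 + q * s := by rw [hq]; ring
    rw [e1, e2, ← hp, ← hq, mul_div_assoc, mul_div_assoc, expand p s hup, expand q s huq]
    linear_combination hmean
  have hmeas : Measurable (gfun A B C D) := by
    unfold gfun
    apply Measurable.ite (measurableSet_lt measurable_id measurable_const)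
    · fun_prop
    · exact measurable_const
  have hnn : ∀ s, 0 ≤ s → 0 ≤ gfun A B C D s := by
    intro s hs0
    by_cases hs : s < A / B
    · rw [gfun_of_lt hs]
      exact (h.g0_pos hs0 hs.le).le
    · rw [gfun_of_le (not_lt.1 hs)]
  have hle1 : ∀ s, 0 ≤ s → gfun A B C D s ≤ 1 := by
    intro s hs0
    by_cases hs : s < A / B
    · rw [hgform s hs0 hs]
      have hup := lt_of_lt_of_le hm0pos (hu s hs0 hs)
      have huq : 0 < 1 + q * s := by
        have : 0 ≤ q * s := mul_nonneg hqnn hs0
        linarith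
      have t1 : 0 ≤ p ^ 2 * s / (1 + p * s) := by positivity
      have t2 : 0 ≤ q ^ 2 * s / (1 + q * s) := by positivity
      have := mul_nonneg hw1.le t1
      have := mul_nonneg hw0.le t2
      linarith
    · rw [gfun_of_le (not_lt.1 hs)]
      exact zero_le_one
  refine ⟨(1 - w) * (p ^ 2 / m0) + w * q ^ 2, by positivity, ?_⟩
  refine ⟨hmeas, hnn, hle1, fun s hs => gfun_of_le hs, ?_, ?_⟩
  · -- the fundamental theorem of calculus
    intro l hl
    have hcont : ContinuousOn (alpha A B C D) (Set.uIcc 0 l) := by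
      rw [Set.uIcc_of_le hl]
      have hmin : ContinuousOn (fun s : ℝ => min s (A / B)) (Set.Icc 0 l) :=
        (continuous_id.min continuous_const).continuousOn
      have := h.a0_continuousOn.comp hmin (fun s hs => min_mem_Icc hMpos.le hs.1)
      exact this
    have hderiv : ∀ x ∈ Set.Ioo (min 0 l) (max 0 l),
        HasDerivWithinAt (alpha A B C D) (gfun A B C D x) (Set.Ioi x) x := by
      intro x hx
      rw [min_eq_left hl, max_eq_right hl] at hx
      by_cases hxM : x < A / B
      · rw [gfun_of_lt hxM]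
        have hd := h.hasDerivAt_a0 hx.1.le hxM.le
        have hev : alpha A B C D =ᶠ[nhds x] a0 A B r1 r2 w := by
          filter_upwards [Iio_mem_nhds hxM] with s hs
          rw [alpha_eq, min_eq_left (le_of_lt hs)]
        exact (hd.congr_of_eventuallyEq hev).hasDerivWithinAt
      · rw [gfun_of_le (not_lt.1 hxM)]
        have hxM' := not_lt.1 hxM
        have hc : HasDerivWithinAt (fun _ : ℝ => a0 A B r1 r2 w (A / B)) 0 (Set.Ioi x) x :=
          hasDerivWithinAt_const _ _ _
        refine hc.congr (fun s hs => ?_) ?_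
        · rw [alpha_eq, min_eq_right (hxM'.trans (le_of_lt hs))]
        · rw [alpha_eq, min_eq_right hxM']
    have hint : IntervalIntegrable (gfun A B C D) MeasureTheory.volume 0 l := by
      rw [intervalIntegrable_iff_integrableOn_Ioc_of_le hl]
      apply MeasureTheory.Measure.integrableOn_of_bounded (M := 1) (by simp)
        hmeas.aestronglyMeasurable
      apply MeasureTheory.ae_restrict_of_forall_mem measurableSet_Ioc
      intro s hs
      rw [Real.norm_eq_abs, abs_of_nonneg (hnn s hs.1.le)]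
      exact hle1 s hs.1.le
    have := intervalIntegral.integral_eq_sub_of_hasDeriv_right hcont hderiv hint
    rw [this, alpha_eq A B C D 0, min_eq_left hMpos.le, h.a0_zero, sub_zero]
  · intro s hs0 hs
    rw [hgform s hs0 hs]
    have hum := hu s hs0 hs
    have hup := lt_of_lt_of_le hm0pos hum
    have huq : 1 ≤ 1 + q * s := by
      have : 0 ≤ q * s := mul_nonneg hqnn hs0
      linarith
    have t1 : p ^ 2 * s / (1 + p * s) ≤ p ^ 2 / m0 * s := by
      have e : p ^ 2 / m0 * s = p ^ 2 * s / m0 := by ring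
      rw [e]
      exact div_le_div_of_nonneg_left (by positivity) hm0pos hum
    have t2 : q ^ 2 * s / (1 + q * s) ≤ q ^ 2 * s := by
      apply div_le_self (by positivity) huq
    have := mul_le_mul_of_nonneg_left t1 hw1.le
    have := mul_le_mul_of_nonneg_left t2 hw0.le
    nlinarith

end

end Crest.Agent.S0534Lib
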