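/-
S0534 library: assembly of the tree theorem (package P6).
-/
import Crest.Agent.S0534Lib.Peierls
import Crest.Agent.S0534Lib.Scalar
import Crest.Agent.S0534Lib.Row

set_option autoImplicit false

namespace Crest.Agent.S0534Lib

open Matrix Crest.Quantum
open scoped ComplexOrder

variable {E K : Type*} [Fintype E] [DecidableEq E] [Fintype K] [DecidableEq K]


/-- `θ_K(l) = ∑_{k=1}^{K²} (1/K) log (1 + l K / k)`. -/
noncomputable def theta (K : ℕ) (l : ℝ) : ℝ :=
  ∑ k ∈ Finset.Icc 1 (K ^ 2), (1 / (K : ℝ)) * Real.log (1 + l * K / k)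

/-- the antiderivative of `log (1 + l / μ)`. -/
noncomputable def thetaG (l μ : ℝ) : ℝ := (μ + l) * Real.log (μ + l) - μ * Real.log μ

lemma thetaG_continuous (l : ℝ) : Continuous (thetaG l) := by
  unfold thetaG
  exact (Real.continuous_mul_log.comp (continuous_id.add continuous_const)).sub
    Real.continuous_mul_log

lemma thetaG_hasDeriv {l μ : ℝ} (hl : 0 ≤ l) (hμ : 0 < μ) :
    HasDerivAt (thetaG l) (Real.log (1 + l / μ)) μ := by
  have h1 : HasDerivAt (fun x : ℝ => x * Real.log x) (Real.log (μ + l) + 1) (μ + l) :=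
    Real.hasDerivAt_mul_log (by positivity)
  have h2 : HasDerivAt (fun x : ℝ => x + l) 1 μ := (hasDerivAt_id μ).add_const l
  have h3 := h1.comp μ h2
  have h4 : HasDerivAt (fun x : ℝ => x * Real.log x) (Real.log μ + 1) μ :=
    Real.hasDerivAt_mul_log hμ.ne'
  have h5 := h3.sub h4
  have h6 : thetaG l = ((fun x : ℝ => x * Real.log x) ∘ fun x : ℝ => x + l) -
      fun x : ℝ => x * Real.log x := by
    funext x; simp [thetaG]
  rw [h6]
  refine h5.congr_deriv ?_
  have : 1 + l / μ = (μ + l) / μ := by field_simp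
  rw [this, Real.log_div (by positivity) hμ.ne']
  ring

lemma log_one_add_div_antitone {l a b : ℝ} (hl : 0 ≤ l) (ha : 0 < a) (hab : a ≤ b) :
    Real.log (1 + l / b) ≤ Real.log (1 + l / a) := by
  apply Real.log_le_log
  · have : 0 ≤ l / b := div_nonneg hl (ha.le.trans hab)
    linarith
  · have : l / b ≤ l / a := div_le_div_of_nonneg_left hl ha hab
    linarith

lemma thetaG_step_lower {l a h : ℝ} (hl : 0 ≤ l) (ha : 0 ≤ a) (hh : 0 < h) :
    h * Real.log (1 + l / (a + h)) ≤ thetaG l (a + h) - thetaG l a := by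
  obtain ⟨c, hc, hc'⟩ := exists_hasDerivAt_eq_slope (thetaG l) (fun x => Real.log (1 + l / x))
    (show a < a + h by linarith) (thetaG_continuous l).continuousOn
    (fun x hx => thetaG_hasDeriv hl (lt_of_le_of_lt ha hx.1))
  have hc0 : 0 < c := lt_of_le_of_lt ha hc.1
  have hle := log_one_add_div_antitone hl hc0 hc.2.le
  have : thetaG l (a + h) - thetaG l a = h * Real.log (1 + l / c) := by
    rw [hc']
    have : a + h - a = h := by ring
    rw [this]
    field_simp
  rw [this]
  exact mul_le_mul_of_nonneg_left hle hh.le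

lemma thetaG_step_upper {l a h : ℝ} (hl : 0 ≤ l) (ha : 0 < a) (hh : 0 < h) :
    thetaG l (a + h) - thetaG l a ≤ h * Real.log (1 + l / a) := by
  obtain ⟨c, hc, hc'⟩ := exists_hasDerivAt_eq_slope (thetaG l) (fun x => Real.log (1 + l / x))
    (show a < a + h by linarith) (thetaG_continuous l).continuousOn
    (fun x hx => thetaG_hasDeriv hl (lt_trans ha hx.1))
  have hle := log_one_add_div_antitone hl ha hc.1.le
  have : thetaG l (a + h) - thetaG l a = h * Real.log (1 + l / c) := by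
    rw [hc']
    have : a + h - a = h := by ring
    rw [this]
    field_simp
  rw [this]
  exact mul_le_mul_of_nonneg_left hle hh.le

lemma sum_Icc_eq_sum_range {M : Type*} [AddCommMonoid M] (F : ℕ → M) (n : ℕ) :
    ∑ k ∈ Finset.Icc 1 n, F k = ∑ i ∈ Finset.range n, F (i + 1) := by
  induction n with
  | zero => simp
  | succ n ih => rw [Finset.sum_Icc_succ_top (by omega), ih, Finset.sum_range_succ]

lemma theta_term_eq {K : ℕ} (hK : 0 < K) (l : ℝ) (k : ℕ) (hk : 0 < k) :
    (1 / (K : ℝ)) * Real.log (1 + l * K / k) =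
      (1 / (K : ℝ)) * Real.log (1 + l / ((k : ℝ) / K)) := by
  have hK' : (K : ℝ) ≠ 0 := by positivity
  have hk' : (k : ℝ) ≠ 0 := by positivity
  congr 3
  field_simp

/-- the upper bound `θ_K(l) ≤ G(K) - G(0)`. -/
lemma theta_le {K : ℕ} (hK : 0 < K) {l : ℝ} (hl : 0 ≤ l) :
    theta K l ≤ thetaG l K - thetaG l 0 := by
  have hK' : (0 : ℝ) < K := by positivity
  unfold theta
  rw [sum_Icc_eq_sum_range]
  have key : ∀ i ∈ Finset.range (K ^ 2),
      (1 / (K : ℝ)) * Real.log (1 + l * K / ((i + 1 : ℕ) : ℝ)) ≤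
        thetaG l (((i + 1 : ℕ) : ℝ) / K) - thetaG l ((i : ℝ) / K) := by
    intro i _
    rw [theta_term_eq hK l (i + 1) (by omega)]
    have h0 : (0 : ℝ) ≤ (i : ℝ) / K := by positivity
    have := thetaG_step_lower hl h0 (show (0 : ℝ) < 1 / K by positivity)
    have e : (i : ℝ) / K + 1 / K = ((i + 1 : ℕ) : ℝ) / K := by
      push_cast; field_simp
    rw [e] at this
    exact this
  refine (Finset.sum_le_sum key).trans (le_of_eq ?_)
  have := Finset.sum_range_sub (fun i : ℕ => thetaG l ((i : ℝ) / K)) (K ^ 2)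
  rw [this]
  have e1 : (((K ^ 2 : ℕ) : ℝ)) / K = K := by
    push_cast; field_simp
  rw [e1]
  simp

/-- the lower bound `G(K + 1/K) - G(1/K) ≤ θ_K(l)`. -/
lemma le_theta {K : ℕ} (hK : 0 < K) {l : ℝ} (hl : 0 ≤ l) :
    thetaG l ((K : ℝ) + 1 / K) - thetaG l (1 / K) ≤ theta K l := by
  have hK' : (0 : ℝ) < K := by positivity
  unfold theta
  rw [sum_Icc_eq_sum_range]
  have key : ∀ i ∈ Finset.range (K ^ 2),
      thetaG l (((i + 2 : ℕ) : ℝ) / K) - thetaG l (((i + 1 : ℕ) : ℝ) / K) ≤
      (1 / (K : ℝ)) * Real.log (1 + l * K / ((i + 1 : ℕ) : ℝ)) := by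
    intro i _
    rw [theta_term_eq hK l (i + 1) (by omega)]
    have h0 : (0 : ℝ) < ((i + 1 : ℕ) : ℝ) / K := by positivity
    have := thetaG_step_upper hl h0 (show (0 : ℝ) < 1 / K by positivity)
    have e : ((i + 1 : ℕ) : ℝ) / K + 1 / K = ((i + 2 : ℕ) : ℝ) / K := by
      push_cast; field_simp; ring
    rw [e] at this
    exact this
  refine le_trans (le_of_eq ?_) (Finset.sum_le_sum key)
  have := Finset.sum_range_sub (fun i : ℕ => thetaG l (((i + 1 : ℕ) : ℝ) / K)) (K ^ 2)
  rw [this]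
  have e1 : (((K ^ 2 + 1 : ℕ) : ℝ)) / K = (K : ℝ) + 1 / K := by
    push_cast; field_simp
  rw [e1]
  norm_num

/-- `G(t) - l (log t + 1) → 0`. -/
lemma thetaG_sub_tendsto (l : ℝ) (hl : 0 ≤ l) :
    Filter.Tendsto (fun t : ℝ => thetaG l t - l * (Real.log t + 1)) Filter.atTop (nhds 0) := by
  have h1 := Real.tendsto_mul_log_one_add_div_atTop l
  have h2 : Filter.Tendsto (fun t : ℝ => Real.log (1 + l / t)) Filter.atTop (nhds 0) := by
    have : Filter.Tendsto (fun t : ℝ => 1 + l / t) Filter.atTop (nhds (1 + 0)) :=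
      tendsto_const_nhds.add (Filter.Tendsto.div_atTop tendsto_const_nhds Filter.tendsto_id)
    have h3 := (Real.continuousAt_log (by norm_num : (1 + 0 : ℝ) ≠ 0)).tendsto.comp this
    simpa [Function.comp_def] using h3
  have h3 : Filter.Tendsto (fun t : ℝ => t * Real.log (1 + l / t) - l + l * Real.log (1 + l / t))
      Filter.atTop (nhds (l - l + l * 0)) :=
    (h1.sub tendsto_const_nhds).add (h2.const_mul l)
  have h4 : (l - l + l * 0 : ℝ) = 0 := by ring
  rw [h4] at h3
  refine h3.congr' ?_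
  filter_upwards [Filter.eventually_gt_atTop 0] with t ht
  unfold thetaG
  have e1 : 1 + l / t = (t + l) / t := by field_simp
  rw [e1, Real.log_div (by positivity) ht.ne']
  ring

theorem theta_tendsto {l : ℝ} (hl : 0 ≤ l) :
    Filter.Tendsto (fun K : ℕ => theta K l - l * (Real.log K + 1)) Filter.atTop
      (nhds (Real.negMulLog l)) := by
  have hG0 : thetaG l 0 = l * Real.log l := by simp [thetaG]
  have hneg : Real.negMulLog l = 0 - thetaG l 0 := by
    rw [hG0, Real.negMulLog]; ring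
  have hKtop : Filter.Tendsto (fun K : ℕ => (K : ℝ)) Filter.atTop Filter.atTop :=
    tendsto_natCast_atTop_atTop
  have hinv : Filter.Tendsto (fun K : ℕ => 1 / (K : ℝ)) Filter.atTop (nhds 0) :=
    tendsto_one_div_atTop_nhds_zero_nat
  -- upper bound
  have hup : Filter.Tendsto
      (fun K : ℕ => thetaG l K - thetaG l 0 - l * (Real.log K + 1)) Filter.atTop
      (nhds (Real.negMulLog l)) := by
    rw [hneg]
    have := ((thetaG_sub_tendsto l hl).comp hKtop).sub_const (thetaG l 0)
    refine this.congr fun K => ?_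
    simp only [Function.comp]
    ring
  -- lower bound
  have hlo : Filter.Tendsto
      (fun K : ℕ => thetaG l ((K : ℝ) + 1 / K) - thetaG l (1 / K) - l * (Real.log K + 1))
      Filter.atTop (nhds (Real.negMulLog l)) := by
    rw [hneg]
    have hK2 : Filter.Tendsto (fun K : ℕ => (K : ℝ) + 1 / K) Filter.atTop Filter.atTop :=
      Filter.tendsto_atTop_mono (fun K => by
        have : (0 : ℝ) ≤ 1 / (K : ℝ) := by positivity
        linarith) hKtop
    have h1 := (thetaG_sub_tendsto l hl).comp hK2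
    have h2 : Filter.Tendsto (fun K : ℕ => thetaG l (1 / K)) Filter.atTop (nhds (thetaG l 0)) :=
      ((thetaG_continuous l).tendsto 0).comp hinv
    have h3 : Filter.Tendsto (fun K : ℕ => Real.log ((K : ℝ) + 1 / K) - Real.log K) Filter.atTop
        (nhds 0) := by
      have h4 : Filter.Tendsto (fun K : ℕ => Real.log (1 + 1 / (K : ℝ) ^ 2)) Filter.atTop
          (nhds 0) := by
        have h5 : Filter.Tendsto (fun K : ℕ => 1 + 1 / (K : ℝ) ^ 2) Filter.atTop (nhds (1 + 0)) :=
          tendsto_const_nhds.add (Filter.Tendsto.div_atTop tendsto_const_nhds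
            (Filter.tendsto_pow_atTop (by norm_num) |>.comp hKtop))
        have h6 := (Real.continuousAt_log (by norm_num : (1 + 0 : ℝ) ≠ 0)).tendsto.comp h5
        simpa [Function.comp_def] using h6
      refine h4.congr' ?_
      filter_upwards [Filter.eventually_gt_atTop 0] with K hK
      have hK' : (0 : ℝ) < K := by positivity
      have e : (K : ℝ) + 1 / K = K * (1 + 1 / (K : ℝ) ^ 2) := by field_simp
      rw [e, Real.log_mul hK'.ne' (by positivity)]
      ring
    have h7 := ((h1.sub h2).add (h3.const_mul l))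
    have e : (0 - thetaG l 0 + l * 0 : ℝ) = 0 - thetaG l 0 := by ring
    rw [e] at h7
    refine h7.congr' ?_
    filter_upwards [Filter.eventually_gt_atTop 0] with K hK
    simp only [Function.comp]
    ring
  refine tendsto_of_tendsto_of_tendsto_of_le_of_le' hlo hup ?_ ?_
  · filter_upwards [Filter.eventually_gt_atTop 0] with K hK
    have := le_theta hK hl
    linarith
  · filter_upwards [Filter.eventually_gt_atTop 0] with K hK
    have := theta_le hK hl
    linarith


lemma det_shift_ne_zero {Q : Matrix E E ℂ} (hQ : Q.PosSemidef) {μ : ℝ} (hμ : 0 < μ) :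
    det ((μ : ℂ) • (1 : Matrix E E ℂ) + Q) ≠ 0 := by
  rw [det_shift_eq_prod hQ.1]
  refine Finset.prod_ne_zero_iff.mpr fun i _ => ?_
  have := hQ.eigenvalues_nonneg i
  exact_mod_cast (by positivity : μ + hQ.1.eigenvalues i ≠ 0)

/-- The determinant identity: `det (μ + σ) = det (μ + Q) det (μ + W) det (1 + 𝔸_μ + 𝔹_μ)`. -/
theorem det_treeSigma (A C : Matrix E K ℂ) {Q W : Matrix E E ℂ} (hQ : Q.PosSemidef)
    (hW : W.PosSemidef) {μ : ℝ} (hμ : 0 < μ) :
    det ((μ : ℂ) • (1 : Matrix (E ⊕ E) (E ⊕ E) ℂ) + treeSigma A C Q W) =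
      det ((μ : ℂ) • (1 : Matrix E E ℂ) + Q) * det ((μ : ℂ) • (1 : Matrix E E ℂ) + W) *
        det (1 + sand A Q μ + sand C W μ) := by
  set Q' : Matrix E E ℂ := (μ : ℂ) • (1 : Matrix E E ℂ) + Q with hQ'
  set W' : Matrix E E ℂ := (μ : ℂ) • (1 : Matrix E E ℂ) + W with hW'
  have hdQ : IsUnit Q'.det := isUnit_iff_ne_zero.mpr (det_shift_ne_zero hQ hμ)
  have hdW : IsUnit W'.det := isUnit_iff_ne_zero.mpr (det_shift_ne_zero hW hμ)
  have hQi : Q' * Q'⁻¹ = 1 := Matrix.mul_nonsing_inv _ hdQ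
  have hWi : W' * W'⁻¹ = 1 := Matrix.mul_nonsing_inv _ hdW
  let D : Matrix (E ⊕ E) (E ⊕ E) ℂ := fromBlocks Q' 0 0 W'
  let Di : Matrix (E ⊕ E) (E ⊕ E) ℂ := fromBlocks Q'⁻¹ 0 0 W'⁻¹
  let V : Matrix (E ⊕ E) K ℂ := fromRows A C
  let Vs : Matrix K (E ⊕ E) ℂ := fromCols Aᴴ Cᴴ
  have hDDi : D * Di = 1 := by
    simp only [D, Di, fromBlocks_multiply, mul_zero, zero_mul, add_zero, zero_add, hQi, hWi,
      fromBlocks_one]
  have hVV : V * Vs = fromBlocks (A * Aᴴ) (A * Cᴴ) (C * Aᴴ) (C * Cᴴ) := by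
    simp only [V, Vs, fromRows_mul_fromCols]
  have hsum : (μ : ℂ) • (1 : Matrix (E ⊕ E) (E ⊕ E) ℂ) + treeSigma A C Q W = D + V * Vs := by
    rw [hVV]
    simp only [D, treeSigma, hQ', hW']
    rw [← fromBlocks_one, fromBlocks_smul, fromBlocks_add, fromBlocks_add]
    congr 1 <;> simp [add_comm, add_left_comm, add_assoc]
  have hfac : D + V * Vs = D * (1 + (Di * V) * Vs) := by
    rw [mul_add, mul_one, Matrix.mul_assoc Di, ← Matrix.mul_assoc D, hDDi, Matrix.one_mul]
  have hVDV : Vs * (Di * V) = sand A Q μ + sand C W μ := by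
    simp only [Vs, Di, V, sand]
    rw [fromBlocks_mul_fromRows, fromCols_mul_fromRows]
    simp only [Matrix.zero_mul, add_zero, zero_add, Matrix.mul_assoc]
    rfl
  rw [hsum, hfac, det_mul, det_one_add_mul_comm, hVDV, add_assoc]
  simp only [D, det_fromBlocks_zero₂₁]


lemma tree_unitary_mem {M : Matrix K K ℂ} (hM : M.IsHermitian) :
    (hM.eigenvectorUnitary : Matrix K K ℂ) ∈ Matrix.unitaryGroup K ℂ :=
  hM.eigenvectorUnitary.2

lemma tree_conj_diag {M : Matrix K K ℂ} (hM : M.IsHermitian) :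
    (hM.eigenvectorUnitary : Matrix K K ℂ)ᴴ * M * (hM.eigenvectorUnitary : Matrix K K ℂ) =
      Matrix.diagonal (fun i => (hM.eigenvalues i : ℂ)) := by
  have h := hM.conjStarAlgAut_star_eigenvectorUnitary
  rw [Unitary.conjStarAlgAut_star_apply] at h
  simpa [star_eq_conjTranspose, Function.comp_def] using h

/-- Peierls step: `log det (1 + 𝔸 + 𝔹) ≥ tr α(𝔸) + tr β(𝔹)` whenever `α(x) + β(y) ≤ log(1+x+y)`
and `α, β` are concave on `[0,∞)`. -/
theorem logdet_ge_of_fenchel {f h : ℝ → ℝ} (hf : ConcaveOn ℝ (Set.Ici 0) f)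
    (hh : ConcaveOn ℝ (Set.Ici 0) h)
    (hfen : ∀ x y : ℝ, 0 ≤ x → 0 ≤ y → f x + h y ≤ Real.log (1 + x + y))
    {S T : Matrix K K ℂ} (hS : S.PosSemidef) (hT : T.PosSemidef) :
    trFun f S + trFun h T ≤ Real.log (det (1 + S + T)).re := by
  have hST : (S + T).PosSemidef := hS.add hT
  have hM : (S + T).IsHermitian := hST.1
  set U : Matrix K K ℂ := (hM.eigenvectorUnitary : Matrix K K ℂ) with hU
  have hUmem : U ∈ Matrix.unitaryGroup K ℂ := tree_unitary_mem hM
  have hdiag : Uᴴ * (S + T) * U = Matrix.diagonal (fun i => (hM.eigenvalues i : ℂ)) :=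
    tree_conj_diag hM
  set x : K → ℝ := fun j => ((Uᴴ * S * U) j j).re with hx
  set y : K → ℝ := fun j => ((Uᴴ * T * U) j j).re with hy
  have hx0 : ∀ j, 0 ≤ x j := fun j => by
    have := (hS.conjTranspose_mul_mul_same U).diag_nonneg (i := j)
    exact (Complex.le_def.mp this).1
  have hy0 : ∀ j, 0 ≤ y j := fun j => by
    have := (hT.conjTranspose_mul_mul_same U).diag_nonneg (i := j)
    exact (Complex.le_def.mp this).1
  have hxy : ∀ j, hM.eigenvalues j = x j + y j := fun j => by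
    have h1 : (Uᴴ * (S + T) * U) j j = (hM.eigenvalues j : ℂ) := by
      rw [hdiag]; simp
    have h2 : Uᴴ * (S + T) * U = Uᴴ * S * U + Uᴴ * T * U := by
      rw [Matrix.mul_add, Matrix.add_mul]
    rw [h2] at h1
    have h3 := congrArg Complex.re h1
    simp only [Matrix.add_apply, Complex.add_re, Complex.ofReal_re] at h3
    exact h3.symm
  have hdet : det (1 + S + T) = ∏ i, ((1 + hM.eigenvalues i : ℝ) : ℂ) := by
    have := det_shift_eq_prod hM 1
    simpa [add_assoc] using this
  have hre : (det (1 + S + T)).re = ∏ i, (1 + x i + y i) := by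
    rw [hdet, ← Complex.ofReal_prod, Complex.ofReal_re]
    refine Finset.prod_congr rfl fun i _ => ?_
    rw [hxy i]; ring
  have hpos : ∀ i ∈ (Finset.univ : Finset K), 1 + x i + y i ≠ 0 := fun i _ => by
    have := hx0 i; have := hy0 i; positivity
  rw [hre, Real.log_prod hpos]
  have h1 := trFun_le_sum_diag hf hS hUmem
  have h2 := trFun_le_sum_diag hh hT hUmem
  have h3 : ∑ j, (f (x j) + h (y j)) ≤ ∑ j, Real.log (1 + x j + y j) :=
    Finset.sum_le_sum fun j _ => hfen _ _ (hx0 j) (hy0 j)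
  rw [Finset.sum_add_distrib] at h3
  linarith


lemma treeSigma_posSemidef (A C : Matrix E K ℂ) {Q W : Matrix E E ℂ} (hQ : Q.PosSemidef)
    (hW : W.PosSemidef) : (treeSigma A C Q W).PosSemidef := by
  let V : Matrix (E ⊕ E) K ℂ := fromRows A C
  let L1 : Matrix E (E ⊕ E) ℂ := fromCols 1 0
  let L2 : Matrix E (E ⊕ E) ℂ := fromCols 0 1
  have h : treeSigma A C Q W = V * Vᴴ + L1ᴴ * Q * L1 + L2ᴴ * W * L2 := by
    ext (i | i) (j | j) <;>
      simp [treeSigma, V, L1, L2, Matrix.mul_apply, Matrix.fromCols,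
        Matrix.conjTranspose_apply, Finset.sum_ite_eq, Matrix.one_apply,
        Matrix.fromRows_apply_inl, Matrix.fromRows_apply_inr]
  rw [h]
  exact ((posSemidef_self_mul_conjTranspose V).add (hQ.conjTranspose_mul_mul_same L1)).add
    (hW.conjTranspose_mul_mul_same L2)

/-- Scalar facts on `ρ₁, ρ₂`. -/
lemma rho_sum (x y z w : ℝ) : rho1 x y z w + rho2 x y z w = x + y + z + w := by
  unfold rho1 rho2; ring

lemma rho_prod {x y z w : ℝ} (hx : 0 < x) (hz : 0 < z) :
    rho1 x y z w * rho2 x y z w = x * w + y * z + y * w := by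
  unfold rho1 rho2 rhoDisc
  have h : 0 ≤ (x + y - z - w) ^ 2 + 4 * x * z := by positivity
  have hs := Real.mul_self_sqrt h
  nlinarith [hs]

lemma rho2_pos {x y z w : ℝ} (hx : 0 < x) (hy : 0 < y) (hz : 0 < z) (hw : 0 < w) :
    0 < rho2 x y z w := by
  unfold rho2
  have : 0 ≤ rhoDisc x y z w := Real.sqrt_nonneg _
  linarith

lemma rho1_pos {x y z w : ℝ} (hx : 0 < x) (hy : 0 < y) (hz : 0 < z) (hw : 0 < w) :
    0 < rho1 x y z w := by
  have h := rho_prod (y := y) (w := w) hx hz
  have h2 := rho2_pos hx hy hz hw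
  have h3 : 0 < rho1 x y z w * rho2 x y z w := by rw [h]; positivity
  exact (pos_iff_pos_of_mul_pos h3).mpr h2

lemma scalarM_isHermitian (x y z w : ℝ) : (scalarM x y z w).IsHermitian := by
  ext s t
  cases s <;> cases t <;> simp [scalarM, Matrix.conjTranspose_apply]

lemma scalarM_rtr (x y z w : ℝ) : rtr (scalarM x y z w) = x + y + z + w := by
  simp [rtr, Matrix.trace, scalarM, Fintype.sum_bool]
  ring

lemma scalarM_det {x y z w : ℝ} (hx : 0 ≤ x) (hz : 0 ≤ z) :
    det (scalarM x y z w) = ((x * w + y * z + y * w : ℝ) : ℂ) := by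
  have h := Matrix.det_submatrix_equiv_self finTwoEquiv (scalarM x y z w)
  rw [← h, Matrix.det_fin_two]
  have hs : ((Real.sqrt (x * z) : ℝ) : ℂ) * ((Real.sqrt (x * z) : ℝ) : ℂ) = ((x * z : ℝ) : ℂ) := by
    rw [← Complex.ofReal_mul, Real.mul_self_sqrt (by positivity)]
  have h0 : (finTwoEquiv 0 : Bool) = false := rfl
  have h1 : (finTwoEquiv 1 : Bool) = true := rfl
  simp only [Matrix.submatrix_apply, scalarM, Matrix.of_apply, h0, h1]
  rw [hs]
  push_cast
  ring

/-- The eigenvalues of the scalar model. -/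
lemma scalarM_eigenvalues {x y z w : ℝ} (hx : 0 < x) (hz : 0 < z) {f : ℝ → ℝ} :
    trFun f (scalarM x y z w) = f (rho1 x y z w) + f (rho2 x y z w) := by
  have hH := scalarM_isHermitian x y z w
  rw [trFun_of_isHermitian f hH, Fintype.sum_bool]
  have hsum : hH.eigenvalues true + hH.eigenvalues false = x + y + z + w := by
    have := rtr_eq_sum_eigenvalues hH
    rw [scalarM_rtr, Fintype.sum_bool] at this
    exact this.symm
  have hprod : hH.eigenvalues true * hH.eigenvalues false = x * w + y * z + y * w := by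
    have h := det_shift_eq_prod hH 0
    rw [Fintype.prod_bool] at h
    simp only [Complex.ofReal_zero, zero_smul, zero_add] at h
    rw [scalarM_det hx.le hz.le] at h
    have h2 := congrArg Complex.re h
    simp only [Complex.ofReal_re, Complex.mul_re, Complex.ofReal_im, mul_zero, sub_zero] at h2
    exact h2.symm
  have hr := rho_sum x y z w
  have hp := rho_prod (y := y) (w := w) hx hz
  set a := hH.eigenvalues true
  set b := hH.eigenvalues false
  set r1 := rho1 x y z w
  set r2 := rho2 x y z w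
  have hq : (a - r1) * (a - r2) = 0 := by
    have : (a - r1) * (a - r2) = a * a - a * (r1 + r2) + r1 * r2 := by ring
    rw [this, hr, hp, ← hsum, ← hprod]
    ring
  rcases mul_eq_zero.mp hq with h | h
  · have ha : a = r1 := by linarith
    have hb : b = r2 := by linarith
    rw [ha, hb]
  · have ha : a = r2 := by linarith
    have hb : b = r1 := by linarith
    rw [ha, hb]; ring


lemma tree_rtr (A C : Matrix E K ℂ) (Q W : Matrix E E ℂ) :
    rtr (treeSigma A C Q W) = rtr (A * Aᴴ) + rtr Q + rtr (C * Cᴴ) + rtr W := by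
  have h : (treeSigma A C Q W).trace = (A * Aᴴ + Q).trace + (C * Cᴴ + W).trace := by
    simp [treeSigma, Matrix.trace, Fintype.sum_sum_type]
  simp only [rtr, h, Matrix.trace_add, Complex.add_re]
  ring

/-- Taking the logarithm of the determinant identity. -/
lemma tree_log_identity (A C : Matrix E K ℂ) {Q W : Matrix E E ℂ} (hQ : Q.PosSemidef)
    (hW : W.PosSemidef) (hσ : (treeSigma A C Q W).PosSemidef) {μ : ℝ} (hμ : 0 < μ) :
    ∑ i, Real.log (μ + hσ.1.eigenvalues i) =
      ∑ j, Real.log (μ + hQ.1.eigenvalues j) + ∑ j, Real.log (μ + hW.1.eigenvalues j) +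
        Real.log (det (1 + sand A Q μ + sand C W μ)).re := by
  have hdet := det_treeSigma A C hQ hW hμ
  rw [det_shift_eq_prod hσ.1, det_shift_eq_prod hQ.1, det_shift_eq_prod hW.1,
    ← Complex.ofReal_prod, ← Complex.ofReal_prod, ← Complex.ofReal_prod] at hdet
  set z := det (1 + sand A Q μ + sand C W μ) with hz
  have p1 : ∀ i, 0 < μ + hσ.1.eigenvalues i := fun i => by
    have := hσ.eigenvalues_nonneg i; linarith
  have p2 : ∀ i, 0 < μ + hQ.1.eigenvalues i := fun i => by
    have := hQ.eigenvalues_nonneg i; linarith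
  have p3 : ∀ i, 0 < μ + hW.1.eigenvalues i := fun i => by
    have := hW.eigenvalues_nonneg i; linarith
  have d1 : 0 < ∏ i, (μ + hσ.1.eigenvalues i) := Finset.prod_pos fun i _ => p1 i
  have d2 : 0 < ∏ i, (μ + hQ.1.eigenvalues i) := Finset.prod_pos fun i _ => p2 i
  have d3 : 0 < ∏ i, (μ + hW.1.eigenvalues i) := Finset.prod_pos fun i _ => p3 i
  have hre : ∏ i, (μ + hσ.1.eigenvalues i) =
      (∏ i, (μ + hQ.1.eigenvalues i)) * (∏ i, (μ + hW.1.eigenvalues i)) * z.re := by
    have h2 := congrArg Complex.re hdet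
    rw [Complex.ofReal_re, ← Complex.ofReal_mul, Complex.re_ofReal_mul] at h2
    exact h2
  have hzpos : 0 < z.re := by
    by_contra hneg
    rw [not_lt] at hneg
    have : (∏ i, (μ + hQ.1.eigenvalues i)) * (∏ i, (μ + hW.1.eigenvalues i)) * z.re ≤ 0 :=
      mul_nonpos_of_nonneg_of_nonpos (by positivity) hneg
    linarith
  have hlog := congrArg Real.log hre
  rw [Real.log_mul (by positivity) hzpos.ne', Real.log_mul d2.ne' d3.ne',
    Real.log_prod (fun i _ => (p1 i).ne'), Real.log_prod (fun i _ => (p2 i).ne'),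
    Real.log_prod (fun i _ => (p3 i).ne')] at hlog
  exact hlog

/-- The scalar model: `log (1 + X + Y)` in terms of `ρ₁, ρ₂`. -/
lemma tree_scalar_log {x y z w μ : ℝ} (hx : 0 < x) (hy : 0 < y) (hz : 0 < z) (hw : 0 < w)
    (hμ : 0 < μ) :
    Real.log (1 + x / (μ + y) + z / (μ + w)) =
      Real.log (μ + rho1 x y z w) + Real.log (μ + rho2 x y z w) - Real.log (μ + y) -
        Real.log (μ + w) := by
  have h1 := rho1_pos hx hy hz hw
  have h2 := rho2_pos hx hy hz hw
  have hs := rho_sum x y z w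
  have hp := rho_prod (y := y) (w := w) hx hz
  have key : (μ + rho1 x y z w) * (μ + rho2 x y z w) =
      (μ + y) * (μ + w) * (1 + x / (μ + y) + z / (μ + w)) := by
    have e1 : (μ + rho1 x y z w) * (μ + rho2 x y z w) =
        μ * μ + μ * (rho1 x y z w + rho2 x y z w) + rho1 x y z w * rho2 x y z w := by ring
    rw [e1, hs, hp]
    field_simp
    ring
  have hlog := congrArg Real.log key
  have hpos : 0 < 1 + x / (μ + y) + z / (μ + w) := by positivity
  rw [Real.log_mul (by positivity) (by positivity), Real.log_mul (by positivity) hpos.ne',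
    Real.log_mul (by positivity) (by positivity)] at hlog
  linarith

/-- The inequality at one value of `μ`. -/
lemma tree_pointwise (A C : Matrix E K ℂ) {Q W : Matrix E E ℂ} (hQ : Q.PosSemidef)
    (hW : W.PosSemidef) (hσ : (treeSigma A C Q W).PosSemidef) {x y z w : ℝ} (hx : 0 < x)
    (hy : 0 < y) (hz : 0 < z) (hw : 0 < w) {μ : ℝ} (hμ : 0 < μ) :
    (trFun (alpha x y z w) (sand A Q μ) - alpha x y z w (x / (μ + y))) +
        (trFun (alpha z w x y) (sand C W μ) - alpha z w x y (z / (μ + w))) ≤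
      ∑ i, Real.log (μ + hσ.1.eigenvalues i) - ∑ j, Real.log (μ + hQ.1.eigenvalues j)
        - ∑ j, Real.log (μ + hW.1.eigenvalues j) - Real.log (μ + rho1 x y z w)
        - Real.log (μ + rho2 x y z w) + Real.log (μ + y) + Real.log (μ + w) := by
  have h1 := logdet_ge_of_fenchel (alpha_concave hx hy hz hw) (alpha_concave hz hw hx hy)
    (fun a b ha hb => alpha_fenchel hx hy hz hw ha hb) (sand_posSemidef A hQ hμ)
    (sand_posSemidef C hW hμ)
  have h2 := tree_log_identity A C hQ hW hσ hμ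
  have h3 := alpha_tight hx hy hz hw (ν := μ) hμ
  have h4 := tree_scalar_log hx hy hz hw hμ
  linarith

/-- the grid sums of logarithms in terms of `θ_K`. -/
noncomputable def treePsi (K : ℕ) (t : ℝ) : ℝ :=
  ∑ k ∈ Finset.Icc 1 (K ^ 2), (1 / (K : ℝ)) * Real.log ((k : ℝ) * (1 / K) + t)

lemma treePsi_eq {K : ℕ} (hK : 0 < K) {t : ℝ} (ht : 0 ≤ t) :
    treePsi K t = theta K t + treePsi K 0 := by
  unfold treePsi theta
  rw [← Finset.sum_add_distrib]
  refine Finset.sum_congr rfl fun k hk => ?_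
  have hk1 : 0 < k := (Finset.mem_Icc.mp hk).1
  have hK' : (0 : ℝ) < K := by positivity
  have hk' : (0 : ℝ) < k := by positivity
  have e : (k : ℝ) * (1 / K) + t = (k : ℝ) * (1 / K) * (1 + t * K / k) := by
    field_simp
  have hpos : 0 < 1 + t * (K : ℝ) / k := by positivity
  rw [e, Real.log_mul (by positivity) hpos.ne', add_zero, mul_add]
  ring

/-- Sum of the pointwise inequality over the grid. -/
lemma tree_grid {ι : Type*} [Fintype ι] (S : Finset ℕ) (c : ℝ) (a : ι → ℕ → ℝ) :
    ∑ k ∈ S, c * ∑ i, a i k = ∑ i, ∑ k ∈ S, c * a i k := by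
  simp_rw [Finset.mul_sum]
  exact Finset.sum_comm

/-- The finite-`K` inequality. -/
lemma tree_finite (A C : Matrix E K ℂ) {Q W : Matrix E E ℂ} (hQ : Q.PosSemidef)
    (hW : W.PosSemidef) (hσ : (treeSigma A C Q W).PosSemidef) {x y z w : ℝ} (hx : 0 < x)
    (hy : 0 < y) (hz : 0 < z) (hw : 0 < w) {N : ℕ} (hN : 0 < N)
    (hsσ : ∑ i, hσ.1.eigenvalues i = x + y + z + w)
    (hsQ : ∑ i, hQ.1.eigenvalues i = y) (hsW : ∑ i, hW.1.eigenvalues i = w) :
    ∑ k ∈ Finset.Icc 1 (N ^ 2), (1 / (N : ℝ)) *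
        ((trFun (alpha x y z w) (sand A Q ((k : ℝ) * (1 / N))) -
            alpha x y z w (x / ((k : ℝ) * (1 / N) + y))) +
          (trFun (alpha z w x y) (sand C W ((k : ℝ) * (1 / N))) -
            alpha z w x y (z / ((k : ℝ) * (1 / N) + w)))) ≤
      ∑ i, (theta N (hσ.1.eigenvalues i) - hσ.1.eigenvalues i * (Real.log N + 1))
        - ∑ j, (theta N (hQ.1.eigenvalues j) - hQ.1.eigenvalues j * (Real.log N + 1))
        - ∑ j, (theta N (hW.1.eigenvalues j) - hW.1.eigenvalues j * (Real.log N + 1))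
        - (theta N (rho1 x y z w) - rho1 x y z w * (Real.log N + 1))
        - (theta N (rho2 x y z w) - rho2 x y z w * (Real.log N + 1))
        + (theta N y - y * (Real.log N + 1)) + (theta N w - w * (Real.log N + 1)) := by
  have hN' : (0 : ℝ) < N := by positivity
  have hstep : ∀ k ∈ Finset.Icc 1 (N ^ 2), (1 / (N : ℝ)) *
        ((trFun (alpha x y z w) (sand A Q ((k : ℝ) * (1 / N))) -
            alpha x y z w (x / ((k : ℝ) * (1 / N) + y))) +
          (trFun (alpha z w x y) (sand C W ((k : ℝ) * (1 / N))) -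
            alpha z w x y (z / ((k : ℝ) * (1 / N) + w)))) ≤
      (1 / (N : ℝ)) * (∑ i, Real.log ((k : ℝ) * (1 / N) + hσ.1.eigenvalues i)
        - ∑ j, Real.log ((k : ℝ) * (1 / N) + hQ.1.eigenvalues j)
        - ∑ j, Real.log ((k : ℝ) * (1 / N) + hW.1.eigenvalues j)
        - Real.log ((k : ℝ) * (1 / N) + rho1 x y z w)
        - Real.log ((k : ℝ) * (1 / N) + rho2 x y z w)
        + Real.log ((k : ℝ) * (1 / N) + y) + Real.log ((k : ℝ) * (1 / N) + w)) := by
    intro k hk
    have hk1 : 0 < k := (Finset.mem_Icc.mp hk).1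
    have hμ : 0 < (k : ℝ) * (1 / N) := by positivity
    exact mul_le_mul_of_nonneg_left (tree_pointwise A C hQ hW hσ hx hy hz hw hμ) (by positivity)
  refine (Finset.sum_le_sum hstep).trans (le_of_eq ?_)
  have hexp : ∑ k ∈ Finset.Icc 1 (N ^ 2), (1 / (N : ℝ)) *
      (∑ i, Real.log ((k : ℝ) * (1 / N) + hσ.1.eigenvalues i)
        - ∑ j, Real.log ((k : ℝ) * (1 / N) + hQ.1.eigenvalues j)
        - ∑ j, Real.log ((k : ℝ) * (1 / N) + hW.1.eigenvalues j)
        - Real.log ((k : ℝ) * (1 / N) + rho1 x y z w)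
        - Real.log ((k : ℝ) * (1 / N) + rho2 x y z w)
        + Real.log ((k : ℝ) * (1 / N) + y) + Real.log ((k : ℝ) * (1 / N) + w)) =
      ∑ i, treePsi N (hσ.1.eigenvalues i) - ∑ j, treePsi N (hQ.1.eigenvalues j)
        - ∑ j, treePsi N (hW.1.eigenvalues j) - treePsi N (rho1 x y z w)
        - treePsi N (rho2 x y z w) + treePsi N y + treePsi N w := by
    unfold treePsi
    simp only [mul_add, mul_sub, Finset.sum_add_distrib, Finset.sum_sub_distrib]
    rw [tree_grid, tree_grid, tree_grid]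
  rw [hexp]
  have e1 : ∑ i, treePsi N (hσ.1.eigenvalues i) =
      ∑ i, (theta N (hσ.1.eigenvalues i) - hσ.1.eigenvalues i * (Real.log N + 1)) +
        (x + y + z + w) * (Real.log N + 1) +
        ((Fintype.card E : ℝ) + (Fintype.card E : ℝ)) * treePsi N 0 := by
    have : ∀ i, treePsi N (hσ.1.eigenvalues i) =
        (theta N (hσ.1.eigenvalues i) - hσ.1.eigenvalues i * (Real.log N + 1)) +
          hσ.1.eigenvalues i * (Real.log N + 1) + treePsi N 0 := fun i => by
      rw [treePsi_eq hN (hσ.eigenvalues_nonneg i)]; ring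
    simp_rw [this]
    rw [Finset.sum_add_distrib, Finset.sum_add_distrib, ← Finset.sum_mul, hsσ]
    simp [Finset.card_univ, Fintype.card_sum]
  have e2 : ∑ i, treePsi N (hQ.1.eigenvalues i) =
      ∑ i, (theta N (hQ.1.eigenvalues i) - hQ.1.eigenvalues i * (Real.log N + 1)) +
        y * (Real.log N + 1) + (Fintype.card E : ℝ) * treePsi N 0 := by
    have : ∀ i, treePsi N (hQ.1.eigenvalues i) =
        (theta N (hQ.1.eigenvalues i) - hQ.1.eigenvalues i * (Real.log N + 1)) +
          hQ.1.eigenvalues i * (Real.log N + 1) + treePsi N 0 := fun i => by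
      rw [treePsi_eq hN (hQ.eigenvalues_nonneg i)]; ring
    simp_rw [this]
    rw [Finset.sum_add_distrib, Finset.sum_add_distrib, ← Finset.sum_mul, hsQ]
    simp [Finset.card_univ]
  have e3 : ∑ i, treePsi N (hW.1.eigenvalues i) =
      ∑ i, (theta N (hW.1.eigenvalues i) - hW.1.eigenvalues i * (Real.log N + 1)) +
        w * (Real.log N + 1) + (Fintype.card E : ℝ) * treePsi N 0 := by
    have : ∀ i, treePsi N (hW.1.eigenvalues i) =
        (theta N (hW.1.eigenvalues i) - hW.1.eigenvalues i * (Real.log N + 1)) +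
          hW.1.eigenvalues i * (Real.log N + 1) + treePsi N 0 := fun i => by
      rw [treePsi_eq hN (hW.eigenvalues_nonneg i)]; ring
    simp_rw [this]
    rw [Finset.sum_add_distrib, Finset.sum_add_distrib, ← Finset.sum_mul, hsW]
    simp [Finset.card_univ]
  have e4 := treePsi_eq hN (rho1_pos hx hy hz hw).le
  have e5 := treePsi_eq hN (rho2_pos hx hy hz hw).le
  have e6 := treePsi_eq hN hy.le
  have e7 := treePsi_eq hN hw.le
  have hs := rho_sum x y z w
  rw [e1, e2, e3, e4, e5, e6, e7]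
  have hL : (rho1 x y z w + rho2 x y z w) * (Real.log N + 1) =
      (x + y + z + w) * (Real.log N + 1) := by rw [hs]
  linear_combination (-1 : ℝ) * hL

/-- The Tree Theorem. -/
theorem tree_theorem (A C : Matrix E K ℂ) {Q W : Matrix E E ℂ} (hQ : Q.PosSemidef)
    (hW : W.PosSemidef) (hA : 0 < rtr (A * Aᴴ)) (hB : 0 < rtr Q) (hC : 0 < rtr (C * Cᴴ))
    (hD : 0 < rtr W) :
    Ent (A * Aᴴ) + Ent Q + Ent (C * Cᴴ) + Ent W ≤
      vnEntropy (treeSigma A C Q W) -
        vnEntropy (scalarM (rtr (A * Aᴴ)) (rtr Q) (rtr (C * Cᴴ)) (rtr W)) := by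
  set x := rtr (A * Aᴴ) with hxdef
  set y := rtr Q with hydef
  set z := rtr (C * Cᴴ) with hzdef
  set w := rtr W with hwdef
  have hσ : (treeSigma A C Q W).PosSemidef := treeSigma_posSemidef A C hQ hW
  have hsσ : ∑ i, hσ.1.eigenvalues i = x + y + z + w := by
    rw [← rtr_eq_sum_eigenvalues hσ.1, tree_rtr]
  have hsQ : ∑ i, hQ.1.eigenvalues i = y := (rtr_eq_sum_eigenvalues hQ.1).symm
  have hsW : ∑ i, hW.1.eigenvalues i = w := (rtr_eq_sum_eigenvalues hW.1).symm
  obtain ⟨κ₁, hκ₁, hl₁⟩ := alpha_layer hA hB hC hD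
  obtain ⟨κ₂, hκ₂, hl₂⟩ := alpha_layer hC hD hA hB
  let n : ℝ := (Fintype.card E : ℝ)
  -- the lower bounds from the row lemma
  let R : ℕ → ℝ := fun N =>
    ((1 - κ₁ * (x / (N : ℝ))) * Ent (A * Aᴴ) - n * (y + 1 / N) * (x / (N : ℝ))
        - n * (1 / N) * alpha x y z w (x / y)) +
      ((1 - κ₂ * (z / (N : ℝ))) * Ent (C * Cᴴ) - n * (w + 1 / N) * (z / (N : ℝ))
        - n * (1 / N) * alpha z w x y (z / w))
  let B : ℕ → ℝ := fun N =>
    ∑ i, (theta N (hσ.1.eigenvalues i) - hσ.1.eigenvalues i * (Real.log N + 1))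
        - ∑ j, (theta N (hQ.1.eigenvalues j) - hQ.1.eigenvalues j * (Real.log N + 1))
        - ∑ j, (theta N (hW.1.eigenvalues j) - hW.1.eigenvalues j * (Real.log N + 1))
        - (theta N (rho1 x y z w) - rho1 x y z w * (Real.log N + 1))
        - (theta N (rho2 x y z w) - rho2 x y z w * (Real.log N + 1))
        + (theta N y - y * (Real.log N + 1)) + (theta N w - w * (Real.log N + 1))
  have hinv : Filter.Tendsto (fun N : ℕ => 1 / (N : ℝ)) Filter.atTop (nhds 0) :=
    tendsto_one_div_atTop_nhds_zero_nat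
  have hdiv : ∀ a : ℝ, Filter.Tendsto (fun N : ℕ => a / (N : ℝ)) Filter.atTop (nhds 0) := fun a =>
    tendsto_const_div_atTop_nhds_zero_nat a
  have hRlim : Filter.Tendsto R Filter.atTop (nhds (Ent (A * Aᴴ) + Ent (C * Cᴴ))) := by
    have t1 : Filter.Tendsto (fun N : ℕ => (1 - κ₁ * (x / (N : ℝ))) * Ent (A * Aᴴ) -
        n * (y + 1 / N) * (x / (N : ℝ)) - n * (1 / N) * alpha x y z w (x / y)) Filter.atTop
        (nhds ((1 - κ₁ * 0) * Ent (A * Aᴴ) - n * (y + 0) * 0 - n * 0 * alpha x y z w (x / y))) :=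
      (((tendsto_const_nhds.sub ((hdiv x).const_mul κ₁)).mul_const _).sub
        (((hinv.const_add y).const_mul n).mul (hdiv x))).sub ((hinv.const_mul n).mul_const _)
    have t2 : Filter.Tendsto (fun N : ℕ => (1 - κ₂ * (z / (N : ℝ))) * Ent (C * Cᴴ) -
        n * (w + 1 / N) * (z / (N : ℝ)) - n * (1 / N) * alpha z w x y (z / w)) Filter.atTop
        (nhds ((1 - κ₂ * 0) * Ent (C * Cᴴ) - n * (w + 0) * 0 - n * 0 * alpha z w x y (z / w))) :=
      (((tendsto_const_nhds.sub ((hdiv z).const_mul κ₂)).mul_const _).sub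
        (((hinv.const_add w).const_mul n).mul (hdiv z))).sub ((hinv.const_mul n).mul_const _)
    have t3 := t1.add t2
    convert t3 using 2
    ring
  have hBlim : Filter.Tendsto B Filter.atTop
      (nhds (∑ i, Real.negMulLog (hσ.1.eigenvalues i) - ∑ j, Real.negMulLog (hQ.1.eigenvalues j)
        - ∑ j, Real.negMulLog (hW.1.eigenvalues j) - Real.negMulLog (rho1 x y z w)
        - Real.negMulLog (rho2 x y z w) + Real.negMulLog y + Real.negMulLog w)) := by
    refine ((((((tendsto_finsetSum _ fun i _ => theta_tendsto (hσ.eigenvalues_nonneg i)).sub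
      (tendsto_finsetSum _ fun i _ => theta_tendsto (hQ.eigenvalues_nonneg i))).sub
      (tendsto_finsetSum _ fun i _ => theta_tendsto (hW.eigenvalues_nonneg i))).sub
      (theta_tendsto (rho1_pos hA hB hC hD).le)).sub
      (theta_tendsto (rho2_pos hA hB hC hD).le)).add (theta_tendsto hB.le)).add
      (theta_tendsto hD.le)
  have hle : ∀ᶠ N : ℕ in Filter.atTop, R N ≤ B N := by
    have hNtop : Filter.Tendsto (fun N : ℕ => (N : ℝ)) Filter.atTop Filter.atTop :=
      tendsto_natCast_atTop_atTop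
    filter_upwards [Filter.eventually_gt_atTop 0, hNtop.eventually_gt_atTop y,
      hNtop.eventually_gt_atTop w] with N hN hNy hNw
    have hN' : (0 : ℝ) < N := by positivity
    have hMN : ((N ^ 2 : ℕ) : ℝ) * (1 / (N : ℝ)) = N := by
      push_cast; field_simp
    have hδ : (0 : ℝ) < 1 / N := by positivity
    have hK₀ : 0 < N ^ 2 := by positivity
    have r1 := row_lemma A hQ hA hl₁ hκ₁ hδ hK₀ (by
      rw [hMN]
      exact div_lt_div_of_pos_left hA hB hNy)
    have r2 := row_lemma C hW hC hl₂ hκ₂ hδ hK₀ (by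
      rw [hMN]
      exact div_lt_div_of_pos_left hC hD hNw)
    rw [hMN] at r1 r2
    have hfin := tree_finite A C hQ hW hσ hA hB hC hD hN hsσ hsQ hsW
    refine le_trans (add_le_add r1 r2) (le_trans (le_of_eq ?_) hfin)
    rw [← Finset.sum_add_distrib]
    refine Finset.sum_congr rfl fun k _ => ?_
    ring
  have hlim := le_of_tendsto_of_tendsto hRlim hBlim hle
  -- unfolding
  have eσ : vnEntropy (treeSigma A C Q W) = ∑ i, Real.negMulLog (hσ.1.eigenvalues i) := by
    rw [vnEntropy_eq_trFun, trFun_of_isHermitian _ hσ.1]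
  have eQ : Ent Q = ∑ j, Real.negMulLog (hQ.1.eigenvalues j) - Real.negMulLog y := by
    unfold Ent
    rw [vnEntropy_eq_trFun, trFun_of_isHermitian _ hQ.1]
  have eW : Ent W = ∑ j, Real.negMulLog (hW.1.eigenvalues j) - Real.negMulLog w := by
    unfold Ent
    rw [vnEntropy_eq_trFun, trFun_of_isHermitian _ hW.1]
  have em : vnEntropy (scalarM x y z w) =
      Real.negMulLog (rho1 x y z w) + Real.negMulLog (rho2 x y z w) := by
    rw [vnEntropy_eq_trFun, scalarM_eigenvalues hA hC]
  rw [eσ, eQ, eW, em]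
  linarith

end Crest.Agent.S0534Lib
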