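/-
S0534 library: the Key Lemma for the GADC (package P7).
-/
import Crest.Agent.S0534Lib.Tree

set_option autoImplicit false

namespace Crest.Agent.S0534Lib

open Matrix Crest.Quantum Crest.MathPhysics.AmpDamp
open scoped ComplexOrder

set_option linter.unusedSectionVars false
set_option linter.unusedSimpArgs false

variable {E : Type*} [Fintype E] [DecidableEq E]

/-- Entries of `gadId`, block form. -/
theorem gadId_apply (γ ν : ℝ) (Ω : Matrix (Bool × E) (Bool × E) ℂ) (p q : Bool × E) :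
    gadId γ ν Ω p q =
      if p.1 = false ∧ q.1 = false then
        ((1 - γ * ν : ℝ) : ℂ) * Ω (false, p.2) (false, q.2) +
          ((γ * (1 - ν) : ℝ) : ℂ) * Ω (true, p.2) (true, q.2)
      else if p.1 = true ∧ q.1 = true then
        ((γ * ν : ℝ) : ℂ) * Ω (false, p.2) (false, q.2) +
          ((1 - γ + γ * ν : ℝ) : ℂ) * Ω (true, p.2) (true, q.2)
      else ((Real.sqrt (1 - γ) : ℝ) : ℂ) * Ω (p.1, p.2) (q.1, q.2) := by
  rcases p with ⟨s, i⟩
  rcases q with ⟨t, j⟩
  cases s <;> cases t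
  · simp [gadId, qubitTensor, qubitCoeff, gadMap, block, Matrix.single]
    ring
  · simp [gadId, qubitTensor, qubitCoeff, gadMap, block, Matrix.single]
  · simp [gadId, qubitTensor, qubitCoeff, gadMap, block, Matrix.single]
  · simp [gadId, qubitTensor, qubitCoeff, gadMap, block, Matrix.single]
    ring

section helpers

variable {n : Type*} [Fintype n] [DecidableEq n]

lemma psd_factor {M : Matrix n n ℂ} (hM : M.PosSemidef) : ∃ V : Matrix n n ℂ, M = V * Vᴴ := by
  open scoped MatrixOrder Matrix.Norms.L2Operator in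
  obtain ⟨B, rfl⟩ := CStarAlgebra.nonneg_iff_eq_star_mul_self.mp hM.nonneg
  exact ⟨Bᴴ, by simp [star_eq_conjTranspose]⟩

lemma psd_rsmul {c : ℝ} (hc : 0 ≤ c) {X : Matrix n n ℂ} (hX : X.PosSemidef) :
    ((c : ℂ) • X).PosSemidef :=
  hX.smul (by exact_mod_cast hc)

lemma rtr_rsmul (c : ℝ) (X : Matrix n n ℂ) : rtr ((c : ℂ) • X) = c * rtr X := by
  simp [rtr, Matrix.trace_smul]

lemma rtr_add' (X Y : Matrix n n ℂ) : rtr (X + Y) = rtr X + rtr Y := by
  simp [rtr, Matrix.trace_add]

lemma rtr_nonneg' {X : Matrix n n ℂ} (hX : X.PosSemidef) : 0 ≤ rtr X := by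
  have := hX.trace_nonneg
  exact (Complex.le_def.1 this).1

lemma smul_mul_conj {K : Type*} [Fintype K] (r : ℝ) (V : Matrix n K ℂ) :
    ((r : ℂ) • V) * ((r : ℂ) • V)ᴴ = ((r ^ 2 : ℝ) : ℂ) • (V * Vᴴ) := by
  rw [conjTranspose_smul, Matrix.smul_mul, Matrix.mul_smul, smul_smul]
  congr 1
  simp [sq]

end helpers

/-- row `s` of a `Bool × E` by `K` matrix. -/
def rowOf {K : Type*} (V : Matrix (Bool × E) K ℂ) (s : Bool) : Matrix E K ℂ :=
  Matrix.of fun i k => V (s, i) k

lemma block_mul_conj {K : Type*} [Fintype K] (V : Matrix (Bool × E) K ℂ) (s t : Bool) :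
    block (V * Vᴴ) s t = rowOf V s * (rowOf V t)ᴴ := by
  ext i j
  simp [block, rowOf, Matrix.mul_apply]

lemma gadId_isHermitian (γ ν : ℝ) {Ω : Matrix (Bool × E) (Bool × E) ℂ} (hΩ : Ω.IsHermitian) :
    (gadId γ ν Ω).IsHermitian := by
  refine Matrix.IsHermitian.ext ?_
  rintro ⟨s, i⟩ ⟨t, j⟩
  rw [gadId_apply, gadId_apply]
  have h : ∀ p q, star (Ω q p) = Ω p q := fun p q => hΩ.apply p q
  cases s <;> cases t <;> simp [h]

lemma gadMap_pureM_isHermitian (γ ν x y : ℝ) : (gadMap γ ν (pureM x y)).IsHermitian := by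
  refine Matrix.IsHermitian.ext ?_
  intro s t
  cases s <;> cases t <;> simp [gadMap, pureM]

lemma gadMap_pureM_ff (γ ν x y : ℝ) : gadMap γ ν (pureM x y) false false =
    (((1 - γ * ν) * x + (γ * (1 - ν)) * y : ℝ) : ℂ) := by
  simp [gadMap, pureM]

lemma gadMap_pureM_tt (γ ν x y : ℝ) : gadMap γ ν (pureM x y) true true =
    (((γ * ν) * x + (1 - γ + γ * ν) * y : ℝ) : ℂ) := by
  simp [gadMap, pureM]

lemma gadMap_pureM_ft (γ ν x y : ℝ) : gadMap γ ν (pureM x y) false true =
    ((Real.sqrt (1 - γ) * Real.sqrt (x * y) : ℝ) : ℂ) := by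
  simp [gadMap, pureM]

lemma gadMap_pureM_tf (γ ν x y : ℝ) : gadMap γ ν (pureM x y) true false =
    ((Real.sqrt (1 - γ) * Real.sqrt (x * y) : ℝ) : ℂ) := by
  simp [gadMap, pureM]

/-- KL in the interior. -/
theorem kl_interior {γ ν : ℝ} (hγ0 : 0 < γ) (hγ1 : γ < 1) (hν0 : 0 < ν) (hν1 : ν < 1)
    {Ω : Matrix (Bool × E) (Bool × E) ℂ} (hΩ : Ω.PosSemidef)
    (hx : 0 < rtr (block Ω false false)) (hy : 0 < rtr (block Ω true true)) :
    vnEntropy (gadMap γ ν (pureM (rtr (block Ω false false)) (rtr (block Ω true true)))) +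
        Ent (block Ω false false) + Ent (block Ω true true) ≤ vnEntropy (gadId γ ν Ω) := by
  obtain ⟨V, rfl⟩ := psd_factor hΩ
  set V₀ := rowOf V false with hV₀
  set V₁ := rowOf V true with hV₁
  have hP : block (V * Vᴴ) false false = V₀ * V₀ᴴ := block_mul_conj V false false
  have hQ : block (V * Vᴴ) true true = V₁ * V₁ᴴ := block_mul_conj V true true
  have hPQ : block (V * Vᴴ) false true = V₀ * V₁ᴴ := block_mul_conj V false true
  have hQP : block (V * Vᴴ) true false = V₁ * V₀ᴴ := block_mul_conj V true false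
  set P := V₀ * V₀ᴴ with hPdef
  set Q := V₁ * V₁ᴴ with hQdef
  rw [hP] at hx ⊢
  rw [hQ] at hy ⊢
  set x := rtr P with hxdef
  set y := rtr Q with hydef
  have hPpsd : P.PosSemidef := posSemidef_self_mul_conjTranspose V₀
  have hQpsd : Q.PosSemidef := posSemidef_self_mul_conjTranspose V₁
  -- the parameters
  set a : ℝ := 1 - γ * ν with ha
  set b : ℝ := γ * (1 - ν) with hb
  set c : ℝ := γ * ν with hc
  set d : ℝ := 1 - γ + γ * ν with hd
  set t : ℝ := Real.sqrt (1 - γ) with ht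
  have hγν : γ * ν < 1 := by nlinarith
  have ha0 : 0 < a := by rw [ha]; linarith
  have hb0 : 0 < b := mul_pos hγ0 (by linarith)
  have hc0 : 0 < c := mul_pos hγ0 hν0
  have hd0 : 0 < d := by rw [hd]; nlinarith
  have ht0 : 0 < t := Real.sqrt_pos.2 (by linarith)
  have ht2 : t ^ 2 = 1 - γ := Real.sq_sqrt (by linarith)
  have hac : a + c = 1 := by rw [ha, hc]; ring
  have hbd : b + d = 1 := by rw [hb, hd]; ring
  have hdiag : t ^ 2 / a + b * c / a = d := by
    rw [ht2]; field_simp; rw [ha, hb, hc, hd]; ring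
  set sa : ℝ := Real.sqrt a with hsa
  have hsa0 : 0 < sa := Real.sqrt_pos.2 ha0
  have hsa2 : sa ^ 2 = a := Real.sq_sqrt ha0.le
  set r : ℝ := t / sa with hr
  have hr2 : r ^ 2 = t ^ 2 / a := by rw [hr, div_pow, hsa2]
  have hsar : sa * r = t := by rw [hr]; field_simp
  -- the tree data
  set A' : Matrix E (Bool × E) ℂ := (sa : ℂ) • V₀ with hA'
  set C' : Matrix E (Bool × E) ℂ := (r : ℂ) • V₁ with hC'
  set Q' : Matrix E E ℂ := (b : ℂ) • Q with hQ'
  set W₁ : Matrix E E ℂ := (c : ℂ) • P with hW₁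
  set W₂ : Matrix E E ℂ := ((b * c / a : ℝ) : ℂ) • Q with hW₂
  set W' : Matrix E E ℂ := W₁ + W₂ with hW'
  have hAA : A' * A'ᴴ = (a : ℂ) • P := by
    rw [hA', smul_mul_conj, hsa2]
  have hCC : C' * C'ᴴ = ((t ^ 2 / a : ℝ) : ℂ) • Q := by
    rw [hC', smul_mul_conj, hr2]
  have hAC : A' * C'ᴴ = (t : ℂ) • (V₀ * V₁ᴴ) := by
    rw [hA', hC', conjTranspose_smul, Matrix.smul_mul, Matrix.mul_smul, smul_smul]
    congr 1
    rw [← hsar]
    simp
  have hCA : C' * A'ᴴ = (t : ℂ) • (V₁ * V₀ᴴ) := by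
    rw [hA', hC', conjTranspose_smul, Matrix.smul_mul, Matrix.mul_smul, smul_smul]
    congr 1
    rw [← hsar]
    simp [mul_comm]
  have hW₁psd : W₁.PosSemidef := psd_rsmul hc0.le hPpsd
  have hbca : 0 ≤ b * c / a := by positivity
  have hW₂psd : W₂.PosSemidef := psd_rsmul hbca hQpsd
  have hW'psd : W'.PosSemidef := hW₁psd.add hW₂psd
  have hQ'psd : Q'.PosSemidef := psd_rsmul hb0.le hQpsd
  -- traces
  have trA : rtr (A' * A'ᴴ) = a * x := by rw [hAA, rtr_rsmul]
  have trC : rtr (C' * C'ᴴ) = t ^ 2 / a * y := by rw [hCC, rtr_rsmul]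
  have trQ : rtr Q' = b * y := by rw [hQ', rtr_rsmul]
  have trW : rtr W' = c * x + b * c / a * y := by
    rw [hW', rtr_add', hW₁, hW₂, rtr_rsmul, rtr_rsmul]
  -- the tree theorem
  have htree := tree_theorem A' C' hQ'psd hW'psd
    (by rw [trA]; positivity) (by rw [trQ]; positivity) (by rw [trC]; positivity)
    (by rw [trW]; positivity)
  -- Hermitian
  have hΩH : (V * Vᴴ).IsHermitian := (posSemidef_self_mul_conjTranspose V).1
  -- identification of the big matrix
  have hbig : (gadId γ ν (V * Vᴴ)).submatrix (Equiv.boolProdEquivSum E).symm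
      (Equiv.boolProdEquivSum E).symm = treeSigma A' C' Q' W' := by
    have e00 : ∀ i j, (V * Vᴴ) (false, i) (false, j) = P i j := fun i j => by
      rw [← hP]; rfl
    have e11 : ∀ i j, (V * Vᴴ) (true, i) (true, j) = Q i j := fun i j => by
      rw [← hQ]; rfl
    have e01 : ∀ i j, (V * Vᴴ) (false, i) (true, j) = (V₀ * V₁ᴴ) i j := fun i j => by
      rw [← hPQ]; rfl
    have e10 : ∀ i j, (V * Vᴴ) (true, i) (false, j) = (V₁ * V₀ᴴ) i j := fun i j => by
      rw [← hQP]; rfl
    have hd' : ((t ^ 2 / a : ℝ) : ℂ) + ((b * c / a : ℝ) : ℂ) = (d : ℂ) := by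
      rw [← hdiag]; push_cast; ring
    have g00 : ∀ i j, gadId γ ν (V * Vᴴ) (false, i) (false, j) =
        (a : ℂ) * P i j + (b : ℂ) * Q i j := by
      intro i j
      rw [gadId_apply, if_pos ⟨rfl, rfl⟩, e00, e11]
    have g11 : ∀ i j, gadId γ ν (V * Vᴴ) (true, i) (true, j) =
        (c : ℂ) * P i j + (d : ℂ) * Q i j := by
      intro i j
      rw [gadId_apply, if_neg (by simp), if_pos ⟨rfl, rfl⟩, e00, e11]
    have g01 : ∀ i j, gadId γ ν (V * Vᴴ) (false, i) (true, j) =
        (t : ℂ) * (V₀ * V₁ᴴ) i j := by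
      intro i j
      rw [gadId_apply, if_neg (by simp), if_neg (by simp), e01]
    have g10 : ∀ i j, gadId γ ν (V * Vᴴ) (true, i) (false, j) =
        (t : ℂ) * (V₁ * V₀ᴴ) i j := by
      intro i j
      rw [gadId_apply, if_neg (by simp), if_neg (by simp), e10]
    ext i j
    rcases i with i | i <;> rcases j with j | j
    · change gadId γ ν (V * Vᴴ) (false, i) (false, j) = (A' * A'ᴴ + Q') i j
      rw [g00, hAA, hQ', Matrix.add_apply, Matrix.smul_apply, Matrix.smul_apply, smul_eq_mul,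
        smul_eq_mul]
    · change gadId γ ν (V * Vᴴ) (false, i) (true, j) = (A' * C'ᴴ) i j
      rw [g01, hAC, Matrix.smul_apply, smul_eq_mul]
    · change gadId γ ν (V * Vᴴ) (true, i) (false, j) = (C' * A'ᴴ) i j
      rw [g10, hCA, Matrix.smul_apply, smul_eq_mul]
    · change gadId γ ν (V * Vᴴ) (true, i) (true, j) = (C' * C'ᴴ + W') i j
      rw [g11, hCC, hW', hW₁, hW₂, Matrix.add_apply, Matrix.add_apply, Matrix.smul_apply,
        Matrix.smul_apply, Matrix.smul_apply, smul_eq_mul, smul_eq_mul, smul_eq_mul, ← hd']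
      ring
  have hvn : vnEntropy (treeSigma A' C' Q' W') = vnEntropy (gadId γ ν (V * Vᴴ)) := by
    rw [← hbig]
    exact vnEntropy_submatrix _ (gadId_isHermitian γ ν hΩH)
  -- identification of the scalar matrix
  have hscalar : scalarM (rtr (A' * A'ᴴ)) (rtr Q') (rtr (C' * C'ᴴ)) (rtr W') =
      gadMap γ ν (pureM x y) := by
    rw [trA, trC, trQ, trW]
    have hprod : a * x * (t ^ 2 / a * y) = t ^ 2 * (x * y) := by field_simp
    have hsqrt : Real.sqrt (a * x * (t ^ 2 / a * y)) = t * Real.sqrt (x * y) := by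
      rw [hprod, Real.sqrt_mul (sq_nonneg t), Real.sqrt_sq ht0.le]
    have hdiag' : t ^ 2 / a * y + (c * x + b * c / a * y) = c * x + d * y := by
      rw [← hdiag]; ring
    ext s s'
    cases s <;> cases s'
    · change ((a * x + b * y : ℝ) : ℂ) = gadMap γ ν (pureM x y) false false
      rw [gadMap_pureM_ff]
    · change ((Real.sqrt (a * x * (t ^ 2 / a * y)) : ℝ) : ℂ) = gadMap γ ν (pureM x y) false true
      rw [gadMap_pureM_ft, hsqrt]
    · change ((Real.sqrt (a * x * (t ^ 2 / a * y)) : ℝ) : ℂ) = gadMap γ ν (pureM x y) true false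
      rw [gadMap_pureM_tf, hsqrt]
    · change ((t ^ 2 / a * y + (c * x + b * c / a * y) : ℝ) : ℂ) =
        gadMap γ ν (pureM x y) true true
      rw [gadMap_pureM_tt, hdiag']
  rw [hvn, hscalar] at htree
  -- the Ent computation
  have eA : Ent (A' * A'ᴴ) = a * Ent P := by rw [hAA]; exact Ent_smul ha0.le hPpsd
  have eQ : Ent Q' = b * Ent Q := Ent_smul hb0.le hQpsd
  have eC : Ent (C' * C'ᴴ) = t ^ 2 / a * Ent Q := by
    rw [hCC]; exact Ent_smul (by positivity) hQpsd
  have eW : c * Ent P + b * c / a * Ent Q ≤ Ent W' := by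
    have h := Ent_add_ge hW₁psd hW₂psd
    rwa [hW₁, hW₂, Ent_smul hc0.le hPpsd, Ent_smul hbca hQpsd] at h
  have hsum : Ent P + Ent Q =
      a * Ent P + b * Ent Q + t ^ 2 / a * Ent Q + (c * Ent P + b * c / a * Ent Q) := by
    have h1 : a * Ent P + c * Ent P = Ent P := by rw [← add_mul, hac, one_mul]
    have h2 : b * Ent Q + (t ^ 2 / a * Ent Q + b * c / a * Ent Q) = Ent Q := by
      rw [← add_mul, hdiag, ← add_mul, hbd, one_mul]
    linarith
  rw [eA, eQ, eC] at htree
  linarith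

section limits

open Filter Topology

variable {n : Type*} [Fintype n] [DecidableEq n]

lemma continuous_rtr' : Continuous (rtr : Matrix n n ℂ → ℝ) :=
  Complex.continuous_re.comp (Continuous.matrix_trace continuous_id)

lemma tendsto_vn {M : ℕ → Matrix n n ℂ} {M₀ : Matrix n n ℂ} (hM : ∀ k, (M k).IsHermitian)
    (hM₀ : M₀.IsHermitian) (h : Tendsto M atTop (𝓝 M₀)) :
    Tendsto (fun k => vnEntropy (M k)) atTop (𝓝 (vnEntropy M₀)) := by
  simp_rw [vnEntropy_eq_trFun]
  exact tendsto_trFun Real.continuous_negMulLog hM hM₀ h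

lemma tendsto_Ent {M : ℕ → Matrix n n ℂ} {M₀ : Matrix n n ℂ} (hM : ∀ k, (M k).IsHermitian)
    (hM₀ : M₀.IsHermitian) (h : Tendsto M atTop (𝓝 M₀)) :
    Tendsto (fun k => Ent (M k)) atTop (𝓝 (Ent M₀)) := by
  unfold Ent
  exact (tendsto_vn hM hM₀ h).sub
    (((Real.continuous_negMulLog.comp continuous_rtr').tendsto M₀).comp h)

lemma continuous_gadId :
    Continuous fun p : ℝ × ℝ × Matrix (Bool × E) (Bool × E) ℂ => gadId p.1 p.2.1 p.2.2 := by
  refine continuous_matrix fun u v => ?_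
  simp only [gadId_apply]
  have hent : ∀ u v, Continuous fun p : ℝ × ℝ × Matrix (Bool × E) (Bool × E) ℂ => p.2.2 u v :=
    fun u v => (continuous_snd.comp continuous_snd).matrix_elem u v
  have hof : ∀ f : ℝ × ℝ × Matrix (Bool × E) (Bool × E) ℂ → ℝ, Continuous f →
      Continuous fun p => ((f p : ℝ) : ℂ) := fun f hf => Complex.continuous_ofReal.comp hf
  have h1 : Continuous fun p : ℝ × ℝ × Matrix (Bool × E) (Bool × E) ℂ => p.1 := continuous_fst
  have h2 : Continuous fun p : ℝ × ℝ × Matrix (Bool × E) (Bool × E) ℂ => p.2.1 :=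
    continuous_fst.comp continuous_snd
  rcases u with ⟨s, i⟩
  rcases v with ⟨t, j⟩
  cases s <;> cases t <;> simp only [Bool.false_eq_true, and_self, and_false, false_and, and_true,
    true_and, if_true, if_false, reduceIte]
  · exact ((hof _ (continuous_const.sub (h1.mul h2))).mul (hent _ _)).add
      ((hof _ (h1.mul (continuous_const.sub h2))).mul (hent _ _))
  · exact (hof _ (Real.continuous_sqrt.comp (continuous_const.sub h1))).mul (hent _ _)
  · exact (hof _ (Real.continuous_sqrt.comp (continuous_const.sub h1))).mul (hent _ _)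
  · exact ((hof _ (h1.mul h2)).mul (hent _ _)).add
      ((hof _ ((continuous_const.sub h1).add (h1.mul h2))).mul (hent _ _))

lemma continuous_gadMap_pureM :
    Continuous fun p : ℝ × ℝ × ℝ × ℝ => gadMap p.1 p.2.1 (pureM p.2.2.1 p.2.2.2) := by
  refine continuous_matrix fun u v => ?_
  have hof : ∀ f : ℝ × ℝ × ℝ × ℝ → ℝ, Continuous f →
      Continuous fun p => ((f p : ℝ) : ℂ) := fun f hf => Complex.continuous_ofReal.comp hf
  have h1 : Continuous fun p : ℝ × ℝ × ℝ × ℝ => p.1 := continuous_fst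
  have h2 : Continuous fun p : ℝ × ℝ × ℝ × ℝ => p.2.1 := continuous_fst.comp continuous_snd
  have h3 : Continuous fun p : ℝ × ℝ × ℝ × ℝ => p.2.2.1 :=
    continuous_fst.comp (continuous_snd.comp continuous_snd)
  have h4 : Continuous fun p : ℝ × ℝ × ℝ × ℝ => p.2.2.2 :=
    continuous_snd.comp (continuous_snd.comp continuous_snd)
  cases u <;> cases v
  · simp only [gadMap_pureM_ff]
    exact hof _ (((continuous_const.sub (h1.mul h2)).mul h3).add
      ((h1.mul (continuous_const.sub h2)).mul h4))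
  · simp only [gadMap_pureM_ft]
    exact hof _ ((Real.continuous_sqrt.comp (continuous_const.sub h1)).mul
      (Real.continuous_sqrt.comp (h3.mul h4)))
  · simp only [gadMap_pureM_tf]
    exact hof _ ((Real.continuous_sqrt.comp (continuous_const.sub h1)).mul
      (Real.continuous_sqrt.comp (h3.mul h4)))
  · simp only [gadMap_pureM_tt]
    exact hof _ (((h1.mul h2).mul h3).add
      (((continuous_const.sub h1).add (h1.mul h2)).mul h4))

lemma continuous_block (s : Bool) :
    Continuous fun M : Matrix (Bool × E) (Bool × E) ℂ => block M s s :=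
  continuous_matrix fun i j => continuous_id.matrix_elem (s, i) (s, j)

lemma kl_limit {γ ν : ℝ} {Ω : Matrix (Bool × E) (Bool × E) ℂ}
    {γk νk : ℕ → ℝ} {Ωk : ℕ → Matrix (Bool × E) (Bool × E) ℂ}
    (hΩk : ∀ k, (Ωk k).PosSemidef) (hΩ : Ω.PosSemidef)
    (hγl : Tendsto γk atTop (𝓝 γ)) (hνl : Tendsto νk atTop (𝓝 ν)) (hΩl : Tendsto Ωk atTop (𝓝 Ω))
    (hkey : ∀ k, vnEntropy (gadMap (γk k) (νk k)
        (pureM (rtr (block (Ωk k) false false)) (rtr (block (Ωk k) true true)))) +
        Ent (block (Ωk k) false false) + Ent (block (Ωk k) true true) ≤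
          vnEntropy (gadId (γk k) (νk k) (Ωk k))) :
    vnEntropy (gadMap γ ν (pureM (rtr (block Ω false false)) (rtr (block Ω true true)))) +
        Ent (block Ω false false) + Ent (block Ω true true) ≤ vnEntropy (gadId γ ν Ω) := by
  have hblocklim : ∀ s, Tendsto (fun k => block (Ωk k) s s) atTop (𝓝 (block Ω s s)) :=
    fun s => ((continuous_block s).tendsto Ω).comp hΩl
  have hrtrlim : ∀ s, Tendsto (fun k => rtr (block (Ωk k) s s)) atTop
      (𝓝 (rtr (block Ω s s))) := fun s => (continuous_rtr'.tendsto _).comp (hblocklim s)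
  refine le_of_tendsto_of_tendsto' (b := atTop) ?_ ?_ hkey
  · refine Tendsto.add (Tendsto.add ?_ ?_) ?_
    · refine tendsto_vn (fun k => gadMap_pureM_isHermitian _ _ _ _)
        (gadMap_pureM_isHermitian _ _ _ _) ?_
      have h := (continuous_gadMap_pureM.tendsto
        (γ, ν, rtr (block Ω false false), rtr (block Ω true true))).comp
        (hγl.prodMk_nhds (hνl.prodMk_nhds ((hrtrlim false).prodMk_nhds (hrtrlim true))))
      exact h
    · exact tendsto_Ent (fun k => (block_posSemidef (hΩk k) false).1)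
        (block_posSemidef hΩ false).1 (hblocklim false)
    · exact tendsto_Ent (fun k => (block_posSemidef (hΩk k) true).1)
        (block_posSemidef hΩ true).1 (hblocklim true)
  · refine tendsto_vn (fun k => gadId_isHermitian _ _ (hΩk k).1) (gadId_isHermitian _ _ hΩ.1) ?_
    have h := (continuous_gadId.tendsto (γ, ν, Ω)).comp
      (hγl.prodMk_nhds (hνl.prodMk_nhds hΩl))
    exact h

end limits

/-- KL for all parameters (continuity). -/
theorem kl_all [Nonempty E] {γ ν : ℝ} (hγ : γ ∈ Set.Icc (0 : ℝ) 1) (hν : ν ∈ Set.Icc (0 : ℝ) 1)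
    {Ω : Matrix (Bool × E) (Bool × E) ℂ} (hΩ : Ω.PosSemidef) :
    vnEntropy (gadMap γ ν (pureM (rtr (block Ω false false)) (rtr (block Ω true true)))) +
        Ent (block Ω false false) + Ent (block Ω true true) ≤ vnEntropy (gadId γ ν Ω) := by
  classical
  set ε : ℕ → ℝ := fun k => 1 / ((k : ℝ) + 1) with hε
  have hε0 : ∀ k, 0 < ε k := fun k => by rw [hε]; positivity
  have hε1 : ∀ k, ε k ≤ 1 := fun k => by
    rw [hε]
    simp only
    rw [div_le_one (by positivity)]
    have : (0 : ℝ) ≤ k := Nat.cast_nonneg k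
    linarith
  have hεlim : Filter.Tendsto ε Filter.atTop (nhds 0) :=
    tendsto_one_div_add_atTop_nhds_zero_nat
  set g : ℝ → ℕ → ℝ := fun z k => (1 - ε k) * z + ε k / 2 with hg
  have hg0 : ∀ z, z ∈ Set.Icc (0 : ℝ) 1 → ∀ k, 0 < g z k := by
    intro z hz k
    have h1 := hε0 k
    have h2 := hε1 k
    have h3 : 0 ≤ (1 - ε k) * z := mul_nonneg (by linarith) hz.1
    simp only [hg]
    linarith
  have hg1 : ∀ z, z ∈ Set.Icc (0 : ℝ) 1 → ∀ k, g z k < 1 := by
    intro z hz k
    have h1 := hε0 k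
    have h2 := hε1 k
    have h3 : (1 - ε k) * z ≤ (1 - ε k) * 1 := mul_le_mul_of_nonneg_left hz.2 (by linarith)
    simp only [hg]
    linarith
  have hglim : ∀ z, Filter.Tendsto (g z) Filter.atTop (nhds z) := by
    intro z
    have h : Filter.Tendsto (fun k => (1 - ε k) * z + ε k / 2) Filter.atTop
        (nhds ((1 - 0) * z + 0 / 2)) :=
      ((tendsto_const_nhds.sub hεlim).mul tendsto_const_nhds).add (hεlim.div_const 2)
    simpa using h
  set Ωk : ℕ → Matrix (Bool × E) (Bool × E) ℂ := fun k => Ω + ((ε k : ℝ) : ℂ) • 1 with hΩkdef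
  have hΩk : ∀ k, (Ωk k).PosSemidef := fun k => hΩ.add (psd_rsmul (hε0 k).le PosSemidef.one)
  have hΩklim : Filter.Tendsto Ωk Filter.atTop (nhds Ω) := by
    have h1 : Filter.Tendsto (fun k => ((ε k : ℝ) : ℂ)) Filter.atTop (nhds ((0 : ℝ) : ℂ)) :=
      (Complex.continuous_ofReal.tendsto 0).comp hεlim
    have h2 : Filter.Tendsto (fun k => ((ε k : ℝ) : ℂ) • (1 : Matrix (Bool × E) (Bool × E) ℂ))
        Filter.atTop (nhds (((0 : ℝ) : ℂ) • (1 : Matrix (Bool × E) (Bool × E) ℂ))) :=
      h1.smul_const _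
    have h3 := (tendsto_const_nhds (x := Ω)).add h2
    simpa [hΩkdef] using h3
  have hblock : ∀ k s, block (Ωk k) s s = block Ω s s + ((ε k : ℝ) : ℂ) • 1 := by
    intro k s
    ext i j
    by_cases hij : i = j
    · subst hij; simp [block, hΩkdef, Matrix.one_apply]
    · simp [block, hΩkdef, Matrix.one_apply, hij]
  have hpos : ∀ k s, 0 < rtr (block (Ωk k) s s) := by
    intro k s
    rw [hblock, rtr_add', rtr_rsmul]
    have h1 := rtr_nonneg' (block_posSemidef hΩ s)
    have h2 : 0 < rtr (1 : Matrix E E ℂ) := by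
      simp [rtr, Matrix.trace_one, Fintype.card_pos]
    have h3 := mul_pos (hε0 k) h2
    linarith
  have hkey := fun k => kl_interior (hg0 γ hγ k) (hg1 γ hγ k) (hg0 ν hν k) (hg1 ν hν k) (hΩk k)
    (hpos k false) (hpos k true)
  exact kl_limit hΩk hΩ (hglim γ) (hglim ν) hΩklim hkey

end Crest.Agent.S0534Lib
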