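/-
S0534 library (package P8a): convexity of the Wootters function and of `gFun`.
-/
import Crest.Agent.S0534Lib.Basic

set_option autoImplicit false

namespace Crest.Agent.S0534Lib

open Real Set

/-- `artanh r`, written with logarithms. -/
noncomputable def artH (r : ℝ) : ℝ := (log (1 + r) - log (1 - r)) / 2

lemma artH_ge {r : ℝ} (h0 : 0 ≤ r) (h1 : r < 1) : r ≤ artH r := by
  have habs : |r| < 1 := by rwa [abs_of_nonneg h0]
  have hs := hasSum_log_sub_log_of_abs_lt_one habs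
  have hle := le_hasSum hs 0 (fun k _ => by positivity)
  simp only [artH]
  norm_num at hle
  linarith

/-- The derivative of the Wootters function, as a function of `r = √(1 - C²)`. -/
noncomputable def slopeF (r : ℝ) : ℝ := sqrt (1 - r ^ 2) / r * artH r

lemma one_sub_sq_pos {r : ℝ} (h0 : 0 < r) (h1 : r < 1) : 0 < 1 - r ^ 2 := by nlinarith

lemma hasDerivAt_artH {r : ℝ} (h0 : 0 < r) (h1 : r < 1) :
    HasDerivAt artH ((1 / (1 + r) + 1 / (1 - r)) / 2) r := by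
  have h2 : HasDerivAt (fun x : ℝ => log (1 + x)) (1 / (1 + r)) r := by
    have := ((hasDerivAt_id r).const_add 1).log (by simp; linarith : (1 : ℝ) + id r ≠ 0)
    simpa using this
  have h3 : HasDerivAt (fun x : ℝ => log (1 - x)) (-1 / (1 - r)) r := by
    have := ((hasDerivAt_id r).const_sub 1).log (by simp; linarith : (1 : ℝ) - id r ≠ 0)
    simpa using this
  have := (h2.sub h3).div_const 2
  refine HasDerivAt.congr_deriv this ?_
  simp only [neg_div, sub_neg_eq_add]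

lemma hasDerivAt_sqrt_one_sub_sq {r : ℝ} (h0 : 0 < r) (h1 : r < 1) :
    HasDerivAt (fun x : ℝ => sqrt (1 - x ^ 2)) (-r / sqrt (1 - r ^ 2)) r := by
  have hp := one_sub_sq_pos h0 h1
  have h : HasDerivAt (fun x : ℝ => 1 - x ^ 2) (-(2 * r)) r := by
    have := ((hasDerivAt_id r).pow 2).const_sub 1
    simpa using this
  have := h.sqrt hp.ne'
  convert this using 1
  have hs : sqrt (1 - r ^ 2) ≠ 0 := (Real.sqrt_pos.mpr hp).ne'
  field_simp

lemma hasDerivAt_slopeF {r : ℝ} (h0 : 0 < r) (h1 : r < 1) :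
    HasDerivAt slopeF ((r - artH r) / (r ^ 2 * sqrt (1 - r ^ 2))) r := by
  have hp := one_sub_sq_pos h0 h1
  have hs : 0 < sqrt (1 - r ^ 2) := Real.sqrt_pos.mpr hp
  have hss : sqrt (1 - r ^ 2) ^ 2 = 1 - r ^ 2 := Real.sq_sqrt hp.le
  have h1r : (1 - r) ≠ 0 := by linarith
  have h1r' : (1 + r) ≠ 0 := by linarith
  have := ((hasDerivAt_sqrt_one_sub_sq h0 h1).div (hasDerivAt_id r) h0.ne').mul
    (hasDerivAt_artH h0 h1)
  refine HasDerivAt.congr_deriv this ?_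
  simp only [Pi.div_apply, id]
  set s := sqrt (1 - r ^ 2) with hsdef
  have hsne : s ≠ 0 := hs.ne'
  have e1 : (1 / (1 + r) + 1 / (1 - r)) / 2 = 1 / s ^ 2 := by
    rw [hss]
    have : 1 - r ^ 2 = (1 - r) * (1 + r) := by ring
    rw [this]
    field_simp
    ring
  rw [e1]
  have e2 : 1 = r ^ 2 + s ^ 2 := by rw [hss]; ring
  field_simp
  rw [show -r ^ 2 - s ^ 2 = -1 by linarith]
  ring

lemma slopeF_antitoneOn : AntitoneOn slopeF (Ioo 0 1) := by
  have hd : ∀ x ∈ Ioo (0 : ℝ) 1, HasDerivAt slopeF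
      ((x - artH x) / (x ^ 2 * sqrt (1 - x ^ 2))) x := fun x hx => hasDerivAt_slopeF hx.1 hx.2
  refine antitoneOn_of_deriv_nonpos (convex_Ioo 0 1) ?_ ?_ ?_
  · exact fun x hx => (hd x hx).continuousAt.continuousWithinAt
  · rw [interior_Ioo]
    exact fun x hx => (hd x hx).differentiableAt.differentiableWithinAt
  · rw [interior_Ioo]
    intro x hx
    rw [(hd x hx).deriv]
    have hs : 0 < sqrt (1 - x ^ 2) := Real.sqrt_pos.mpr (one_sub_sq_pos hx.1 hx.2)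
    have := artH_ge hx.1.le hx.2
    apply div_nonpos_of_nonpos_of_nonneg (by linarith)
    have := hx.1
    positivity

lemma slopeF_nonneg {r : ℝ} (h0 : 0 < r) (h1 : r < 1) : 0 ≤ slopeF r := by
  unfold slopeF
  have := artH_ge h0.le h1
  have : 0 ≤ artH r := by linarith
  positivity

/-- The Wootters function. -/
noncomputable def wootW (C : ℝ) : ℝ := binEntropy ((1 + sqrt (1 - C ^ 2)) / 2)

lemma hasDerivAt_wootW {C : ℝ} (h0 : 0 < C) (h1 : C < 1) :
    HasDerivAt wootW (slopeF (sqrt (1 - C ^ 2))) C := by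
  have hp := one_sub_sq_pos h0 h1
  set r := sqrt (1 - C ^ 2) with hr
  have hs : 0 < r := Real.sqrt_pos.mpr hp
  have hss : r ^ 2 = 1 - C ^ 2 := Real.sq_sqrt hp.le
  have hrlt : r < 1 := by nlinarith
  have hx : HasDerivAt (fun x : ℝ => (1 + sqrt (1 - x ^ 2)) / 2) (-C / r / 2) C :=
    ((hasDerivAt_sqrt_one_sub_sq h0 h1).const_add 1).div_const 2
  have hb : HasDerivAt binEntropy (log (1 - (1 + r) / 2) - log ((1 + r) / 2)) ((1 + r) / 2) :=
    hasDerivAt_binEntropy (by intro h; linarith) (by intro h; linarith)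
  have := hb.comp C hx
  refine HasDerivAt.congr_deriv this ?_
  have e1 : 1 - (1 + r) / 2 = (1 - r) / 2 := by ring
  have hCsq : sqrt (1 - r ^ 2) = C := by
    have : 1 - r ^ 2 = C ^ 2 := by rw [hss]; ring
    rw [this, Real.sqrt_sq h0.le]
  unfold slopeF artH
  rw [hCsq, e1, Real.log_div (by linarith) (by norm_num), Real.log_div (by linarith) (by norm_num)]
  field_simp
  ring

lemma wootW_continuous : Continuous wootW := by
  unfold wootW
  exact binEntropy_continuous.comp (by fun_prop)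

lemma sqrt_one_sub_sq_mem {C : ℝ} (h0 : 0 < C) (h1 : C < 1) :
    sqrt (1 - C ^ 2) ∈ Ioo (0 : ℝ) 1 := by
  have hp := one_sub_sq_pos h0 h1
  have hs : 0 < sqrt (1 - C ^ 2) := Real.sqrt_pos.mpr hp
  refine ⟨hs, ?_⟩
  have hss : sqrt (1 - C ^ 2) ^ 2 = 1 - C ^ 2 := Real.sq_sqrt hp.le
  nlinarith

theorem wootW_convexOn : ConvexOn ℝ (Icc 0 1) wootW := by
  refine MonotoneOn.convexOn_of_deriv (convex_Icc 0 1) wootW_continuous.continuousOn ?_ ?_
  · rw [interior_Icc]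
    exact fun x hx => (hasDerivAt_wootW hx.1 hx.2).differentiableAt.differentiableWithinAt
  · rw [interior_Icc]
    intro x hx y hy hxy
    rw [(hasDerivAt_wootW hx.1 hx.2).deriv, (hasDerivAt_wootW hy.1 hy.2).deriv]
    refine slopeF_antitoneOn (sqrt_one_sub_sq_mem hy.1 hy.2) (sqrt_one_sub_sq_mem hx.1 hx.2) ?_
    exact Real.sqrt_le_sqrt (by nlinarith [hx.1])

theorem wootW_monotoneOn : MonotoneOn wootW (Icc 0 1) := by
  refine monotoneOn_of_deriv_nonneg (convex_Icc 0 1) wootW_continuous.continuousOn ?_ ?_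
  · rw [interior_Icc]
    exact fun x hx => (hasDerivAt_wootW hx.1 hx.2).differentiableAt.differentiableWithinAt
  · rw [interior_Icc]
    intro x hx
    rw [(hasDerivAt_wootW hx.1 hx.2).deriv]
    have := sqrt_one_sub_sq_mem hx.1 hx.2
    exact slopeF_nonneg this.1 this.2

/-- `√(a + b x²)` is convex. -/
lemma sqrt_quad_convex {a b : ℝ} (ha : 0 ≤ a) (hb : 0 ≤ b) (ν x y s t : ℝ) (hs : 0 ≤ s) (ht : 0 ≤ t)
    (hst : s + t = 1) :
    sqrt (a + b * (s * x + t * y - ν) ^ 2) ≤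
      s * sqrt (a + b * (x - ν) ^ 2) + t * sqrt (a + b * (y - ν) ^ 2) := by
  set u := x - ν with hu
  set v := y - ν with hv
  have e : s * x + t * y - ν = s * u + t * v := by
    have : ν = (s + t) * ν := by rw [hst, one_mul]
    rw [hu, hv]; nlinarith
  rw [e]
  have hA : 0 ≤ a + b * u ^ 2 := by positivity
  have hB : 0 ≤ a + b * v ^ 2 := by positivity
  set A := sqrt (a + b * u ^ 2) with hAd
  set B := sqrt (a + b * v ^ 2) with hBd
  have hA2 : A ^ 2 = a + b * u ^ 2 := Real.sq_sqrt hA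
  have hB2 : B ^ 2 = a + b * v ^ 2 := Real.sq_sqrt hB
  have hA0 : 0 ≤ A := Real.sqrt_nonneg _
  have hB0 : 0 ≤ B := Real.sqrt_nonneg _
  have hCS : a + b * (u * v) ≤ A * B := by
    by_cases hn : a + b * (u * v) ≤ 0
    · exact hn.trans (by positivity)
    · have hn := not_le.mp hn
      have : (a + b * (u * v)) ^ 2 ≤ (A * B) ^ 2 := by
        rw [mul_pow, hA2, hB2]
        nlinarith [mul_nonneg (mul_nonneg ha hb) (sq_nonneg (u - v))]
      exact (abs_le_of_sq_le_sq' this (by positivity)).2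
  apply Real.sqrt_le_iff.mpr
  refine ⟨by positivity, ?_⟩
  have hs2 : t = 1 - s := by linarith
  have hexp : (s * A + t * B) ^ 2 = s ^ 2 * A ^ 2 + t ^ 2 * B ^ 2 + 2 * (s * t) * (A * B) := by ring
  rw [hexp, hA2, hB2]
  have hst0 : 0 ≤ s * t := mul_nonneg hs ht
  have key := mul_le_mul_of_nonneg_left hCS (by positivity : 0 ≤ 2 * (s * t))
  have ea : a = (s + t) ^ 2 * a := by rw [hst]; ring
  nlinarith [key, ea]

/-- The quantity `v(p)` lies in the right range. -/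
lemma four_v_le_one {γ ν p : ℝ} (hγ : γ ∈ Icc (0 : ℝ) 1) (hν : ν ∈ Icc (0 : ℝ) 1)
    (hp : p ∈ Icc (0 : ℝ) 1) :
    4 * (γ * ν * (1 - ν) + γ * (1 - γ) * (p - ν) ^ 2) ≤ 1 := by
  obtain ⟨g0, g1⟩ := hγ
  obtain ⟨n0, n1⟩ := hν
  obtain ⟨p0, p1⟩ := hp
  have hb : 0 ≤ γ * (1 - γ) := mul_nonneg g0 (by linarith)
  -- `(p-ν)²` is maximal at an endpoint
  have hq : (p - ν) ^ 2 ≤ (1 - p) * ν ^ 2 + p * (1 - ν) ^ 2 := by nlinarith [mul_nonneg p0 (sub_nonneg.mpr p1)]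
  have h1 : 4 * (γ * ν) * (1 - γ * ν) ≤ 1 := by nlinarith [sq_nonneg (2 * (γ * ν) - 1)]
  have h2 : 4 * (γ * (1 - ν)) * (1 - γ * (1 - ν)) ≤ 1 := by nlinarith [sq_nonneg (2 * (γ * (1 - ν)) - 1)]
  have e : γ * ν * (1 - ν) + γ * (1 - γ) * ((1 - p) * ν ^ 2 + p * (1 - ν) ^ 2)
      = (1 - p) * ((γ * ν) * (1 - γ * ν)) + p * ((γ * (1 - ν)) * (1 - γ * (1 - ν))) := by ring
  have h3 : γ * (1 - γ) * (p - ν) ^ 2 ≤ γ * (1 - γ) * ((1 - p) * ν ^ 2 + p * (1 - ν) ^ 2) :=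
    mul_le_mul_of_nonneg_left hq hb
  have h4 : (1 - p) * (4 * (γ * ν) * (1 - γ * ν)) ≤ (1 - p) * 1 :=
    mul_le_mul_of_nonneg_left h1 (by linarith)
  have h5 : p * (4 * (γ * (1 - ν)) * (1 - γ * (1 - ν))) ≤ p * 1 :=
    mul_le_mul_of_nonneg_left h2 p0
  nlinarith [e, h3, h4, h5]

/-- The Wootters function is convex; hence `gFun` is convex in `p` on `[0,1]`. -/
theorem gFun_convexOn_aux {γ ν : ℝ} (hγ : γ ∈ Icc (0 : ℝ) 1) (hν : ν ∈ Icc (0 : ℝ) 1) :
    ConvexOn ℝ (Icc (0 : ℝ) 1) (gFun γ ν) := by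
  have ha : 0 ≤ γ * ν * (1 - ν) :=
    mul_nonneg (mul_nonneg hγ.1 hν.1) (by linarith [hν.2])
  have hb : 0 ≤ γ * (1 - γ) := mul_nonneg hγ.1 (by linarith [hγ.2])
  -- `C(p) = 2 √ v(p)`
  set Cf : ℝ → ℝ := fun p => 2 * sqrt (γ * ν * (1 - ν) + γ * (1 - γ) * (p - ν) ^ 2) with hCf
  have hC0 : ∀ p, 0 ≤ Cf p := fun p => by simp only [hCf]; positivity
  have hCsq : ∀ p, Cf p ^ 2 = 4 * (γ * ν * (1 - ν) + γ * (1 - γ) * (p - ν) ^ 2) := fun p => by
    simp only [hCf, mul_pow]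
    rw [Real.sq_sqrt (by positivity)]
    norm_num
  have hC1 : ∀ p ∈ Icc (0 : ℝ) 1, Cf p ≤ 1 := fun p hp => by
    have := four_v_le_one hγ hν hp
    rw [← hCsq] at this
    nlinarith [hC0 p]
  have hg : ∀ p, gFun γ ν p = wootW (Cf p) := fun p => by
    unfold gFun wootW
    rw [hCsq]
  refine ⟨convex_Icc 0 1, ?_⟩
  intro x hx y hy s t hs ht hst
  simp only [smul_eq_mul]
  rw [hg, hg, hg]
  have hz : s * x + t * y ∈ Icc (0 : ℝ) 1 := (convex_Icc 0 1) hx hy hs ht hst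
  have hCz : Cf (s * x + t * y) ≤ s * Cf x + t * Cf y := by
    have := sqrt_quad_convex ha hb ν x y s t hs ht hst
    simp only [hCf]
    nlinarith
  have hxm : Cf x ∈ Icc (0 : ℝ) 1 := ⟨hC0 x, hC1 x hx⟩
  have hym : Cf y ∈ Icc (0 : ℝ) 1 := ⟨hC0 y, hC1 y hy⟩
  have hmix : s * Cf x + t * Cf y ∈ Icc (0 : ℝ) 1 := (convex_Icc 0 1) hxm hym hs ht hst
  calc wootW (Cf (s * x + t * y))
      ≤ wootW (s * Cf x + t * Cf y) := wootW_monotoneOn ⟨hC0 _, hC1 _ hz⟩ hmix hCz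
    _ ≤ s * wootW (Cf x) + t * wootW (Cf y) := by
        have := wootW_convexOn.2 hxm hym hs ht hst
        simpa [smul_eq_mul] using this

end Crest.Agent.S0534Lib
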