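/-
S0534 library: qubit facts (package P8): entropy of 2×2 density matrices, the function `gFun`,
its convexity (Wootters), `gadMap` is a channel.
-/
import Crest.Agent.S0534Lib.Spectral
import Crest.Agent.S0534Lib.Wootters

set_option autoImplicit false

namespace Crest.Agent.S0534Lib

open Matrix Crest.Quantum Crest.MathPhysics.AmpDamp
open scoped ComplexOrder

/-- The determinant of a `Bool`-indexed matrix. -/
lemma det_bool (M : Matrix Bool Bool ℂ) :
    M.det = M false false * M true true - M false true * M true false := by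
  have h := Matrix.det_submatrix_equiv_self finTwoEquiv M
  rw [← h, Matrix.det_fin_two]
  simp [finTwoEquiv]

/-- Entropy of a `2 × 2` density matrix in terms of its determinant. -/
theorem vnEntropy_two {M : Matrix Bool Bool ℂ} (hM : M.PosSemidef) (htr : rtr M = 1) :
    vnEntropy M = Real.binEntropy
      ((1 + Real.sqrt (1 - 4 * (M false false * M true true - M false true * M true false).re)) / 2) := by
  have h := hM.1
  have hs : h.eigenvalues true + h.eigenvalues false = 1 := by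
    have := rtr_eq_sum_eigenvalues h
    rw [htr, Fintype.sum_bool] at this
    linarith
  have hd : (M false false * M true true - M false true * M true false).re
      = h.eigenvalues true * h.eigenvalues false := by
    rw [← det_bool, h.det_eq_prod_eigenvalues, Fintype.prod_bool]
    simp [← Complex.ofReal_mul]
  have hS : vnEntropy M = Real.negMulLog (h.eigenvalues false) + Real.negMulLog (h.eigenvalues true) := by
    rw [vnEntropy_eq_trFun, trFun_of_isHermitian _ h, Fintype.sum_bool]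
    ring
  rw [hS, hd]
  set e1 := h.eigenvalues true with he1
  set e0 := h.eigenvalues false with he0
  have hq : 1 - 4 * (e1 * e0) = (e1 - e0) ^ 2 := by
    have : e1 = 1 - e0 := by linarith
    rw [this]; ring
  rw [hq, Real.sqrt_sq_eq_abs]
  have hb : ∀ x : ℝ, Real.binEntropy x = Real.negMulLog x + Real.negMulLog (1 - x) :=
    Real.binEntropy_eq_negMulLog_add_negMulLog_one_sub
  rcases le_total e0 e1 with hle | hle
  · rw [abs_of_nonneg (by linarith)]
    have : (1 + (e1 - e0)) / 2 = e1 := by linarith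
    rw [this, hb]
    have : 1 - e1 = e0 := by linarith
    rw [this]; ring
  · rw [abs_of_nonpos (by linarith)]
    have : (1 + -(e1 - e0)) / 2 = e0 := by linarith
    rw [this, hb]
    have : 1 - e0 = e1 := by linarith
    rw [this]

/-- The Wootters function is convex; hence `gFun` is convex in `p` on `[0,1]`. -/
theorem gFun_convexOn {γ ν : ℝ} (hγ : γ ∈ Set.Icc (0 : ℝ) 1) (hν : ν ∈ Set.Icc (0 : ℝ) 1) :
    ConvexOn ℝ (Set.Icc (0 : ℝ) 1) (gFun γ ν) :=
  gFun_convexOn_aux hγ hν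

/-- Matrices in `Bool` given by their entries. -/
def bmat (a b c d : ℂ) : Matrix Bool Bool ℂ :=
  Matrix.of fun s t => match s, t with
    | false, false => a
    | false, true => b
    | true, false => c
    | true, true => d

@[simp] lemma bmat_ff (a b c d : ℂ) : bmat a b c d false false = a := rfl
@[simp] lemma bmat_ft (a b c d : ℂ) : bmat a b c d false true = b := rfl
@[simp] lemma bmat_tf (a b c d : ℂ) : bmat a b c d true false = c := rfl
@[simp] lemma bmat_tt (a b c d : ℂ) : bmat a b c d true true = d := rfl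

/-- A map with Kraus operators on one qubit is completely positive. -/
lemma isCompletelyPositive_of_kraus {ι : Type*} [Fintype ι] (K : ι → Matrix Bool Bool ℂ)
    (Φ : Matrix Bool Bool ℂ → Matrix Bool Bool ℂ)
    (h : ∀ M, Φ M = ∑ i, K i * M * (K i)ᴴ) : IsCompletelyPositive Φ := by
  intro k M hM
  classical
  let L : ι → Matrix (Fin k × Bool) (Fin k × Bool) ℂ :=
    fun i => Matrix.of fun p u => if p.1 = u.1 then K i p.2 u.2 else 0
  have key : blockwise (k := Fin k) Φ M = ∑ i, L i * M * (L i)ᴴ := by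
    ext p q
    simp only [blockwise, Matrix.of_apply, h, Matrix.sum_apply]
    refine Finset.sum_congr rfl fun i _ => ?_
    simp only [Matrix.mul_apply, Matrix.conjTranspose_apply, L, Matrix.of_apply, block,
      Fintype.sum_prod_type]
    rcases p with ⟨a, s⟩
    rcases q with ⟨b, t⟩
    simp [ite_mul, mul_ite, Finset.sum_ite_eq, apply_ite (star : ℂ → ℂ)]
  rw [key]
  exact Matrix.posSemidef_sum _ fun i _ => hM.mul_mul_conjTranspose_same _


/-- Kraus operators of the generalized amplitude damping channel. -/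
noncomputable def gadKraus (γ ν : ℝ) : Fin 4 → Matrix Bool Bool ℂ :=
  ![bmat (Real.sqrt (1 - ν) : ℝ) 0 0 ((Real.sqrt (1 - ν) * Real.sqrt (1 - γ) : ℝ) : ℂ),
    bmat 0 ((Real.sqrt (1 - ν) * Real.sqrt γ : ℝ) : ℂ) 0 0,
    bmat ((Real.sqrt ν * Real.sqrt (1 - γ) : ℝ) : ℂ) 0 0 (Real.sqrt ν : ℝ),
    bmat 0 0 ((Real.sqrt ν * Real.sqrt γ : ℝ) : ℂ) 0]

lemma gadMap_eq_kraus {γ ν : ℝ} (hγ : γ ∈ Set.Icc (0 : ℝ) 1) (hν : ν ∈ Set.Icc (0 : ℝ) 1)
    (M : Matrix Bool Bool ℂ) :
    gadMap γ ν M = ∑ i, gadKraus γ ν i * M * (gadKraus γ ν i)ᴴ := by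
  obtain ⟨hγ0, hγ1⟩ := hγ
  obtain ⟨hν0, hν1⟩ := hν
  have e1 : ((Real.sqrt (1 - ν) : ℝ) : ℂ) ^ 2 = 1 - (ν : ℂ) := by
    rw [← Complex.ofReal_pow, Real.sq_sqrt (by linarith)]; push_cast; ring
  have e2 : ((Real.sqrt ν : ℝ) : ℂ) ^ 2 = (ν : ℂ) := by
    rw [← Complex.ofReal_pow, Real.sq_sqrt hν0]
  have e3 : ((Real.sqrt γ : ℝ) : ℂ) ^ 2 = (γ : ℂ) := by
    rw [← Complex.ofReal_pow, Real.sq_sqrt hγ0]
  have e4 : ((Real.sqrt (1 - γ) : ℝ) : ℂ) ^ 2 = 1 - (γ : ℂ) := by
    rw [← Complex.ofReal_pow, Real.sq_sqrt (by linarith)]; push_cast; ring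
  ext s t
  rw [Matrix.sum_apply, Fin.sum_univ_four]
  cases s <;> cases t <;>
    simp [gadMap, gadKraus, Matrix.mul_apply, Matrix.conjTranspose_apply]
  · linear_combination (-(M false false) - M true true * ((Real.sqrt γ : ℝ) : ℂ) ^ 2) * e1
      - M false false * ((Real.sqrt (1 - γ) : ℝ) : ℂ) ^ 2 * e2
      - M true true * (1 - (ν : ℂ)) * e3 - M false false * (ν : ℂ) * e4
  · linear_combination (-((Real.sqrt (1 - γ) : ℝ) : ℂ) * M false true) * e1
      - ((Real.sqrt (1 - γ) : ℝ) : ℂ) * M false true * e2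
  · linear_combination (-((Real.sqrt (1 - γ) : ℝ) : ℂ) * M true false) * e1
      - ((Real.sqrt (1 - γ) : ℝ) : ℂ) * M true false * e2
  · linear_combination (-(M true true) * ((Real.sqrt (1 - γ) : ℝ) : ℂ) ^ 2) * e1
      + (-(M false false) * ((Real.sqrt γ : ℝ) : ℂ) ^ 2 - M true true) * e2
      - M false false * (ν : ℂ) * e3 - M true true * (1 - (ν : ℂ)) * e4


theorem gadMap_isChannel {γ ν : ℝ} (hγ : γ ∈ Set.Icc (0 : ℝ) 1) (hν : ν ∈ Set.Icc (0 : ℝ) 1) :
    IsChannel (gadMap γ ν) := by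
  refine ⟨⟨?_, ?_⟩, isCompletelyPositive_of_kraus _ _ (gadMap_eq_kraus hγ hν), ?_⟩
  · intro X Y
    ext s t
    cases s <;> cases t <;> simp [gadMap] <;> ring
  · intro c X
    ext s t
    cases s <;> cases t <;> simp [gadMap] <;> ring
  · intro M
    simp [gadMap, Matrix.trace]
    ring

/-- A general PSD statement for a positive map: `gadMap` preserves positivity. -/
lemma gadMap_posSemidef {γ ν : ℝ} (hγ : γ ∈ Set.Icc (0 : ℝ) 1) (hν : ν ∈ Set.Icc (0 : ℝ) 1)
    {M : Matrix Bool Bool ℂ} (hM : M.PosSemidef) : (gadMap γ ν M).PosSemidef := by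
  rw [gadMap_eq_kraus hγ hν]
  exact Matrix.posSemidef_sum _ fun i _ => hM.mul_mul_conjTranspose_same _

/-- The "pure" matrix with a sign on the off-diagonal. -/
noncomputable def pureS (x y σ : ℝ) : Matrix Bool Bool ℂ :=
  bmat (x : ℂ) ((σ * Real.sqrt (x * y) : ℝ) : ℂ) ((σ * Real.sqrt (x * y) : ℝ) : ℂ) (y : ℂ)

lemma pureM_eq_pureS (x y : ℝ) : pureM x y = pureS x y 1 := by
  ext s t
  cases s <;> cases t <;> simp [pureM, pureS]

lemma pureS_posSemidef {x y σ : ℝ} (hx : 0 ≤ x) (hy : 0 ≤ y) (hσ : σ ^ 2 = 1) :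
    (pureS x y σ).PosSemidef := by
  let v : Bool → ℂ := fun s => if s then ((σ * Real.sqrt y : ℝ) : ℂ) else ((Real.sqrt x : ℝ) : ℂ)
  have hv : pureS x y σ = vecMulVec v (star v) := by
    have e1 : ((Real.sqrt x : ℝ) : ℂ) * ((Real.sqrt x : ℝ) : ℂ) = (x : ℂ) := by
      rw [← Complex.ofReal_mul, Real.mul_self_sqrt hx]
    have e2 : ((σ : ℝ) : ℂ) ^ 2 = 1 := by exact_mod_cast hσ
    have e3 : ((Real.sqrt y : ℝ) : ℂ) * ((Real.sqrt y : ℝ) : ℂ) = (y : ℂ) := by
      rw [← Complex.ofReal_mul, Real.mul_self_sqrt hy]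
    ext s t
    cases s <;> cases t <;> simp [pureS, v, vecMulVec_apply, Real.sqrt_mul hx]
    · exact e1.symm
    · ring
    · ring
    · linear_combination (-(((Real.sqrt y : ℝ) : ℂ) * ((Real.sqrt y : ℝ) : ℂ))) * e2 - e3
  rw [hv]
  exact Matrix.posSemidef_vecMulVec_self_star v

lemma pureS_trace (x y σ : ℝ) : (pureS x y σ).trace = ((x + y : ℝ) : ℂ) := by
  simp [pureS, Matrix.trace]
  ring

/-- A density matrix is `pureM`-dominated: the pure state with the same diagonal is a density. -/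
theorem pureM_isDensity {p : ℝ} (hp : p ∈ Set.Icc (0 : ℝ) 1) : IsDensity (pureM (1 - p) p) := by
  rw [pureM_eq_pureS]
  refine ⟨pureS_posSemidef (by linarith [hp.2]) hp.1 (by norm_num), ?_⟩
  rw [pureS_trace]
  simp

lemma pureS_isDensity {p σ : ℝ} (hp : p ∈ Set.Icc (0 : ℝ) 1) (hσ : σ ^ 2 = 1) :
    IsDensity (pureS (1 - p) p σ) := by
  refine ⟨pureS_posSemidef (by linarith [hp.2]) hp.1 hσ, ?_⟩
  rw [pureS_trace]
  simp

lemma rtr_gadMap (γ ν : ℝ) (M : Matrix Bool Bool ℂ) : rtr (gadMap γ ν M) = rtr M := by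
  have : (gadMap γ ν M).trace = M.trace := by
    simp [gadMap, Matrix.trace]
    ring
  simp [rtr, this]

lemma vnEntropy_gadMap_pureS {γ ν p σ : ℝ} (hγ : γ ∈ Set.Icc (0 : ℝ) 1)
    (hν : ν ∈ Set.Icc (0 : ℝ) 1) (hp : p ∈ Set.Icc (0 : ℝ) 1) (hσ : σ ^ 2 = 1) :
    vnEntropy (gadMap γ ν (pureS (1 - p) p σ)) = gFun γ ν p := by
  have hx : 0 ≤ 1 - p := by linarith [hp.2]
  have hd := pureS_isDensity hp hσ
  rw [vnEntropy_two (gadMap_posSemidef hγ hν hd.1) (by
    rw [rtr_gadMap, rtr, hd.2]; simp)]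
  unfold gFun
  congr 3
  have h1 : Real.sqrt (1 - γ) ^ 2 = 1 - γ := Real.sq_sqrt (by linarith [hγ.2])
  have h2 : Real.sqrt ((1 - p) * p) ^ 2 = (1 - p) * p := Real.sq_sqrt (mul_nonneg hx hp.1)
  simp only [gadMap, pureS, Matrix.of_apply, bmat_ff, bmat_ft, bmat_tf, bmat_tt]
  simp [← Complex.ofReal_mul, ← Complex.ofReal_add, ← Complex.ofReal_sub]
  congr 1
  linear_combination (4 * σ ^ 2 * Real.sqrt ((1 - p) * p) ^ 2) * h1
    + (4 * (1 - γ) * Real.sqrt ((1 - p) * p) ^ 2) * hσ + (4 * (1 - γ)) * h2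

/-- The output entropy of a pure input with excited population `p`. -/
theorem vnEntropy_gadMap_pure {γ ν p : ℝ} (hγ : γ ∈ Set.Icc (0 : ℝ) 1)
    (hν : ν ∈ Set.Icc (0 : ℝ) 1) (hp : p ∈ Set.Icc (0 : ℝ) 1) :
    vnEntropy (gadMap γ ν (pureM (1 - p) p)) = gFun γ ν p := by
  rw [pureM_eq_pureS]
  exact vnEntropy_gadMap_pureS hγ hν hp (by norm_num)


/-- The 2-point ensemble at population `p` has Holevo information `gadRate p`. -/
theorem rate_achieved {γ ν p : ℝ} (hγ : γ ∈ Set.Icc (0 : ℝ) 1) (hν : ν ∈ Set.Icc (0 : ℝ) 1)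
    (hp : p ∈ Set.Icc (0 : ℝ) 1) :
    ∃ (q : Fin 2 → ℝ) (ρ : Fin 2 → Matrix Bool Bool ℂ), IsEnsemble q ρ ∧
      holevoInfo (gadMap γ ν) q ρ = gadRate γ ν p := by
  have hd1 := pureS_isDensity (σ := 1) hp (by norm_num)
  have hd2 := pureS_isDensity (σ := -1) hp (by norm_num)
  refine ⟨![1 / 2, 1 / 2], ![pureS (1 - p) p 1, pureS (1 - p) p (-1)], ⟨?_, ?_, ?_⟩, ?_⟩
  · intro a; fin_cases a <;> norm_num
  · simp [Fin.sum_univ_two]; norm_num
  · intro a; fin_cases a
    · exact hd1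
    · exact hd2
  · set y : ℝ := (1 - γ) * p + γ * ν with hy
    have hy0 : 0 ≤ y := by
      have := hγ.1; have := hγ.2; have := hν.1; have := hp.1
      exact add_nonneg (mul_nonneg (by linarith) hp.1) (mul_nonneg hγ.1 hν.1)
    have hy1 : y ≤ 1 := by
      have h1 := hγ.1; have h2 := hγ.2; have h3 := hν.2; have h4 := hp.2
      have : (1 - γ) * p ≤ (1 - γ) * 1 := mul_le_mul_of_nonneg_left h4 (by linarith)
      have : γ * ν ≤ γ * 1 := mul_le_mul_of_nonneg_left h3 h1
      rw [hy]; linarith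
    have e1 := vnEntropy_gadMap_pureS (σ := 1) hγ hν hp (by norm_num)
    have e2 := vnEntropy_gadMap_pureS (σ := -1) hγ hν hp (by norm_num)
    set A := gadMap γ ν (pureS (1 - p) p 1) with hA
    set B := gadMap γ ν (pureS (1 - p) p (-1)) with hB
    have hPA : A.PosSemidef := gadMap_posSemidef hγ hν hd1.1
    have hPB : B.PosSemidef := gadMap_posSemidef hγ hν hd2.1
    have htA : rtr A = 1 := by rw [hA, rtr_gadMap, rtr, hd1.2]; simp
    have htB : rtr B = 1 := by rw [hB, rtr_gadMap, rtr, hd2.2]; simp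
    have hsum : (∑ a, (((![1 / 2, 1 / 2] : Fin 2 → ℝ) a : ℝ) : ℂ) •
        gadMap γ ν ((![pureS (1 - p) p 1, pureS (1 - p) p (-1)] : Fin 2 → _) a))
        = (((1 / 2 : ℝ) : ℂ)) • A + (((1 / 2 : ℝ) : ℂ)) • B := by
      simp only [Fin.sum_univ_two, Matrix.cons_val_zero, Matrix.cons_val_one, hA, hB]
    have hsum2 : (∑ a, ((![1 / 2, 1 / 2] : Fin 2 → ℝ) a) * vnEntropy (gadMap γ ν
        ((![pureS (1 - p) p 1, pureS (1 - p) p (-1)] : Fin 2 → _) a))) = gFun γ ν p := by
      simp only [Fin.sum_univ_two, Matrix.cons_val_zero, Matrix.cons_val_one]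
      rw [← hA, ← hB, e1, e2]; ring
    unfold holevoInfo
    rw [hsum, hsum2, gadRate_eq]
    congr 1
    have hC : ((((1 / 2 : ℝ) : ℂ)) • A + (((1 / 2 : ℝ) : ℂ)) • B).PosSemidef := by
      refine Matrix.PosSemidef.add (hPA.smul ?_) (hPB.smul ?_) <;>
      · rw [Complex.zero_le_real]; norm_num
    have htC : rtr (((((1 / 2 : ℝ) : ℂ)) • A + (((1 / 2 : ℝ) : ℂ)) • B)) = 1 := by
      simp only [rtr, Matrix.trace_add, Matrix.trace_smul, Complex.add_re, smul_eq_mul,
        Complex.re_ofReal_mul] at htA htB ⊢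
      rw [htA, htB]; norm_num
    rw [vnEntropy_two hC htC]
    have e00 : ((((1 / 2 : ℝ) : ℂ)) • A + (((1 / 2 : ℝ) : ℂ)) • B) false false = ((1 - y : ℝ) : ℂ) := by
      simp only [hA, hB, hy, gadMap, pureS, Matrix.add_apply, Matrix.smul_apply, Matrix.of_apply]
      simp
      ring
    have e11 : ((((1 / 2 : ℝ) : ℂ)) • A + (((1 / 2 : ℝ) : ℂ)) • B) true true = ((y : ℝ) : ℂ) := by
      simp only [hA, hB, hy, gadMap, pureS, Matrix.add_apply, Matrix.smul_apply, Matrix.of_apply]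
      simp
      ring
    have e01 : ((((1 / 2 : ℝ) : ℂ)) • A + (((1 / 2 : ℝ) : ℂ)) • B) false true = 0 := by
      simp only [hA, hB, gadMap, pureS, Matrix.add_apply, Matrix.smul_apply, Matrix.of_apply]
      simp
    rw [e00, e11, e01]
    have hdet : (((1 - y : ℝ) : ℂ) * ((y : ℝ) : ℂ) - 0 * ((((1 / 2 : ℝ) : ℂ)) • A + (((1 / 2 : ℝ) : ℂ)) • B) true false).re
        = (1 - y) * y := by
      rw [zero_mul, sub_zero, ← Complex.ofReal_mul, Complex.ofReal_re]
    rw [hdet]
    have hq : 1 - 4 * ((1 - y) * y) = (1 - 2 * y) ^ 2 := by ring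
    rw [hq, Real.sqrt_sq_eq_abs]
    rcases le_total y (1 / 2) with hle | hle
    · rw [abs_of_nonneg (by linarith)]
      have : (1 + (1 - 2 * y)) / 2 = 1 - y := by ring
      rw [this, Real.binEntropy_one_sub]
    · rw [abs_of_nonpos (by linarith)]
      have : (1 + -(1 - 2 * y)) / 2 = y := by ring
      rw [this]

end Crest.Agent.S0534Lib
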