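/-
S0534 library: from the Key Lemma to additivity (package P9).
-/
import Crest.Agent.S0534Lib.KL
import Crest.Agent.S0534Lib.Qubit

set_option autoImplicit false
set_option linter.unusedSectionVars false
set_option linter.unusedSimpArgs false
set_option linter.unusedVariables false

namespace Crest.Agent.S0534Lib

open Matrix Crest.Quantum Crest.MathPhysics.AmpDamp
open scoped ComplexOrder Kronecker

variable {d e : Type} [Fintype d] [Fintype e] [DecidableEq d] [DecidableEq e]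

/-- `Φ ⊗ Ψ = (Φ ⊗ id) ∘ blockwise Ψ`. -/
theorem qubitTensor_eq_gadId (γ ν : ℝ) (Ψ : Matrix d d ℂ → Matrix e e ℂ)
    (M : Matrix (Bool × d) (Bool × d) ℂ) :
    qubitTensor (gadMap γ ν) Ψ M = gadId γ ν (blockwise Ψ M) := by
  ext p q
  simp [gadId, qubitTensor, blockwise, block]

/-- `blockwise Ψ` with index `Bool` preserves PSD. -/
theorem blockwise_bool_posSemidef {Ψ : Matrix d d ℂ → Matrix e e ℂ} (hΨ : IsChannel Ψ)
    {M : Matrix (Bool × d) (Bool × d) ℂ} (hM : M.PosSemidef) :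
    (blockwise (k := Bool) Ψ M).PosSemidef := by
  classical
  let ι : Bool ≃ Fin 2 := (Fintype.equivFinOfCardEq (by simp))
  let M' : Matrix (Fin 2 × d) (Fin 2 × d) ℂ :=
    M.submatrix (fun p => (ι.symm p.1, p.2)) (fun p => (ι.symm p.1, p.2))
  have hM' : M'.PosSemidef := hM.submatrix _
  have h := hΨ.2.1 2 M' hM'
  have key : blockwise (k := Bool) Ψ M =
      (blockwise (k := Fin 2) Ψ M').submatrix (fun p => (ι p.1, p.2)) (fun p => (ι p.1, p.2)) := by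
    ext p q
    have hb : block M' (ι p.1) (ι q.1) = block M p.1 q.1 := by
      ext i j
      simp [block, M']
    simp only [blockwise, Matrix.of_apply, Matrix.submatrix_apply, hb]
  rw [key]
  exact h.submatrix _

/-- Linear expansion of a qubit map in its transfer coefficients. -/
theorem qubit_expand {Φ : Matrix Bool Bool ℂ → Matrix Bool Bool ℂ}
    (hΦ : IsLinearMap ℂ Φ) (X : Matrix Bool Bool ℂ) (s t : Bool) :
    Φ X s t = ∑ s' : Bool, ∑ t' : Bool, qubitCoeff Φ s t s' t' * X s' t' := by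
  let L : Matrix Bool Bool ℂ →ₗ[ℂ] Matrix Bool Bool ℂ := hΦ.mk' Φ
  have hX : X = ∑ s' : Bool, ∑ t' : Bool, X s' t' • Matrix.single s' t' (1 : ℂ) := by
    conv_lhs => rw [Matrix.matrix_eq_sum_single X]
    refine Finset.sum_congr rfl fun s' _ => Finset.sum_congr rfl fun t' _ => ?_
    rw [Matrix.smul_single]
    simp
  have h2 : Φ X = ∑ s' : Bool, ∑ t' : Bool, X s' t' • Φ (Matrix.single s' t' (1 : ℂ)) := by
    have : L X = ∑ s' : Bool, ∑ t' : Bool, X s' t' • L (Matrix.single s' t' (1 : ℂ)) := by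
      conv_lhs => rw [hX]
      rw [map_sum]
      refine Finset.sum_congr rfl fun s' _ => ?_
      rw [map_sum]
      refine Finset.sum_congr rfl fun t' _ => ?_
      rw [map_smul]
    exact this
  rw [h2]
  simp only [Matrix.sum_apply, Matrix.smul_apply, smul_eq_mul, qubitCoeff]
  refine Finset.sum_congr rfl fun s' _ => Finset.sum_congr rfl fun t' _ => ?_
  ring

/-- `(Φ ⊗ Ψ)(ρ₁ ⊗ ρ₂) = Φ ρ₁ ⊗ Ψ ρ₂`, for linear `Φ, Ψ`. -/
theorem qubitTensor_kronecker {Φ : Matrix Bool Bool ℂ → Matrix Bool Bool ℂ}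
    (hΦ : IsLinearMap ℂ Φ) {Ψ : Matrix d d ℂ → Matrix e e ℂ} (hΨ : IsLinearMap ℂ Ψ)
    (ρ₁ : Matrix Bool Bool ℂ) (ρ₂ : Matrix d d ℂ) :
    qubitTensor Φ Ψ (ρ₁ ⊗ₖ ρ₂) = Φ ρ₁ ⊗ₖ Ψ ρ₂ := by
  ext p q
  have hb : ∀ s' t' : Bool, block (ρ₁ ⊗ₖ ρ₂) s' t' = ρ₁ s' t' • ρ₂ := by
    intro s' t'
    ext i j
    simp [block, Matrix.kroneckerMap_apply]
  simp only [qubitTensor, Matrix.of_apply, hb, hΨ.map_smul, Matrix.smul_apply, smul_eq_mul,
    Matrix.kroneckerMap_apply, qubit_expand hΦ ρ₁ p.1 q.1, Finset.sum_mul]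
  refine Finset.sum_congr rfl fun s' _ => Finset.sum_congr rfl fun t' _ => ?_
  ring

/-- `S(X ⊗ Y) = S X + S Y` for density matrices. -/
theorem vnEntropy_kronecker {a b : Type*} [Fintype a] [Fintype b] [DecidableEq a] [DecidableEq b]
    {X : Matrix a a ℂ} {Y : Matrix b b ℂ} (hX : IsDensity X) (hY : IsDensity Y) :
    vnEntropy (X ⊗ₖ Y) = vnEntropy X + vnEntropy Y := by
  have hXH := hX.1.1
  have hYH := hY.1.1
  have h1 : ∑ i, hXH.eigenvalues i = 1 := by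
    rw [← rtr_eq_sum_eigenvalues hXH, rtr, hX.2, Complex.one_re]
  have h2 : ∑ j, hYH.eigenvalues j = 1 := by
    rw [← rtr_eq_sum_eigenvalues hYH, rtr, hY.2, Complex.one_re]
  rw [vnEntropy_eq_trFun, vnEntropy_eq_trFun, vnEntropy_eq_trFun,
    trFun_kronecker _ hXH hYH, trFun_of_isHermitian _ hXH, trFun_of_isHermitian _ hYH]
  have : ∀ i j, Real.negMulLog (hXH.eigenvalues i * hYH.eigenvalues j) =
      hYH.eigenvalues j * Real.negMulLog (hXH.eigenvalues i) +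
        hXH.eigenvalues i * Real.negMulLog (hYH.eigenvalues j) := by
    intro i j
    rw [Real.negMulLog_mul]
  simp only [this, Finset.sum_add_distrib, ← Finset.sum_mul, ← Finset.mul_sum, h2, h1, one_mul]

/-- A channel takes density matrices to density matrices. -/
theorem isDensity_of_isChannel {a b : Type*} [Fintype a] [Fintype b] [DecidableEq a] [DecidableEq b]
    {Φ : Matrix a a ℂ → Matrix b b ℂ} (hΦ : IsChannel Φ) {ρ : Matrix a a ℂ} (hρ : IsDensity ρ) :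
    IsDensity (Φ ρ) := by
  refine ⟨?_, by rw [hΦ.2.2, hρ.2]⟩
  let M : Matrix (Fin 1 × a) (Fin 1 × a) ℂ := ρ.submatrix Prod.snd Prod.snd
  have hM : M.PosSemidef := hρ.1.submatrix _
  have h := hΦ.2.1 1 M hM
  have key : Φ ρ = (blockwise (k := Fin 1) Φ M).submatrix (fun i => ((0 : Fin 1), i)) (fun i => ((0 : Fin 1), i)) := by
    ext i j
    have : block M (0 : Fin 1) (0 : Fin 1) = ρ := by
      ext i j
      simp [block, M]
    simp [blockwise, this]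
  rw [key]
  exact h.submatrix _

/-- The tensor product of density matrices is a density matrix. -/
theorem isDensity_kronecker {a b : Type*} [Fintype a] [Fintype b]
    {X : Matrix a a ℂ} {Y : Matrix b b ℂ} (hX : IsDensity X) (hY : IsDensity Y) :
    IsDensity (X ⊗ₖ Y) := by
  classical
  refine ⟨hX.1.kronecker hY.1, ?_⟩
  rw [Matrix.trace_kronecker, hX.2, hY.2, one_mul]

/-- Weighted sum of density matrices is a density matrix. -/
theorem isDensity_sum_smul {a : Type*} [Fintype a] {m : Type*} [Fintype m] {q : m → ℝ}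
    {σ : m → Matrix a a ℂ} (hq : ∀ i, 0 ≤ q i) (hq1 : ∑ i, q i = 1)
    (hσ : ∀ i, IsDensity (σ i)) : IsDensity (∑ i, (q i : ℂ) • σ i) := by
  classical
  refine ⟨?_, ?_⟩
  · refine Matrix.posSemidef_sum _ fun i _ => ?_
    have : (q i : ℂ) • σ i = (q i) • σ i := by
      ext x y; simp
    rw [this]
    exact (hσ i).1.smul (hq i)
  · rw [Matrix.trace_sum]
    simp only [Matrix.trace_smul, (hσ _).2, smul_eq_mul, mul_one]
    rw [← Complex.ofReal_sum, hq1]; simp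

section P9b

/-! ### Small helpers for package P9b (trace and block bookkeeping) -/

omit [Fintype d] [Fintype e] [DecidableEq d] [DecidableEq e]

lemma p9b_rtr_add {a : Type*} [Fintype a] (X Y : Matrix a a ℂ) : rtr (X + Y) = rtr X + rtr Y := by
  simp [rtr, Matrix.trace_add]

lemma p9b_rtr_smul {a : Type*} [Fintype a] (c : ℝ) (X : Matrix a a ℂ) :
    rtr ((c : ℂ) • X) = c * rtr X := by
  simp [rtr, Matrix.trace_smul]

lemma p9b_rtr_sum {a ι : Type*} [Fintype a] [Fintype ι] (X : ι → Matrix a a ℂ) :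
    rtr (∑ i, X i) = ∑ i, rtr (X i) := by
  simp [rtr, Matrix.trace_sum]

lemma p9b_rtr_blocks {a : Type*} [Fintype a] (M : Matrix (Bool × a) (Bool × a) ℂ) :
    rtr M = rtr (block M false false) + rtr (block M true true) := by
  simp [rtr, Matrix.trace, block, Fintype.sum_prod_type, Finset.sum_add_distrib, add_comm]

lemma p9b_rtr_nonneg {a : Type*} [Fintype a] [DecidableEq a] {M : Matrix a a ℂ}
    (hM : M.PosSemidef) : 0 ≤ rtr M := by
  rw [rtr_eq_sum_eigenvalues hM.1]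
  exact Finset.sum_nonneg fun i _ => hM.eigenvalues_nonneg i

lemma p9b_coe_rtr {a : Type*} [Fintype a] [DecidableEq a] {M : Matrix a a ℂ}
    (hM : M.IsHermitian) : ((rtr M : ℝ) : ℂ) = M.trace := by
  rw [rtr_eq_sum_eigenvalues hM, hM.trace_eq_sum_eigenvalues]
  simp

lemma p9b_block_psd {a k : Type*} [Fintype a] [Fintype k] {M : Matrix (k × a) (k × a) ℂ}
    (hM : M.PosSemidef) (s : k) : (block M s s).PosSemidef :=
  hM.submatrix (fun i => (s, i))

lemma p9b_block_sum {a k ι : Type*} [Fintype a] [Fintype k] [Fintype ι]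
    (c : ι → ℝ) (M : ι → Matrix (k × a) (k × a) ℂ) (s t : k) :
    block (∑ i, (c i : ℂ) • M i) s t = ∑ i, (c i : ℂ) • block (M i) s t := by
  ext x y
  simp [block, Matrix.sum_apply]

lemma p9b_psd_sum {a ι : Type*} [Fintype a] [Fintype ι]
    {c : ι → ℝ} {M : ι → Matrix a a ℂ} (hc : ∀ i, 0 ≤ c i) (hM : ∀ i, (M i).PosSemidef) :
    (∑ i, (c i : ℂ) • M i).PosSemidef :=
  Matrix.posSemidef_sum _ fun i _ =>
    (hM i).smul (Complex.zero_le_real.2 (hc i))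

/-- A density matrix exists in every nonzero dimension. -/
lemma p9b_exists_density {a : Type*} [Fintype a] [DecidableEq a] [Nonempty a] :
    ∃ D : Matrix a a ℂ, IsDensity D := by
  refine ⟨(((Fintype.card a : ℝ)⁻¹ : ℝ) : ℂ) • (1 : Matrix a a ℂ), ?_, ?_⟩
  · exact Matrix.PosSemidef.one.smul (Complex.zero_le_real.2 (by positivity))
  · have hc : ((Fintype.card a : ℂ)) ≠ 0 := by
      exact_mod_cast (Fintype.card_ne_zero (α := a))
    simp [Matrix.trace_smul, Matrix.trace_one, hc]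

/-- The trace-normalisation of a PSD matrix (with a default value if the trace is `0`). -/
noncomputable def p9bNorm {a : Type*} [Fintype a] (D0 B : Matrix a a ℂ) : Matrix a a ℂ :=
  open Classical in if rtr B = 0 then D0 else ((rtr B)⁻¹ : ℂ) • B

lemma p9bNorm_density {a : Type*} [Fintype a] [DecidableEq a] {D0 B : Matrix a a ℂ}
    (hD0 : IsDensity D0) (hB : B.PosSemidef) : IsDensity (p9bNorm D0 B) := by
  unfold p9bNorm
  split_ifs with h
  · exact hD0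
  · have hpos : 0 ≤ rtr B := p9b_rtr_nonneg hB
    constructor
    · have : ((rtr B : ℂ))⁻¹ = (((rtr B)⁻¹ : ℝ) : ℂ) := by simp
      rw [this]
      exact hB.smul (Complex.zero_le_real.2 (by positivity))
    · rw [Matrix.trace_smul, ← p9b_coe_rtr hB.1, smul_eq_mul]
      exact inv_mul_cancel₀ (by exact_mod_cast h)

lemma p9b_Ψ_norm_smul {a b : Type*} [Fintype a] [DecidableEq a] [Fintype b] [DecidableEq b]
    {Ψ : Matrix a a ℂ → Matrix b b ℂ} (hΨ : IsChannel Ψ) {D0 B : Matrix a a ℂ}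
    (hB : B.PosSemidef) : ((rtr B : ℝ) : ℂ) • Ψ (p9bNorm D0 B) = Ψ B := by
  unfold p9bNorm
  split_ifs with h
  · have h0 : B = 0 := by
      apply hB.trace_eq_zero_iff.1
      rw [← p9b_coe_rtr hB.1, h]
      simp
    have hΨ0 : Ψ 0 = 0 := hΨ.1.map_zero
    rw [h, h0, hΨ0]
    simp
  · rw [hΨ.1.map_smul, smul_smul, mul_inv_cancel₀ (by exact_mod_cast h), one_smul]

lemma p9b_rtr_channel {a b : Type*} [Fintype a] [DecidableEq a] [Fintype b] [DecidableEq b]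
    {Ψ : Matrix a a ℂ → Matrix b b ℂ} (hΨ : IsChannel Ψ) (B : Matrix a a ℂ) :
    rtr (Ψ B) = rtr B := by
  unfold rtr
  rw [hΨ.2.2 B]

end P9b

section P9b2

/-- `Ψ` maps PSD blocks of a `Bool`-indexed PSD matrix to PSD. -/
lemma p9b_Ψ_block_psd {Ψ : Matrix d d ℂ → Matrix e e ℂ} (hΨ : IsChannel Ψ)
    {M : Matrix (Bool × d) (Bool × d) ℂ} (hM : M.PosSemidef) (s : Bool) :
    (Ψ (block M s s)).PosSemidef :=
  p9b_block_psd (blockwise_bool_posSemidef hΨ hM) s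

lemma p9b_Ent_norm {Ψ : Matrix d d ℂ → Matrix e e ℂ} (hΨ : IsChannel Ψ)
    {D0 : Matrix d d ℂ} {M : Matrix (Bool × d) (Bool × d) ℂ} (hM : M.PosSemidef) (s : Bool) :
    rtr (block M s s) * vnEntropy (Ψ (p9bNorm D0 (block M s s))) = Ent (Ψ (block M s s)) := by
  set B := block M s s with hBdef
  have hB : B.PosSemidef := p9b_block_psd hM s
  by_cases h : rtr B = 0
  · have h0 : B = 0 := by
      apply hB.trace_eq_zero_iff.1
      rw [← p9b_coe_rtr hB.1, h]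
      simp
    have hΨ0 : Ψ 0 = 0 := hΨ.1.map_zero
    rw [h, zero_mul, h0, hΨ0, Ent_zero]
  · have hpos : 0 < rtr B := lt_of_le_of_ne (p9b_rtr_nonneg hB) (Ne.symm h)
    have hΨB : (Ψ B).PosSemidef := p9b_Ψ_block_psd hΨ hM s
    have hr := p9b_rtr_channel hΨ B
    rw [Ent_eq_mul_vnEntropy hΨB (by rw [hr]; exact hpos), hr]
    unfold p9bNorm
    rw [if_neg h, hΨ.1.map_smul]

/-- Any finite family of weights and density matrices can be reindexed by `Fin m`. -/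
lemma p9b_exists_fin_ensemble {ι : Type*} [Fintype ι] (Ψ : Matrix d d ℂ → Matrix e e ℂ)
    (w : ι → ℝ) (s : ι → Matrix d d ℂ) (h0 : ∀ i, 0 ≤ w i) (h1 : ∑ i, w i = 1)
    (hs : ∀ i, IsDensity (s i)) :
    ∃ (m₂ : ℕ) (q₂ : Fin m₂ → ℝ) (ρ₂ : Fin m₂ → Matrix d d ℂ), IsEnsemble q₂ ρ₂ ∧
      holevoInfo Ψ q₂ ρ₂ =
        vnEntropy (∑ i, (w i : ℂ) • Ψ (s i)) - ∑ i, w i * vnEntropy (Ψ (s i)) := by
  classical
  let eι := Fintype.equivFin ι
  refine ⟨Fintype.card ι, fun a => w (eι.symm a), fun a => s (eι.symm a), ⟨fun a => h0 _, ?_, fun a => hs _⟩, ?_⟩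
  · rw [Equiv.sum_comp eι.symm w]; exact h1
  · unfold holevoInfo
    rw [Equiv.sum_comp eι.symm (fun i => (w i : ℂ) • Ψ (s i)),
      Equiv.sum_comp eι.symm (fun i => w i * vnEntropy (Ψ (s i)))]

/-- `gadId` preserves PSD (complete positivity of the GADC). -/
lemma gadId_posSemidef {E : Type*} [Fintype E] [DecidableEq E] {γ ν : ℝ}
    (hγ : γ ∈ Set.Icc (0 : ℝ) 1) (hν : ν ∈ Set.Icc (0 : ℝ) 1)
    {Ω : Matrix (Bool × E) (Bool × E) ℂ} (hΩ : Ω.PosSemidef) : (gadId γ ν Ω).PosSemidef := by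
  classical
  let k := Fintype.card E
  let eE : E ≃ Fin k := Fintype.equivFin E
  let f : Fin k × Bool → Bool × E := fun p => (p.2, eE.symm p.1)
  let Ω' : Matrix (Fin k × Bool) (Fin k × Bool) ℂ := Ω.submatrix f f
  have hΩ' : Ω'.PosSemidef := hΩ.submatrix _
  have h := (gadMap_isChannel hγ hν).2.1 k Ω' hΩ'
  have h2 := h.submatrix (fun p : Bool × E => (eE p.2, p.1))
  convert h2 using 1
  ext ⟨s, i⟩ ⟨t, j⟩
  rw [gadId_apply]
  cases s <;> cases t <;> simp [blockwise, block, gadMap, Ω', f]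

lemma block_gadId_ff {E : Type*} [Fintype E] [DecidableEq E] (γ ν : ℝ)
    (Ω : Matrix (Bool × E) (Bool × E) ℂ) :
    block (gadId γ ν Ω) false false =
      ((1 - γ * ν : ℝ) : ℂ) • block Ω false false +
        ((γ * (1 - ν) : ℝ) : ℂ) • block Ω true true := by
  ext i j
  simp [block, gadId_apply]

lemma block_gadId_tt {E : Type*} [Fintype E] [DecidableEq E] (γ ν : ℝ)
    (Ω : Matrix (Bool × E) (Bool × E) ℂ) :
    block (gadId γ ν Ω) true true =
      ((γ * ν : ℝ) : ℂ) • block Ω false false +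
        ((1 - γ + γ * ν : ℝ) : ℂ) • block Ω true true := by
  ext i j
  simp [block, gadId_apply]

/-- Main output-entropy bound: for density `ρ` on `Bool × d`, with `p` the excited population, -/
theorem entropy_tensor_ge [Nonempty e] {γ ν : ℝ} (hγ : γ ∈ Set.Icc (0 : ℝ) 1) (hν : ν ∈ Set.Icc (0 : ℝ) 1)
    {Ψ : Matrix d d ℂ → Matrix e e ℂ} (hΨ : IsChannel Ψ)
    {ρ : Matrix (Bool × d) (Bool × d) ℂ} (hρ : IsDensity ρ) :
    gFun γ ν (rtr (block ρ true true)) + Ent (Ψ (block ρ false false)) +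
      Ent (Ψ (block ρ true true)) ≤ vnEntropy (qubitTensor (gadMap γ ν) Ψ ρ) := by
  have hΩ := blockwise_bool_posSemidef hΨ hρ.1
  have hkl := kl_all hγ hν hΩ
  rw [qubitTensor_eq_gadId]
  have hb : ∀ s t, block (blockwise Ψ ρ) s t = Ψ (block ρ s t) := fun s t => by
    ext i j; rfl
  simp only [hb] at hkl
  rw [p9b_rtr_channel hΨ, p9b_rtr_channel hΨ] at hkl
  have h1 : rtr ρ = 1 := by simp [rtr, hρ.2]
  have h2 := p9b_rtr_blocks ρ
  have h3 : 0 ≤ rtr (block ρ true true) := p9b_rtr_nonneg (p9b_block_psd hρ.1 true)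
  have h4 : 0 ≤ rtr (block ρ false false) := p9b_rtr_nonneg (p9b_block_psd hρ.1 false)
  have h5 : rtr (block ρ false false) = 1 - rtr (block ρ true true) := by linarith
  rw [h5, vnEntropy_gadMap_pure hγ hν ⟨h3, by linarith⟩] at hkl
  exact hkl

/-- Part 1 of S0535 in its sharp form: each ensemble for `Φ ⊗ Ψ` is dominated by the rate at
its mean population plus a `Ψ`-ensemble. -/
theorem holevo_tensor_le {γ ν : ℝ} (hγ : γ ∈ Set.Icc (0 : ℝ) 1) (hν : ν ∈ Set.Icc (0 : ℝ) 1)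
    [Nonempty d] [Nonempty e] {Ψ : Matrix d d ℂ → Matrix e e ℂ} (hΨ : IsChannel Ψ)
    {m : ℕ} {q : Fin m → ℝ} {ρ : Fin m → Matrix (Bool × d) (Bool × d) ℂ} (hens : IsEnsemble q ρ) :
    ∃ p ∈ Set.Icc (0 : ℝ) 1, ∃ (m₂ : ℕ) (q₂ : Fin m₂ → ℝ) (ρ₂ : Fin m₂ → Matrix d d ℂ),
      IsEnsemble q₂ ρ₂ ∧
        holevoInfo (qubitTensor (gadMap γ ν) Ψ) q ρ ≤ gadRate γ ν p + holevoInfo Ψ q₂ ρ₂ := by
  classical
  obtain ⟨hq0, hq1, hρd⟩ := hens
  -- the populations
  let pA : Fin m → ℝ := fun a => rtr (block (ρ a) true true)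
  have hblocks : ∀ a, rtr (block (ρ a) false false) = 1 - pA a := by
    intro a
    have h1 : rtr (ρ a) = 1 := by simp [rtr, (hρd a).2]
    have h2 := p9b_rtr_blocks (ρ a)
    simp only [pA]
    linarith
  have hpA0 : ∀ a, 0 ≤ pA a := fun a => p9b_rtr_nonneg (p9b_block_psd (hρd a).1 true)
  have hxA0 : ∀ a, 0 ≤ 1 - pA a := fun a => by
    rw [← hblocks a]; exact p9b_rtr_nonneg (p9b_block_psd (hρd a).1 false)
  have hpA : ∀ a, pA a ∈ Set.Icc (0 : ℝ) 1 := fun a => ⟨hpA0 a, by linarith [hxA0 a]⟩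
  let pbar : ℝ := ∑ a, q a * pA a
  have hpbar : pbar ∈ Set.Icc (0 : ℝ) 1 := by
    constructor
    · exact Finset.sum_nonneg fun a _ => mul_nonneg (hq0 a) (hpA0 a)
    · calc pbar ≤ ∑ a, q a * 1 :=
            Finset.sum_le_sum fun a _ => mul_le_mul_of_nonneg_left (hpA a).2 (hq0 a)
        _ = 1 := by simpa using hq1
  refine ⟨pbar, hpbar, ?_⟩
  -- the ensemble for `Ψ`
  obtain ⟨D0, hD0⟩ := p9b_exists_density (a := d)
  let w : Fin m × Bool → ℝ := fun i => q i.1 * rtr (block (ρ i.1) i.2 i.2)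
  let s : Fin m × Bool → Matrix d d ℂ := fun i => p9bNorm D0 (block (ρ i.1) i.2 i.2)
  have hw0 : ∀ i, 0 ≤ w i := fun i =>
    mul_nonneg (hq0 _) (p9b_rtr_nonneg (p9b_block_psd (hρd _).1 _))
  have hw1 : ∑ i, w i = 1 := by
    rw [Fintype.sum_prod_type]
    simp only [Fintype.sum_bool, w]
    rw [← hq1]
    refine Finset.sum_congr rfl fun a _ => ?_
    have := hblocks a
    simp only [pA] at this
    rw [this]
    ring
  have hs : ∀ i, IsDensity (s i) := fun i => p9bNorm_density hD0 (p9b_block_psd (hρd _).1 _)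
  obtain ⟨m₂, q₂, ρ₂, hens₂, hχ⟩ := p9b_exists_fin_ensemble Ψ w s hw0 hw1 hs
  refine ⟨m₂, q₂, ρ₂, hens₂, ?_⟩
  rw [hχ, gadRate_eq]
  -- identify the two terms of the `Ψ`-ensemble
  let X : Fin m → Matrix e e ℂ := fun a => Ψ (block (ρ a) false false)
  let Z : Fin m → Matrix e e ℂ := fun a => Ψ (block (ρ a) true true)
  have hY : ∑ i, (w i : ℂ) • Ψ (s i) = ∑ a, (q a : ℂ) • (X a + Z a) := by
    rw [Fintype.sum_prod_type]
    refine Finset.sum_congr rfl fun a _ => ?_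
    simp only [Fintype.sum_bool, w, s, X, Z]
    rw [smul_add, add_comm]
    congr 1
    · rw [Complex.ofReal_mul, mul_smul, p9b_Ψ_norm_smul hΨ (p9b_block_psd (hρd a).1 false)]
    · rw [Complex.ofReal_mul, mul_smul, p9b_Ψ_norm_smul hΨ (p9b_block_psd (hρd a).1 true)]
  have hE : ∑ i, w i * vnEntropy (Ψ (s i)) = ∑ a, q a * (Ent (X a) + Ent (Z a)) := by
    rw [Fintype.sum_prod_type]
    refine Finset.sum_congr rfl fun a _ => ?_
    simp only [Fintype.sum_bool, w, s, X, Z]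
    rw [← p9b_Ent_norm hΨ (D0 := D0) (hρd a).1 false, ← p9b_Ent_norm hΨ (D0 := D0) (hρd a).1 true]
    ring
  rw [hY, hE]
  -- outputs
  let σ : Fin m → Matrix (Bool × e) (Bool × e) ℂ := fun a => qubitTensor (gadMap γ ν) Ψ (ρ a)
  have hσgad : ∀ a, σ a = gadId γ ν (blockwise Ψ (ρ a)) := fun a => qubitTensor_eq_gadId γ ν Ψ (ρ a)
  have hb : ∀ a t u, block (blockwise Ψ (ρ a)) t u = Ψ (block (ρ a) t u) := fun a t u => by
    ext i j; rfl
  have hσ_ff : ∀ a, block (σ a) false false =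
      ((1 - γ * ν : ℝ) : ℂ) • X a + ((γ * (1 - ν) : ℝ) : ℂ) • Z a := fun a => by
    rw [hσgad, block_gadId_ff, hb, hb]
  have hσ_tt : ∀ a, block (σ a) true true =
      ((γ * ν : ℝ) : ℂ) • X a + ((1 - γ + γ * ν : ℝ) : ℂ) • Z a := fun a => by
    rw [hσgad, block_gadId_tt, hb, hb]
  have hσpsd : ∀ a, (σ a).PosSemidef := fun a => by
    rw [hσgad]
    exact gadId_posSemidef hγ hν (blockwise_bool_posSemidef hΨ (hρd a).1)
  have hrX : ∀ a, rtr (X a) = 1 - pA a := fun a => by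
    simp only [X]; rw [p9b_rtr_channel hΨ, hblocks a]
  have hrZ : ∀ a, rtr (Z a) = pA a := fun a => by
    simp only [Z, pA]; rw [p9b_rtr_channel hΨ]
  have hσrtr : ∀ a, rtr (σ a) = 1 := fun a => by
    rw [p9b_rtr_blocks, hσ_ff, hσ_tt]
    simp only [p9b_rtr_add, p9b_rtr_smul, hrX, hrZ]
    ring
  set τ : Matrix (Bool × e) (Bool × e) ℂ := ∑ a, (q a : ℂ) • σ a with hτdef
  have hτpsd : τ.PosSemidef := p9b_psd_sum hq0 hσpsd
  have hτrtr : rtr τ = 1 := by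
    rw [hτdef, p9b_rtr_sum]
    simp only [p9b_rtr_smul, hσrtr, mul_one]
    exact hq1
  have hstep1 := entropy_block_le hτpsd hτrtr
  have hτ_tt : rtr (block τ true true) = (1 - γ) * pbar + γ * ν := by
    rw [hτdef, p9b_block_sum, p9b_rtr_sum]
    simp only [p9b_rtr_smul, hσ_tt, p9b_rtr_add, hrX, hrZ]
    have : ∀ a, q a * (γ * ν * (1 - pA a) + (1 - γ + γ * ν) * pA a)
        = (1 - γ) * (q a * pA a) + γ * ν * q a := fun a => by ring
    simp only [this]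
    rw [Finset.sum_add_distrib, ← Finset.mul_sum, ← Finset.mul_sum, hq1, mul_one]
  have hτ_sum : block τ false false + block τ true true = ∑ a, (q a : ℂ) • (X a + Z a) := by
    rw [hτdef, p9b_block_sum, p9b_block_sum, ← Finset.sum_add_distrib]
    refine Finset.sum_congr rfl fun a _ => ?_
    rw [← smul_add, hσ_ff, hσ_tt]
    congr 1
    ext i j
    simp only [Matrix.add_apply, Matrix.smul_apply, smul_eq_mul]
    push_cast
    ring
  rw [hτ_tt, hτ_sum] at hstep1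
  -- lower bounds on the output entropies
  have hstep2 : ∑ a, q a * (gFun γ ν (pA a) + Ent (X a) + Ent (Z a)) ≤ ∑ a, q a * vnEntropy (σ a) :=
    Finset.sum_le_sum fun a _ =>
      mul_le_mul_of_nonneg_left (entropy_tensor_ge hγ hν hΨ (hρd a)) (hq0 a)
  -- convexity
  have hstep3 : gFun γ ν pbar ≤ ∑ a, q a * gFun γ ν (pA a) := by
    have := (gFun_convexOn hγ hν).map_sum_le (t := Finset.univ) (w := q) (p := pA)
      (fun a _ => hq0 a) hq1 (fun a _ => hpA a)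
    simpa [smul_eq_mul] using this
  have hsplit : ∑ a, q a * (gFun γ ν (pA a) + Ent (X a) + Ent (Z a))
      = ∑ a, q a * gFun γ ν (pA a) + ∑ a, q a * (Ent (X a) + Ent (Z a)) := by
    rw [← Finset.sum_add_distrib]
    exact Finset.sum_congr rfl fun a _ => by ring
  unfold holevoInfo
  change vnEntropy τ - ∑ a, q a * vnEntropy (σ a) ≤ _
  linarith

/-- Part 3 of S0535 (sharp form). -/
theorem minent_tensor_ge {γ ν : ℝ} (hγ : γ ∈ Set.Icc (0 : ℝ) 1) (hν : ν ∈ Set.Icc (0 : ℝ) 1)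
    [Nonempty d] [Nonempty e] {Ψ : Matrix d d ℂ → Matrix e e ℂ} (hΨ : IsChannel Ψ)
    {ρ : Matrix (Bool × d) (Bool × d) ℂ} (hρ : IsDensity ρ) :
    ∃ (ρ₁ : Matrix Bool Bool ℂ) (ρ₂ : Matrix d d ℂ), IsDensity ρ₁ ∧ IsDensity ρ₂ ∧
      vnEntropy (gadMap γ ν ρ₁) + vnEntropy (Ψ ρ₂) ≤ vnEntropy (qubitTensor (gadMap γ ν) Ψ ρ) := by
  classical
  obtain ⟨D0, hD0⟩ := p9b_exists_density (a := d)
  have h := entropy_tensor_ge hγ hν hΨ hρ
  have h1 : rtr ρ = 1 := by simp [rtr, hρ.2]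
  have h2 := p9b_rtr_blocks ρ
  have h3 : 0 ≤ rtr (block ρ true true) := p9b_rtr_nonneg (p9b_block_psd hρ.1 true)
  have h4 : 0 ≤ rtr (block ρ false false) := p9b_rtr_nonneg (p9b_block_psd hρ.1 false)
  set p := rtr (block ρ true true) with hp
  have hx : rtr (block ρ false false) = 1 - p := by linarith
  have hpI : p ∈ Set.Icc (0 : ℝ) 1 := ⟨h3, by linarith⟩
  have e1 := p9b_Ent_norm hΨ (D0 := D0) hρ.1 false
  have e2 := p9b_Ent_norm hΨ (D0 := D0) hρ.1 true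
  rw [hx] at e1
  rw [← hp] at e2
  have hdf := p9bNorm_density hD0 (p9b_block_psd hρ.1 false)
  have hdt := p9bNorm_density hD0 (p9b_block_psd hρ.1 true)
  set S1 := vnEntropy (Ψ (p9bNorm D0 (block ρ false false)))
  set S2 := vnEntropy (Ψ (p9bNorm D0 (block ρ true true)))
  rw [← e1, ← e2] at h
  have hg := vnEntropy_gadMap_pure hγ hν hpI
  by_cases hS : S1 ≤ S2
  · refine ⟨pureM (1 - p) p, _, pureM_isDensity hpI, hdf, ?_⟩
    rw [hg]
    have : p * S1 ≤ p * S2 := mul_le_mul_of_nonneg_left hS h3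
    nlinarith
  · refine ⟨pureM (1 - p) p, _, pureM_isDensity hpI, hdt, ?_⟩
    rw [hg]
    have hS' : S2 ≤ S1 := le_of_not_ge hS
    have : (1 - p) * S2 ≤ (1 - p) * S1 := mul_le_mul_of_nonneg_left hS' (by linarith [hpI.2])
    nlinarith

end P9b2

/-- Part 2 of S0535. -/
theorem holevo_product {Φ : Matrix Bool Bool ℂ → Matrix Bool Bool ℂ} (hΦ : IsChannel Φ)
    {Ψ : Matrix d d ℂ → Matrix e e ℂ} (hΨ : IsChannel Ψ)
    {m₁ : ℕ} {q₁ : Fin m₁ → ℝ} {ρ₁ : Fin m₁ → Matrix Bool Bool ℂ}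
    {m₂ : ℕ} {q₂ : Fin m₂ → ℝ} {ρ₂ : Fin m₂ → Matrix d d ℂ}
    (h₁ : IsEnsemble q₁ ρ₁) (h₂ : IsEnsemble q₂ ρ₂) :
    ∃ (m : ℕ) (q : Fin m → ℝ) (ρ : Fin m → Matrix (Bool × d) (Bool × d) ℂ), IsEnsemble q ρ ∧
      holevoInfo Φ q₁ ρ₁ + holevoInfo Ψ q₂ ρ₂ = holevoInfo (qubitTensor Φ Ψ) q ρ := by
  classical
  obtain ⟨hq₁, hq₁s, hρ₁⟩ := h₁
  obtain ⟨hq₂, hq₂s, hρ₂⟩ := h₂
  let ι : Fin m₁ × Fin m₂ ≃ Fin (m₁ * m₂) := finProdFinEquiv
  refine ⟨m₁ * m₂, fun c => q₁ (ι.symm c).1 * q₂ (ι.symm c).2,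
    fun c => ρ₁ (ι.symm c).1 ⊗ₖ ρ₂ (ι.symm c).2, ⟨?_, ?_, ?_⟩, ?_⟩
  · exact fun c => mul_nonneg (hq₁ _) (hq₂ _)
  · rw [Equiv.sum_comp ι.symm (fun x : Fin m₁ × Fin m₂ => q₁ x.1 * q₂ x.2), Fintype.sum_prod_type]
    simp only [← Finset.mul_sum, hq₂s, mul_one, hq₁s]
  · exact fun c => isDensity_kronecker (hρ₁ _) (hρ₂ _)
  · unfold holevoInfo
    have hσ₁ : ∀ a, IsDensity (Φ (ρ₁ a)) := fun a => isDensity_of_isChannel hΦ (hρ₁ a)
    have hσ₂ : ∀ b, IsDensity (Ψ (ρ₂ b)) := fun b => isDensity_of_isChannel hΨ (hρ₂ b)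
    have hT : ∀ c, qubitTensor Φ Ψ (ρ₁ (ι.symm c).1 ⊗ₖ ρ₂ (ι.symm c).2) =
        Φ (ρ₁ (ι.symm c).1) ⊗ₖ Ψ (ρ₂ (ι.symm c).2) := fun c =>
      qubitTensor_kronecker hΦ.1 hΨ.1 _ _
    simp only [hT]
    have hav : ∑ c, ((q₁ (ι.symm c).1 * q₂ (ι.symm c).2 : ℝ) : ℂ) •
        (Φ (ρ₁ (ι.symm c).1) ⊗ₖ Ψ (ρ₂ (ι.symm c).2)) =
        (∑ a, (q₁ a : ℂ) • Φ (ρ₁ a)) ⊗ₖ (∑ b, (q₂ b : ℂ) • Ψ (ρ₂ b)) := by
      rw [Equiv.sum_comp ι.symm (fun x : Fin m₁ × Fin m₂ => ((q₁ x.1 * q₂ x.2 : ℝ) : ℂ) • (Φ (ρ₁ x.1) ⊗ₖ Ψ (ρ₂ x.2))),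
        Fintype.sum_prod_type]
      ext p r
      simp only [Matrix.sum_apply, Matrix.smul_apply, Matrix.kroneckerMap_apply, smul_eq_mul,
        Finset.sum_mul_sum]
      refine Finset.sum_congr rfl fun a _ => ?_
      refine Finset.sum_congr rfl fun b _ => ?_
      push_cast
      ring
    rw [hav, vnEntropy_kronecker (isDensity_sum_smul (σ := fun a => Φ (ρ₁ a)) hq₁ hq₁s hσ₁)
      (isDensity_sum_smul (σ := fun b => Ψ (ρ₂ b)) hq₂ hq₂s hσ₂)]
    have hent : ∑ c, (q₁ (ι.symm c).1 * q₂ (ι.symm c).2) *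
        vnEntropy (Φ (ρ₁ (ι.symm c).1) ⊗ₖ Ψ (ρ₂ (ι.symm c).2)) =
        ∑ a, q₁ a * vnEntropy (Φ (ρ₁ a)) + ∑ b, q₂ b * vnEntropy (Ψ (ρ₂ b)) := by
      rw [Equiv.sum_comp ι.symm (fun x : Fin m₁ × Fin m₂ => (q₁ x.1 * q₂ x.2) * vnEntropy (Φ (ρ₁ x.1) ⊗ₖ Ψ (ρ₂ x.2))),
        Fintype.sum_prod_type]
      simp only [fun a b => vnEntropy_kronecker (hσ₁ a) (hσ₂ b), mul_add, Finset.sum_add_distrib]
      congr 1
      · refine Finset.sum_congr rfl fun a _ => ?_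
        have : ∀ b, q₁ a * q₂ b * vnEntropy (Φ (ρ₁ a)) = q₂ b * (q₁ a * vnEntropy (Φ (ρ₁ a))) := by
          intro b; ring
        simp only [this, ← Finset.sum_mul, hq₂s, one_mul]
      · have : ∀ a b, q₁ a * q₂ b * vnEntropy (Ψ (ρ₂ b)) = q₁ a * (q₂ b * vnEntropy (Ψ (ρ₂ b))) := by
          intro a b; ring
        simp only [this, ← Finset.mul_sum, ← Finset.sum_mul, hq₁s, one_mul]
    rw [hent]
    ring

end Crest.Agent.S0534Lib
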