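/-
S0534 library: tensor powers (package P10).
-/
import Crest.Agent.S0534Lib.Additivity

set_option autoImplicit false

namespace Crest.Agent.S0534Lib

open Matrix Crest.Quantum Crest.MathPhysics.AmpDamp
open scoped ComplexOrder Kronecker

/-- split off the first bit. -/
def bitsEquiv (n : ℕ) : (Fin (n + 1) → Bool) ≃ Bool × (Fin n → Bool) :=
  (Fin.consEquiv (fun _ => Bool)).symm

@[simp] lemma bitsEquiv_symm_apply (n : ℕ) (x : Bool × (Fin n → Bool)) :
    (bitsEquiv n).symm x = Fin.cons x.1 x.2 := rfl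

lemma sum_bits {R : Type*} [AddCommMonoid R] (n : ℕ) (f : (Fin (n + 1) → Bool) → R) :
    ∑ x, f x = ∑ b, ∑ σ, f (Fin.cons b σ) := by
  rw [← (bitsEquiv n).symm.sum_comp, Fintype.sum_prod_type]
  rfl

/-- `qubitPower (n+1) Φ` is `Φ ⊗ qubitPower n Φ` under the reindexing. -/
theorem qubitPower_succ (Φ : Matrix Bool Bool ℂ → Matrix Bool Bool ℂ) (n : ℕ)
    (M : Matrix (Fin (n + 1) → Bool) (Fin (n + 1) → Bool) ℂ) :
    (qubitPower (n + 1) Φ M).submatrix (bitsEquiv n).symm (bitsEquiv n).symm =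
      qubitTensor Φ (qubitPower n Φ) (M.submatrix (bitsEquiv n).symm (bitsEquiv n).symm) := by
  ext ⟨b, σ⟩ ⟨c, τ⟩
  simp only [submatrix_apply, bitsEquiv_symm_apply, qubitPower, qubitTensor, of_apply, block]
  simp_rw [sum_bits n]
  refine Finset.sum_congr rfl fun s' _ => ?_
  rw [Finset.sum_comm]
  refine Finset.sum_congr rfl fun t' _ => ?_
  rw [Finset.mul_sum]
  refine Finset.sum_congr rfl fun σ' _ => ?_
  rw [Finset.mul_sum]
  refine Finset.sum_congr rfl fun τ' _ => ?_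
  simp only [Fin.prod_univ_succ, Fin.cons_zero, Fin.cons_succ]
  ring

/-! ### Kraus form of the power of the GADC -/

/-- Kraus coefficients of the GADC. -/
noncomputable def gadK (γ ν : ℝ) : Fin 4 → Bool → Bool → ℝ := fun a s s' =>
  match a with
  | 0 => Real.sqrt (1 - ν) * (if s = false ∧ s' = false then 1
      else if s = true ∧ s' = true then Real.sqrt (1 - γ) else 0)
  | 1 => Real.sqrt (1 - ν) * (if s = false ∧ s' = true then Real.sqrt γ else 0)
  | 2 => Real.sqrt ν * (if s = false ∧ s' = false then Real.sqrt (1 - γ)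
      else if s = true ∧ s' = true then 1 else 0)
  | 3 => Real.sqrt ν * (if s = true ∧ s' = false then Real.sqrt γ else 0)

lemma qubitCoeff_gad {γ ν : ℝ} (hγ : γ ∈ Set.Icc (0 : ℝ) 1) (hν : ν ∈ Set.Icc (0 : ℝ) 1)
    (s t s' t' : Bool) :
    qubitCoeff (gadMap γ ν) s t s' t' =
      ∑ a : Fin 4, ((gadK γ ν a s s' : ℝ) : ℂ) * ((gadK γ ν a t t' : ℝ) : ℂ) := by
  have h1 : Real.sqrt (1 - ν) * Real.sqrt (1 - ν) = 1 - ν :=
    Real.mul_self_sqrt (by linarith [hν.2])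
  have h2 : Real.sqrt ν * Real.sqrt ν = ν := Real.mul_self_sqrt hν.1
  have h3 : Real.sqrt γ * Real.sqrt γ = γ := Real.mul_self_sqrt hγ.1
  have h4 : Real.sqrt (1 - γ) * Real.sqrt (1 - γ) = 1 - γ :=
    Real.mul_self_sqrt (by linarith [hγ.2])
  have h1' : ((Real.sqrt (1 - ν) : ℝ) : ℂ) * ((Real.sqrt (1 - ν) : ℝ) : ℂ) = 1 - (ν : ℂ) := by
    rw [← Complex.ofReal_mul, h1]; push_cast; ring
  have h2' : ((Real.sqrt ν : ℝ) : ℂ) * ((Real.sqrt ν : ℝ) : ℂ) = (ν : ℂ) := by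
    rw [← Complex.ofReal_mul, h2]
  have h3' : ((Real.sqrt γ : ℝ) : ℂ) * ((Real.sqrt γ : ℝ) : ℂ) = (γ : ℂ) := by
    rw [← Complex.ofReal_mul, h3]
  have h4' : ((Real.sqrt (1 - γ) : ℝ) : ℂ) * ((Real.sqrt (1 - γ) : ℝ) : ℂ) = 1 - (γ : ℂ) := by
    rw [← Complex.ofReal_mul, h4]; push_cast; ring
  cases s <;> cases t <;> cases s' <;> cases t' <;>
    simp [qubitCoeff, gadMap, Fin.sum_univ_four, gadK, Matrix.single_apply]
  · linear_combination (-1 : ℂ) * h1' + (-(((Real.sqrt (1 - γ) : ℝ) : ℂ) * ((Real.sqrt (1 - γ) : ℝ) : ℂ))) * h2' + (-(ν : ℂ)) * h4'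
  · linear_combination (-(((Real.sqrt γ : ℝ) : ℂ) * ((Real.sqrt γ : ℝ) : ℂ))) * h1' + (-(1 - (ν : ℂ))) * h3'
  · linear_combination (-((Real.sqrt (1 - γ) : ℝ) : ℂ)) * h1' + (-((Real.sqrt (1 - γ) : ℝ) : ℂ)) * h2'
  · linear_combination (-((Real.sqrt (1 - γ) : ℝ) : ℂ)) * h1' + (-((Real.sqrt (1 - γ) : ℝ) : ℂ)) * h2'
  · linear_combination (-(((Real.sqrt γ : ℝ) : ℂ) * ((Real.sqrt γ : ℝ) : ℂ))) * h2' + (-(ν : ℂ)) * h3'
  · linear_combination (-(((Real.sqrt (1 - γ) : ℝ) : ℂ) * ((Real.sqrt (1 - γ) : ℝ) : ℂ))) * h1' + (-(1 - (ν : ℂ))) * h4' + (-1 : ℂ) * h2'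

/-- Kraus operators of the power, indexed by words of Kraus labels. -/
noncomputable def powK (γ ν : ℝ) (n : ℕ) (α : Fin n → Fin 4) :
    Matrix (Fin n → Bool) (Fin n → Bool) ℂ :=
  Matrix.of fun σ σ' => ((∏ i, gadK γ ν (α i) (σ i) (σ' i) : ℝ) : ℂ)

lemma prod_qubitCoeff_gad {γ ν : ℝ} (hγ : γ ∈ Set.Icc (0 : ℝ) 1) (hν : ν ∈ Set.Icc (0 : ℝ) 1)
    (n : ℕ) (σ τ σ' τ' : Fin n → Bool) :
    ∏ i, qubitCoeff (gadMap γ ν) (σ i) (τ i) (σ' i) (τ' i) =
      ∑ α : Fin n → Fin 4, powK γ ν n α σ σ' * powK γ ν n α τ τ' := by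
  simp_rw [qubitCoeff_gad hγ hν]
  rw [Finset.prod_univ_sum, Fintype.piFinset_univ]
  refine Finset.sum_congr rfl fun α _ => ?_
  simp only [powK, of_apply]
  push_cast
  rw [Finset.prod_mul_distrib]

lemma qubitPower_gad_kraus {γ ν : ℝ} (hγ : γ ∈ Set.Icc (0 : ℝ) 1) (hν : ν ∈ Set.Icc (0 : ℝ) 1)
    (n : ℕ) (M : Matrix (Fin n → Bool) (Fin n → Bool) ℂ) :
    qubitPower n (gadMap γ ν) M = ∑ α : Fin n → Fin 4, powK γ ν n α * M * (powK γ ν n α)ᴴ := by
  ext σ τ
  simp only [qubitPower, of_apply, Matrix.sum_apply, Matrix.mul_apply, conjTranspose_apply]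
  simp_rw [prod_qubitCoeff_gad hγ hν, Finset.sum_mul]
  refine (Finset.sum_congr rfl fun σ' _ => Finset.sum_comm).trans ?_
  refine Finset.sum_comm.trans ?_
  refine Finset.sum_congr rfl fun α _ => ?_
  refine Finset.sum_comm.trans ?_
  refine Finset.sum_congr rfl fun τ' _ => ?_
  refine Finset.sum_congr rfl fun σ' _ => ?_
  have hconj : star (powK γ ν n α τ τ') = powK γ ν n α τ τ' := by
    simp only [powK, of_apply]
    exact Complex.conj_ofReal _
  rw [hconj]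
  ring

/-- A map in Kraus form is completely positive. -/
lemma isCompletelyPositive_of_kraus_p10 {ι d e : Type*} [Fintype ι] [Fintype d] [Fintype e]
    [DecidableEq d] [DecidableEq e] (Φ : Matrix d d ℂ → Matrix e e ℂ) (A : ι → Matrix e d ℂ)
    (h : ∀ M, Φ M = ∑ a, A a * M * (A a)ᴴ) : IsCompletelyPositive Φ := by
  intro k M hM
  have : blockwise (k := Fin k) Φ M =
      ∑ a, ((1 : Matrix (Fin k) (Fin k) ℂ) ⊗ₖ A a) * M * ((1 : Matrix (Fin k) (Fin k) ℂ) ⊗ₖ A a)ᴴ := by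
    ext ⟨i, x⟩ ⟨j, y⟩
    simp only [blockwise, of_apply, h, Matrix.sum_apply, Matrix.mul_apply, conjTranspose_apply,
      kroneckerMap_apply, block, one_apply, Fintype.sum_prod_type]
    refine Finset.sum_congr rfl fun a _ => ?_
    simp [ite_mul, Finset.sum_ite_eq, apply_ite (star : ℂ → ℂ)]
  rw [this]
  exact Matrix.posSemidef_sum _ fun a _ => hM.mul_mul_conjTranspose_same _

/-- The power of the GADC is a channel. -/
theorem qubitPower_isChannel {γ ν : ℝ} (hγ : γ ∈ Set.Icc (0 : ℝ) 1) (hν : ν ∈ Set.Icc (0 : ℝ) 1)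
    (n : ℕ) : IsChannel (qubitPower n (gadMap γ ν)) := by
  refine ⟨⟨?_, ?_⟩, isCompletelyPositive_of_kraus_p10 _ _ (qubitPower_gad_kraus hγ hν n), ?_⟩
  · intro M N
    ext σ τ
    simp [qubitPower, mul_add, Finset.sum_add_distrib]
  · intro c M
    ext σ τ
    simp only [qubitPower, of_apply, Matrix.smul_apply, smul_eq_mul, Finset.mul_sum]
    refine Finset.sum_congr rfl fun _ _ => Finset.sum_congr rfl fun _ _ => ?_
    ring
  · intro M
    have hTP := (gadMap_isChannel hγ hν).2.2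
    have hs : ∀ s' t' : Bool, ∑ s : Bool, qubitCoeff (gadMap γ ν) s s s' t' =
        if s' = t' then 1 else 0 := by
      intro s' t'
      have := hTP (Matrix.single s' t' 1)
      simp only [Matrix.trace, diag_apply] at this
      simp only [qubitCoeff]
      rw [this]
      cases s' <;> cases t' <;> simp [Matrix.single_apply]
    simp only [Matrix.trace, diag_apply, qubitPower, of_apply]
    rw [Finset.sum_comm]
    refine Finset.sum_congr rfl fun σ' _ => ?_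
    rw [Finset.sum_comm]
    have hprod : ∀ τ' : Fin n → Bool,
        ∑ σ : Fin n → Bool, ∏ i, qubitCoeff (gadMap γ ν) (σ i) (σ i) (σ' i) (τ' i) =
          if σ' = τ' then 1 else 0 := by
      intro τ'
      have := (Finset.prod_univ_sum (fun _ : Fin n => (Finset.univ : Finset Bool))
        (fun i s => qubitCoeff (gadMap γ ν) s s (σ' i) (τ' i)))
      rw [Fintype.piFinset_univ] at this
      rw [← this]
      simp_rw [hs]
      rw [Finset.prod_ite_zero]
      simp [funext_iff]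
    simp_rw [← Finset.sum_mul, hprod]
    simp

/-! ### Densities and reindexing -/

section aux

variable {d e : Type*} [Fintype d] [Fintype e] [DecidableEq d] [DecidableEq e]

omit [Fintype d] [Fintype e] [DecidableEq d] [DecidableEq e] in
lemma cp_posSemidef_apply_p10 [Fintype d] [DecidableEq d] [Fintype e] [DecidableEq e] {Φ : Matrix d d ℂ → Matrix e e ℂ}
    (h : IsCompletelyPositive Φ) {M : Matrix d d ℂ} (hM : M.PosSemidef) : (Φ M).PosSemidef := by
  let i : Fin 1 × d ≃ d := Equiv.uniqueProd d (Fin 1)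
  let i' : Fin 1 × e ≃ e := Equiv.uniqueProd e (Fin 1)
  have h1 : (M.submatrix i i).PosSemidef := (Matrix.posSemidef_submatrix_equiv i).2 hM
  have h2 := h 1 _ h1
  have h3 : blockwise (k := Fin 1) Φ (M.submatrix i i) = (Φ M).submatrix i' i' := by
    ext ⟨a, x⟩ ⟨b, y⟩
    have : block (M.submatrix i i) a b = M := by
      ext u v
      simp [block, i]
    simp only [blockwise, of_apply, this, submatrix_apply, i']
    rfl
  rw [h3] at h2
  exact (Matrix.posSemidef_submatrix_equiv i').1 h2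

lemma isDensity_apply_p10 {Φ : Matrix d d ℂ → Matrix e e ℂ} (h : IsChannel Φ) {M : Matrix d d ℂ}
    (hM : IsDensity M) : IsDensity (Φ M) :=
  ⟨cp_posSemidef_apply_p10 h.2.1 hM.1, (h.2.2 M).trans hM.2⟩

lemma isDensity_submatrix_p10 {a b : Type*} [Fintype a] [Fintype b] (i : a ≃ b) {M : Matrix b b ℂ}
    (hM : IsDensity M) : IsDensity (M.submatrix i i) := by
  refine ⟨(Matrix.posSemidef_submatrix_equiv i).2 hM.1, ?_⟩
  rw [← hM.2]
  simp only [Matrix.trace, diag_apply, submatrix_apply]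
  exact i.sum_comp (fun x => M x x)

lemma isDensity_average_p10 {a : Type*} [Fintype a] {m : ℕ} {q : Fin m → ℝ}
    {X : Fin m → Matrix a a ℂ} (h0 : ∀ i, 0 ≤ q i) (h1 : ∑ i, q i = 1)
    (hX : ∀ i, IsDensity (X i)) : IsDensity (∑ i, (q i : ℂ) • X i) := by
  refine ⟨Matrix.posSemidef_sum _ fun i _ => (hX i).1.smul (by exact_mod_cast h0 i), ?_⟩
  rw [Matrix.trace_sum]
  simp only [Matrix.trace_smul, (hX _).2, smul_eq_mul, mul_one]
  exact_mod_cast h1

/-- Reindexing the Holevo information. -/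
lemma holevoInfo_reindex_p10 {a a' b b' : Type*} [Fintype a] [Fintype a'] [Fintype b] [Fintype b']
    [DecidableEq b] [DecidableEq b'] {m : ℕ} (i : b' ≃ b) (j : a' ≃ a)
    (Φ : Matrix a a ℂ → Matrix b b ℂ) (Φ' : Matrix a' a' ℂ → Matrix b' b' ℂ)
    (hΦ : ∀ M, Φ' (M.submatrix j j) = (Φ M).submatrix i i)
    {q : Fin m → ℝ} (h0 : ∀ k, 0 ≤ q k) (h1 : ∑ k, q k = 1) (ρ : Fin m → Matrix a a ℂ)
    (hd : ∀ k, IsDensity (Φ (ρ k))) :
    holevoInfo Φ' q (fun k => (ρ k).submatrix j j) = holevoInfo Φ q ρ := by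
  unfold holevoInfo
  simp only [hΦ]
  have hsub : (∑ k, (q k : ℂ) • (Φ (ρ k)).submatrix i i) =
      (∑ k, (q k : ℂ) • Φ (ρ k)).submatrix i i := by
    ext x y
    simp [Matrix.sum_apply]
  rw [hsub, vnEntropy_submatrix i (isDensity_average_p10 h0 h1 hd).1.1]
  congr 1
  refine Finset.sum_congr rfl fun k _ => ?_
  rw [vnEntropy_submatrix i (hd k).1.1]

end aux

/-- For `n = 0` the power is the identity. -/
lemma qubitPower_zero (Φ : Matrix Bool Bool ℂ → Matrix Bool Bool ℂ)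
    (M : Matrix (Fin 0 → Bool) (Fin 0 → Bool) ℂ) : qubitPower 0 Φ M = M := by
  ext σ τ
  simp only [qubitPower, of_apply, Finset.univ_unique, Finset.sum_singleton, Finset.univ_eq_empty,
    Finset.prod_empty, one_mul]
  exact congr_arg₂ M (Subsingleton.elim _ _) (Subsingleton.elim _ _)

lemma vnEntropy_unique_density {a : Type*} [Fintype a] [DecidableEq a] [Unique a]
    {M : Matrix a a ℂ} (hM : IsDensity M) : vnEntropy M = 0 := by
  have h := rtr_eq_sum_eigenvalues hM.1.1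
  have h1 : rtr M = 1 := by simp [rtr, hM.2]
  rw [h1, Fintype.sum_unique] at h
  unfold vnEntropy
  rw [dif_pos hM.1.1, Fintype.sum_unique, ← h]
  simp

lemma holevo_zero_eq {Φ : Matrix Bool Bool ℂ → Matrix Bool Bool ℂ} {m : ℕ} {q : Fin m → ℝ}
    {ρ : Fin m → Matrix (Fin 0 → Bool) (Fin 0 → Bool) ℂ} (hens : IsEnsemble q ρ) :
    holevoInfo (qubitPower 0 Φ) q ρ = 0 := by
  unfold holevoInfo
  simp only [qubitPower_zero]
  rw [vnEntropy_unique_density (isDensity_average_p10 hens.1 hens.2.1 hens.2.2)]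
  simp [vnEntropy_unique_density (hens.2.2 _)]

lemma holevo_reindex_succ {γ ν : ℝ} (hγ : γ ∈ Set.Icc (0 : ℝ) 1) (hν : ν ∈ Set.Icc (0 : ℝ) 1)
    (n : ℕ) {m : ℕ} {q : Fin m → ℝ}
    {ρ : Fin m → Matrix (Fin (n + 1) → Bool) (Fin (n + 1) → Bool) ℂ} (hens : IsEnsemble q ρ) :
    holevoInfo (qubitTensor (gadMap γ ν) (qubitPower n (gadMap γ ν))) q
        (fun k => (ρ k).submatrix (bitsEquiv n).symm (bitsEquiv n).symm) =
      holevoInfo (qubitPower (n + 1) (gadMap γ ν)) q ρ := by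
  refine holevoInfo_reindex_p10 (bitsEquiv n).symm (bitsEquiv n).symm _ _
    (fun M => (qubitPower_succ _ n M).symm) hens.1 hens.2.1 ρ
    (fun k => isDensity_apply_p10 (qubitPower_isChannel hγ hν (n + 1)) (hens.2.2 k))

/-- Upper bound: every ensemble. -/
theorem holevo_power_le {γ ν : ℝ} (hγ : γ ∈ Set.Icc (0 : ℝ) 1) (hν : ν ∈ Set.Icc (0 : ℝ) 1)
    (n : ℕ) {m : ℕ} {q : Fin m → ℝ} {ρ : Fin m → Matrix (Fin n → Bool) (Fin n → Bool) ℂ}
    (hens : IsEnsemble q ρ) :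
    ∃ p ∈ Set.Icc (0 : ℝ) 1, holevoInfo (qubitPower n (gadMap γ ν)) q ρ ≤ n * gadRate γ ν p := by
  induction n generalizing m with
  | zero =>
    refine ⟨0, by simp, ?_⟩
    rw [holevo_zero_eq hens]
    simp
  | succ n ih =>
    have hens' : IsEnsemble q (fun k => (ρ k).submatrix (bitsEquiv n).symm (bitsEquiv n).symm) :=
      ⟨hens.1, hens.2.1, fun k => isDensity_submatrix_p10 _ (hens.2.2 k)⟩
    obtain ⟨p, hp, m₂, q₂, ρ₂, hens₂, hle⟩ :=
      holevo_tensor_le hγ hν (qubitPower_isChannel hγ hν n) hens'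
    obtain ⟨p', hp', hle'⟩ := ih hens₂
    rw [holevo_reindex_succ hγ hν n hens] at hle
    have hn : (0 : ℝ) ≤ n := Nat.cast_nonneg n
    push_cast
    rcases le_total (gadRate γ ν p) (gadRate γ ν p') with h | h
    · exact ⟨p', hp', by nlinarith⟩
    · exact ⟨p, hp, by nlinarith⟩

/-- Lower bound: every `p`. -/
theorem holevo_power_ge {γ ν : ℝ} (hγ : γ ∈ Set.Icc (0 : ℝ) 1) (hν : ν ∈ Set.Icc (0 : ℝ) 1)
    (n : ℕ) {p : ℝ} (hp : p ∈ Set.Icc (0 : ℝ) 1) :
    ∃ (m : ℕ) (q : Fin m → ℝ) (ρ : Fin m → Matrix (Fin n → Bool) (Fin n → Bool) ℂ),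
      IsEnsemble q ρ ∧ n * gadRate γ ν p ≤ holevoInfo (qubitPower n (gadMap γ ν)) q ρ := by
  induction n with
  | zero =>
    have hens : IsEnsemble (fun _ : Fin 1 => (1 : ℝ))
        (fun _ : Fin 1 => (1 : Matrix (Fin 0 → Bool) (Fin 0 → Bool) ℂ)) := by
      refine ⟨fun _ => zero_le_one, by simp, fun _ => ⟨Matrix.PosSemidef.one, by simp⟩⟩
    refine ⟨1, _, _, hens, ?_⟩
    rw [holevo_zero_eq hens]
    simp
  | succ n ih =>
    obtain ⟨q₁, ρ₁, h₁, hr⟩ := rate_achieved hγ hν hp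
    obtain ⟨m₂, q₂, ρ₂, h₂, hge⟩ := ih
    obtain ⟨m, q, ρ, hens, heq⟩ := holevo_product (gadMap_isChannel hγ hν)
      (qubitPower_isChannel hγ hν n) h₁ h₂
    have hens' : IsEnsemble q (fun k => (ρ k).submatrix (bitsEquiv n) (bitsEquiv n)) :=
      ⟨hens.1, hens.2.1, fun k => isDensity_submatrix_p10 _ (hens.2.2 k)⟩
    refine ⟨m, q, _, hens', ?_⟩
    rw [← holevo_reindex_succ hγ hν n hens']
    have hsub : (fun k => ((ρ k).submatrix (bitsEquiv n) (bitsEquiv n)).submatrix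
        (bitsEquiv n).symm (bitsEquiv n).symm) = ρ := by
      funext k
      ext x y
      simp only [submatrix_apply, Equiv.apply_symm_apply]
    rw [hsub, ← heq, hr]
    push_cast
    linarith

end Crest.Agent.S0534Lib
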